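import Vale.Agent.P088.H884.Star

/-!
# P088, local rigidity: the data by the Dirichlet principle

`En Ω s f` is the infimum of the Dirichlet energy of `s` over the smooth extensions of the boundary
values of `f`; `SE` says that two tensors have the same energies. No solution of a boundary value
problem is mentioned. `SD` implies `SE`, and `SE` implies the orthogonality identity `Star`.
-/

open MeasureTheory Set
open scoped ContDiff Matrix

noncomputable section

namespace Vale.Agent.P088.H639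

open Vale.Agent.P088.LR Vale.Agent.P088.H884

variable {n : ℕ}

/-- `∫_Ω s(∇u, ∇v)` for real functions. -/
def rb (Ω : Set (V n)) (s : MF n) (u v : V n → ℝ) : ℝ :=
  ∫ x in Ω, ∑ i, ∑ j, s x i j * pd i u x * pd j v x

/-- The Dirichlet energy of the boundary values `f`: the infimum of `∫_Ω s(∇u, ∇u)` over all smooth
`u` with `u = f` on `∂Ω`. -/
def En (Ω : Set (V n)) (s : MF n) (f : V n → ℝ) : ℝ :=
  sInf {e | ∃ u : V n → ℝ, ContDiff ℝ ∞ u ∧ (∀ x ∈ frontier Ω, u x = f x) ∧ e = rb Ω s u u}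

/-- All boundary values have the same Dirichlet energy for `s₁` and `s₂`. -/
def SE (Ω : Set (V n)) (s₁ s₂ : MF n) : Prop :=
  ∀ f : V n → ℝ, ContDiff ℝ ∞ f → En Ω s₁ f = En Ω s₂ f

/-- `W` is orthogonal to the functions which vanish on the boundary. -/
def Sl (Ω : Set (V n)) (s : MF n) (W : V n → ℝ) : Prop :=
  ContDiff ℝ ∞ W ∧ ∀ φ : V n → ℝ, ContDiff ℝ ∞ φ → (∀ x ∈ frontier Ω, φ x = 0) → rb Ω s W φ = 0

/-- Complexification. -/
abbrev oc (u : V n → ℝ) : V n → ℂ := fun x => (u x : ℂ)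

theorem pd_oc {u : V n → ℝ} (hu : ContDiff ℝ ∞ u) (i : Fin n) (x : V n) :
    pd i (oc u) x = ((pd i u x : ℝ) : ℂ) := by
  have h : HasFDerivAt (oc u) (Complex.ofRealCLM.comp (fderiv ℝ u x)) x :=
    Complex.ofRealCLM.hasFDerivAt.comp x ((hu.differentiable (by simp)) x).hasFDerivAt
  unfold pd
  rw [h.fderiv]
  rfl

theorem oc_contDiff {u : V n → ℝ} (hu : ContDiff ℝ ∞ u) : ContDiff ℝ ∞ (oc u) :=
  Complex.ofRealCLM.contDiff.comp hu

theorem bl_oc {Ω : Set (V n)} {s : MF n} {u v : V n → ℝ} (hu : ContDiff ℝ ∞ u)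
    (hv : ContDiff ℝ ∞ v) : bl Ω s (oc u) (oc v) = ((rb Ω s u v : ℝ) : ℂ) := by
  unfold bl rb
  refine Eq.trans ?_ integral_ofReal
  refine integral_congr_ae (Filter.Eventually.of_forall fun x => ?_)
  simp only [pd_oc hu, pd_oc hv]
  push_cast
  rfl

theorem pdr_continuous {u : V n → ℝ} (hu : ContDiff ℝ ∞ u) (i : Fin n) :
    Continuous (pd i u) := by
  unfold pd
  exact (hu.continuous_fderiv (by simp)).clm_apply continuous_const

theorem pdr_add {u v : V n → ℝ} (hu : ContDiff ℝ ∞ u) (hv : ContDiff ℝ ∞ v) (i : Fin n)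
    (x : V n) : pd i (fun y => u y + v y) x = pd i u x + pd i v x := by
  unfold pd
  rw [fderiv_fun_add (hu.differentiable (by simp) x) (hv.differentiable (by simp) x)]
  rfl

theorem rb_integrable {Ω : Set (V n)} (hb : Bornology.IsBounded Ω) {s : MF n}
    (hs : ∀ i j, Continuous fun x => s x i j) {u v : V n → ℝ} (hu : ContDiff ℝ ∞ u)
    (hv : ContDiff ℝ ∞ v) :
    IntegrableOn (fun x => ∑ i, ∑ j, s x i j * pd i u x * pd j v x) Ω := by
  have hc : Continuous fun x => ∑ i, ∑ j, s x i j * pd i u x * pd j v x := by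
    refine continuous_finsetSum _ fun i _ => continuous_finsetSum _ fun j _ => ?_
    exact ((hs i j).mul (pdr_continuous hu i)).mul (pdr_continuous hv j)
  exact (hc.continuousOn.integrableOn_compact hb.isCompact_closure).mono_set subset_closure

theorem rb_comm (Ω : Set (V n)) {s : MF n} (hs : ∀ x, (s x).IsSymm) (u v : V n → ℝ) :
    rb Ω s u v = rb Ω s v u := by
  unfold rb
  refine integral_congr_ae (Filter.Eventually.of_forall fun x => ?_)
  simp only
  rw [Finset.sum_comm]
  refine Finset.sum_congr rfl fun j _ => Finset.sum_congr rfl fun i _ => ?_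
  rw [(hs x).apply j i]
  ring

theorem rb_add_right {Ω : Set (V n)} (hb : Bornology.IsBounded Ω) {s : MF n}
    (hs : ∀ i j, Continuous fun x => s x i j) {u v v' : V n → ℝ} (hu : ContDiff ℝ ∞ u)
    (hv : ContDiff ℝ ∞ v) (hv' : ContDiff ℝ ∞ v') :
    rb Ω s u (fun y => v y + v' y) = rb Ω s u v + rb Ω s u v' := by
  unfold rb
  rw [← integral_add (rb_integrable hb hs hu hv) (rb_integrable hb hs hu hv')]
  refine integral_congr_ae (Filter.Eventually.of_forall fun x => ?_)
  simp only [pdr_add hv hv', mul_add, Finset.sum_add_distrib]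

theorem rb_add_left {Ω : Set (V n)} (hb : Bornology.IsBounded Ω) {s : MF n}
    (hs : ∀ i j, Continuous fun x => s x i j) {u u' v : V n → ℝ} (hu : ContDiff ℝ ∞ u)
    (hu' : ContDiff ℝ ∞ u') (hv : ContDiff ℝ ∞ v) :
    rb Ω s (fun y => u y + u' y) v = rb Ω s u v + rb Ω s u' v := by
  unfold rb
  rw [← integral_add (rb_integrable hb hs hu hv) (rb_integrable hb hs hu' hv)]
  refine integral_congr_ae (Filter.Eventually.of_forall fun x => ?_)
  simp only [pdr_add hu hu', mul_add, add_mul, Finset.sum_add_distrib]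

/-- The energy of a sum. -/
theorem rb_sq_add {Ω : Set (V n)} (hb : Bornology.IsBounded Ω) {s : MF n}
    (hs : ∀ i j, Continuous fun x => s x i j) (hsym : ∀ x, (s x).IsSymm) {u v : V n → ℝ}
    (hu : ContDiff ℝ ∞ u) (hv : ContDiff ℝ ∞ v) :
    rb Ω s (fun y => u y + v y) (fun y => u y + v y) =
      rb Ω s u u + 2 * rb Ω s u v + rb Ω s v v := by
  rw [rb_add_right hb hs (hu.add hv) hu hv, rb_add_left hb hs hu hv hu,
    rb_add_left hb hs hu hv hv, rb_comm Ω hsym v u]
  ring

theorem rb_nonneg {Ω : Set (V n)} {s : MF n} (hp : ∀ x, (s x).PosSemidef) (u : V n → ℝ) :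
    0 ≤ rb Ω s u u := by
  unfold rb
  refine integral_nonneg fun x => ?_
  have h := (hp x).dotProduct_mulVec_nonneg (fun i => pd i u x)
  have e : star (fun i => pd i u x) ⬝ᵥ s x *ᵥ (fun i => pd i u x) =
      ∑ i, ∑ j, s x i j * pd i u x * pd j u x := by
    simp only [dotProduct, Matrix.mulVec, Finset.mul_sum, star_trivial, Pi.star_apply]
    refine Finset.sum_congr rfl fun i _ => Finset.sum_congr rfl fun j _ => ?_
    ring
  rw [e] at h
  exact h

theorem En_bdd {Ω : Set (V n)} {s : MF n} (hp : ∀ x, (s x).PosSemidef) (f : V n → ℝ) :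
    BddBelow {e | ∃ u : V n → ℝ, ContDiff ℝ ∞ u ∧ (∀ x ∈ frontier Ω, u x = f x) ∧
      e = rb Ω s u u} :=
  ⟨0, by rintro e ⟨u, _, _, rfl⟩; exact rb_nonneg hp u⟩

/-- Shifting the boundary values by those of a solution. -/
theorem En_shift {Ω : Set (V n)} (hb : Bornology.IsBounded Ω) {s : MF n}
    (hs : ∀ i j, Continuous fun x => s x i j) (hsym : ∀ x, (s x).IsSymm)
    (hp : ∀ x, (s x).PosSemidef) {W f : V n → ℝ} (hW : Sl Ω s W) (hf : ContDiff ℝ ∞ f) :
    En Ω s (fun y => W y + f y) = rb Ω s W W + 2 * rb Ω s W f + En Ω s f := by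
  have key : ∀ u : V n → ℝ, ContDiff ℝ ∞ u → (∀ x ∈ frontier Ω, u x = f x) →
      rb Ω s (fun y => W y + u y) (fun y => W y + u y) =
        rb Ω s W W + 2 * rb Ω s W f + rb Ω s u u := by
    intro u hu huf
    rw [rb_sq_add hb hs hsym hW.1 hu]
    have h0 : rb Ω s W (fun y => u y + (-1) * f y) = 0 := hW.2 _
      (hu.add (contDiff_const.mul hf)) fun x hx => by rw [huf x hx]; ring
    have h1 : rb Ω s W u = rb Ω s W f := by
      have h2 := rb_add_right hb hs hW.1 hf (hu.add (contDiff_const.mul hf) : ContDiff ℝ ∞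
        (fun y => u y + (-1) * f y))
      rw [h0, add_zero] at h2
      rw [← h2]
      congr 1
      funext y
      ring
    rw [h1]
  have himg : {e | ∃ u : V n → ℝ, ContDiff ℝ ∞ u ∧ (∀ x ∈ frontier Ω, u x = W x + f x) ∧
      e = rb Ω s u u} = (OrderIso.addLeft (rb Ω s W W + 2 * rb Ω s W f)) ''
      {e | ∃ u : V n → ℝ, ContDiff ℝ ∞ u ∧ (∀ x ∈ frontier Ω, u x = f x) ∧
      e = rb Ω s u u} := by
    ext e
    constructor
    · rintro ⟨u, hu, huf, rfl⟩
      have hv : ContDiff ℝ ∞ (fun y => u y + (-1) * W y) := hu.add (contDiff_const.mul hW.1)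
      have hv' : ∀ x ∈ frontier Ω, u x + (-1) * W x = f x := fun x hx => by
        rw [huf x hx]; ring
      refine ⟨_, ⟨fun y => u y + (-1) * W y, hv, hv', rfl⟩, ?_⟩
      rw [OrderIso.addLeft_apply, ← key _ hv hv']
      have e1 : (fun y => W y + (u y + (-1) * W y)) = u := by
        funext y
        ring
      simp only [e1]
    · rintro ⟨_, ⟨u, hu, huf, rfl⟩, rfl⟩
      refine ⟨fun y => W y + u y, hW.1.add hu, fun x hx => by simp only [huf x hx], ?_⟩
      rw [OrderIso.addLeft_apply, key u hu huf]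
  unfold En
  have hne : {e | ∃ u : V n → ℝ, ContDiff ℝ ∞ u ∧ (∀ x ∈ frontier Ω, u x = f x) ∧
      e = rb Ω s u u}.Nonempty := ⟨rb Ω s f f, f, hf, fun _ _ => rfl, rfl⟩
  rw [himg, ← OrderIso.map_csInf' (OrderIso.addLeft (rb Ω s W W + 2 * rb Ω s W f)) hne
    (En_bdd hp f)]
  rfl

theorem rb_zero (Ω : Set (V n)) (s : MF n) (u : V n → ℝ) : rb Ω s u (fun _ => 0) = 0 := by
  unfold rb pd
  simp

theorem En_zero {Ω : Set (V n)} {s : MF n} (hp : ∀ x, (s x).PosSemidef) :
    En Ω s (fun _ => 0) = 0 := by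
  refine le_antisymm ?_ ?_
  · exact csInf_le (En_bdd hp _) ⟨fun _ => 0, contDiff_const, fun _ _ => rfl,
      (rb_zero Ω s _).symm⟩
  · refine le_csInf ⟨_, fun _ => 0, contDiff_const, fun _ _ => rfl, rfl⟩ ?_
    rintro e ⟨u, _, _, rfl⟩
    exact rb_nonneg hp u

/-- A solution has minimal energy. -/
theorem En_sol {Ω : Set (V n)} (hb : Bornology.IsBounded Ω) {s : MF n}
    (hs : ∀ i j, Continuous fun x => s x i j) (hsym : ∀ x, (s x).IsSymm)
    (hp : ∀ x, (s x).PosSemidef) {W : V n → ℝ} (hW : Sl Ω s W) :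
    En Ω s W = rb Ω s W W := by
  have h := En_shift hb hs hsym hp hW (f := fun _ => 0) contDiff_const
  rw [En_zero hp, rb_zero] at h
  simpa using h

/-- Equal energies: the identity for real solutions. -/
theorem rb_eq_of_SE {Ω : Set (V n)} (hb : Bornology.IsBounded Ω) {s t : MF n}
    (hs : ∀ i j, Continuous fun x => s x i j) (hsym : ∀ x, (s x).IsSymm)
    (hp : ∀ x, (s x).PosSemidef) (ht : ∀ i j, Continuous fun x => t x i j)
    (htsym : ∀ x, (t x).IsSymm) (htp : ∀ x, (t x).PosSemidef) (hSE : SE Ω t s)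
    {U W : V n → ℝ} (hU : Sl Ω t U) (hW : Sl Ω s W) : rb Ω t U W = rb Ω s U W := by
  have h1 := En_shift hb ht htsym htp hU hW.1
  have h2 := En_shift hb hs hsym hp hW hU.1
  have h3 := hSE _ (hU.1.add hW.1)
  have h4 := hSE _ hU.1
  have h5 := hSE _ hW.1
  have h6 := En_sol hb ht htsym htp hU
  have h7 := En_sol hb hs hsym hp hW
  have h8 : En Ω s (fun y => W y + U y) = En Ω s (fun y => U y + W y) := by
    congr 1
    funext y
    ring
  rw [rb_comm Ω hsym W U] at h2
  linarith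

/-! ## From complex to real solutions -/

/-- Real part of a complex function. -/
abbrev rp (u : V n → ℂ) : V n → ℝ := fun x => (u x).re

/-- Imaginary part of a complex function. -/
abbrev mp (u : V n → ℂ) : V n → ℝ := fun x => (u x).im

theorem rp_contDiff {u : V n → ℂ} (hu : ContDiff ℝ ∞ u) : ContDiff ℝ ∞ (rp u) :=
  Complex.reCLM.contDiff.comp hu

theorem mp_contDiff {u : V n → ℂ} (hu : ContDiff ℝ ∞ u) : ContDiff ℝ ∞ (mp u) :=
  Complex.imCLM.contDiff.comp hu

theorem pd_rp {u : V n → ℂ} {x : V n} (hu : DifferentiableAt ℝ u x) (i : Fin n) :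
    pd i (rp u) x = (pd i u x).re := by
  have h : HasFDerivAt (rp u) (Complex.reCLM.comp (fderiv ℝ u x)) x :=
    Complex.reCLM.hasFDerivAt.comp x hu.hasFDerivAt
  unfold pd
  rw [h.fderiv]
  rfl

theorem pd_mp {u : V n → ℂ} {x : V n} (hu : DifferentiableAt ℝ u x) (i : Fin n) :
    pd i (mp u) x = (pd i u x).im := by
  have h : HasFDerivAt (mp u) (Complex.imCLM.comp (fderiv ℝ u x)) x :=
    Complex.imCLM.hasFDerivAt.comp x hu.hasFDerivAt
  unfold pd
  rw [h.fderiv]
  rfl

theorem bl_re {Ω : Set (V n)} (hb : Bornology.IsBounded Ω) {s : MF n}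
    (hs : ∀ i j, Continuous fun x => s x i j) {u v : V n → ℂ} (hu : ContDiff ℝ ∞ u)
    (hv : ContDiff ℝ ∞ v) :
    bl Ω s u v = ((rb Ω s (rp u) (rp v) - rb Ω s (mp u) (mp v) : ℝ) : ℂ) +
      ((rb Ω s (rp u) (mp v) + rb Ω s (mp u) (rp v) : ℝ) : ℂ) * Complex.I := by
  have hi := bl_integrable hb hs hu hv
  have hru := rp_contDiff hu
  have hrv := rp_contDiff hv
  have hmu := mp_contDiff hu
  have hmv := mp_contDiff hv
  have e1 : (bl Ω s u v).re = rb Ω s (rp u) (rp v) - rb Ω s (mp u) (mp v) := by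
    unfold bl rb
    rw [← integral_sub (rb_integrable hb hs hru hrv) (rb_integrable hb hs hmu hmv)]
    refine (integral_re hi).symm.trans ?_
    refine integral_congr_ae (Filter.Eventually.of_forall fun x => ?_)
    simp only [pd_rp (hu.differentiable (by simp) x), pd_rp (hv.differentiable (by simp) x),
      pd_mp (hu.differentiable (by simp) x), pd_mp (hv.differentiable (by simp) x),
      ← Finset.sum_sub_distrib, RCLike.re_to_complex, Complex.re_sum]
    refine Finset.sum_congr rfl fun i _ => Finset.sum_congr rfl fun j _ => ?_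
    simp only [Complex.mul_re, Complex.mul_im, Complex.ofReal_re, Complex.ofReal_im]
    ring
  have e2 : (bl Ω s u v).im = rb Ω s (rp u) (mp v) + rb Ω s (mp u) (rp v) := by
    unfold bl rb
    rw [← integral_add (rb_integrable hb hs hru hmv) (rb_integrable hb hs hmu hrv)]
    refine (integral_im hi).symm.trans ?_
    refine integral_congr_ae (Filter.Eventually.of_forall fun x => ?_)
    simp only [pd_rp (hu.differentiable (by simp) x), pd_rp (hv.differentiable (by simp) x),
      pd_mp (hu.differentiable (by simp) x), pd_mp (hv.differentiable (by simp) x),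
      ← Finset.sum_add_distrib, RCLike.im_to_complex, Complex.im_sum]
    refine Finset.sum_congr rfl fun i _ => Finset.sum_congr rfl fun j _ => ?_
    simp only [Complex.mul_re, Complex.mul_im, Complex.ofReal_re, Complex.ofReal_im]
    ring
  rw [← e1, ← e2, Complex.re_add_im]

/-- The pointwise equation for the real and imaginary parts. -/
theorem dv_parts {s : MF n} (hs : SmM s) {W : V n → ℂ} (hW : ContDiff ℝ ∞ W) (x : V n) :
    dv s (oc (rp W)) x = (((dv s W x).re : ℝ) : ℂ) ∧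
      dv s (oc (mp W)) x = (((dv s W x).im : ℝ) : ℂ) := by
  have hpd : ∀ j, ContDiff ℝ ∞ (pd j W) := fun j => by
    unfold pd
    exact (hW.fderiv_right (m := ∞) (by simp)).clm_apply contDiff_const
  have hF : ∀ i, ContDiff ℝ ∞ (fun y => ∑ j, (s y i j : ℂ) * pd j W y) := fun i =>
    ContDiff.sum fun j _ => (Complex.ofRealCLM.contDiff.comp (hs i j)).mul (hpd j)
  have h1 : ∀ i, (fun y => ∑ j, (s y i j : ℂ) * pd j (oc (rp W)) y) =
      oc (rp (fun y => ∑ j, (s y i j : ℂ) * pd j W y)) := fun i => by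
    funext y
    show _ = (((∑ j, (s y i j : ℂ) * pd j W y).re : ℝ) : ℂ)
    simp only [pd_oc (rp_contDiff hW), pd_rp (hW.differentiable (by simp) y), Complex.re_sum,
      Complex.re_ofReal_mul, Complex.ofReal_sum, Complex.ofReal_mul]
  have h2 : ∀ i, (fun y => ∑ j, (s y i j : ℂ) * pd j (oc (mp W)) y) =
      oc (mp (fun y => ∑ j, (s y i j : ℂ) * pd j W y)) := fun i => by
    funext y
    show _ = (((∑ j, (s y i j : ℂ) * pd j W y).im : ℝ) : ℂ)
    simp only [pd_oc (mp_contDiff hW), pd_mp (hW.differentiable (by simp) y), Complex.im_sum,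
      Complex.im_ofReal_mul, Complex.ofReal_sum, Complex.ofReal_mul]
  constructor
  · unfold dv
    simp only [h1, Complex.re_sum, Complex.ofReal_sum]
    refine Finset.sum_congr rfl fun i _ => ?_
    rw [pd_oc (rp_contDiff (hF i)), pd_rp ((hF i).differentiable (by simp) x)]
  · unfold dv
    simp only [h2, Complex.im_sum, Complex.ofReal_sum]
    refine Finset.sum_congr rfl fun i _ => ?_
    rw [pd_oc (mp_contDiff (hF i)), pd_mp ((hF i).differentiable (by simp) x)]

/-- A pointwise solution is a solution. -/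
theorem Sl_of_dv (weak : RowWEAK) {Ω : Set (V n)} (hO : IsOpen Ω) (hb : Bornology.IsBounded Ω)
    {s : MF n} (hs : SmM s) (hsym : ∀ x, (s x).IsSymm) {W : V n → ℝ} (hW : ContDiff ℝ ∞ W)
    (hdv : ∀ x ∈ Ω, dv s (oc W) x = 0) : Sl Ω s W := by
  refine ⟨hW, fun φ hφ h0 => ?_⟩
  have h := weak Ω hO hb s hs hsym (oc W) (oc φ) (oc_contDiff hW) (oc_contDiff hφ) hdv
    fun x hx => by simp only [oc, h0 x hx, Complex.ofReal_zero]
  rw [bl_oc hW hφ] at h
  exact_mod_cast h

/-- **Equal Dirichlet energies give the orthogonality identity.** -/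
theorem star_of_SE (weak : RowWEAK) {Ω : Set (V n)} (hO : IsOpen Ω)
    (hb : Bornology.IsBounded Ω) {s : MF n} (hs : SmM s) (hsym : ∀ x, (s x).IsSymm)
    (hp : ∀ x, (s x).PosSemidef) (hSE : SE Ω (fun _ => 1) s) : Star Ω s := by
  intro U W hU hW hU0 hW0
  have hsc : ∀ i j, Continuous fun x => s x i j := fun i j => (hs i j).continuous
  have h1m : SmM (fun _ : V n => (1 : Matrix (Fin n) (Fin n) ℝ)) := fun i j => contDiff_const
  have h1c : ∀ i j, Continuous fun _ : V n => (1 : Matrix (Fin n) (Fin n) ℝ) i j :=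
    fun i j => continuous_const
  have h1s : ∀ _ : V n, (1 : Matrix (Fin n) (Fin n) ℝ).IsSymm := fun _ => Matrix.isSymm_one
  have h1p : ∀ _ : V n, (1 : Matrix (Fin n) (Fin n) ℝ).PosSemidef := fun _ =>
    Matrix.PosSemidef.one
  have u1 : Sl Ω (fun _ => 1) (rp U) := Sl_of_dv weak hO hb h1m h1s (rp_contDiff hU)
    fun x hx => by rw [(dv_parts h1m hU x).1, hU0 x hx]; simp
  have u2 : Sl Ω (fun _ => 1) (mp U) := Sl_of_dv weak hO hb h1m h1s (mp_contDiff hU)
    fun x hx => by rw [(dv_parts h1m hU x).2, hU0 x hx]; simp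
  have w1 : Sl Ω s (rp W) := Sl_of_dv weak hO hb hs hsym (rp_contDiff hW)
    fun x hx => by rw [(dv_parts hs hW x).1, hW0 x hx]; simp
  have w2 : Sl Ω s (mp W) := Sl_of_dv weak hO hb hs hsym (mp_contDiff hW)
    fun x hx => by rw [(dv_parts hs hW x).2, hW0 x hx]; simp
  rw [bl_sub_mat hb hsc h1c hU hW, bl_re hb hsc hU hW, bl_re hb h1c hU hW,
    rb_eq_of_SE hb hsc hsym hp h1c h1s h1p hSE u1 w1,
    rb_eq_of_SE hb hsc hsym hp h1c h1s h1p hSE u1 w2,
    rb_eq_of_SE hb hsc hsym hp h1c h1s h1p hSE u2 w1,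
    rb_eq_of_SE hb hsc hsym hp h1c h1s h1p hSE u2 w2, sub_self]

/-- The form of two complex solutions with the same real boundary values is the energy. -/
theorem bl_Hm {Ω : Set (V n)} (hb : Bornology.IsBounded Ω) {s : MF n}
    (hs : ∀ i j, Continuous fun x => s x i j) (hsym : ∀ x, (s x).IsSymm)
    (hp : ∀ x, (s x).PosSemidef) {f : V n → ℝ} {u v : V n → ℂ}
    (hu : Hm Ω s (oc f) u) (hv : Hm Ω s (oc f) v) : bl Ω s u v = ((En Ω s f : ℝ) : ℂ) := by
  have fr : ∀ x ∈ frontier Ω, rp u x = f x := fun x hx => by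
    simp only [rp, hu.2.1 x hx, oc, Complex.ofReal_re]
  have fi : ∀ x ∈ frontier Ω, mp u x = 0 := fun x hx => by
    simp only [mp, hu.2.1 x hx, oc, Complex.ofReal_im]
  have hru := rp_contDiff hu.1
  have hmu := mp_contDiff hu.1
  -- real test functions
  have ht : ∀ φ : V n → ℝ, ContDiff ℝ ∞ φ → (∀ x ∈ frontier Ω, φ x = 0) →
      rb Ω s (rp u) φ = 0 ∧ rb Ω s (mp u) φ = 0 := by
    intro φ hφ h0
    have h := hu.2.2 (oc φ) (oc_contDiff hφ) fun x hx => by
      simp only [oc, h0 x hx, Complex.ofReal_zero]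
    rw [bl_re hb hs hu.1 (oc_contDiff hφ)] at h
    have z1 : mp (oc φ) = fun _ => 0 := by funext x; simp [mp, oc]
    have z2 : rp (oc φ) = φ := by funext x; simp [rp, oc]
    rw [z1, z2, rb_zero, rb_zero] at h
    have hr := congrArg Complex.re h
    have hi := congrArg Complex.im h
    simp at hr hi
    exact ⟨hr, hi⟩
  have hS : Sl Ω s (rp u) := ⟨hru, fun φ hφ h0 => (ht φ hφ h0).1⟩
  have hE : En Ω s f = rb Ω s (rp u) (rp u) := by
    rw [← En_sol hb hs hsym hp hS]
    unfold En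
    congr 1
    ext e
    constructor
    · rintro ⟨w, hw, hwf, rfl⟩
      exact ⟨w, hw, fun x hx => by rw [hwf x hx, fr x hx], rfl⟩
    · rintro ⟨w, hw, hwf, rfl⟩
      exact ⟨w, hw, fun x hx => by rw [hwf x hx, fr x hx], rfl⟩
  have a : bl Ω s u (fun y => v y - oc (rp u) y) = 0 :=
    hu.2.2 _ (hv.1.sub (oc_contDiff hru)) fun x hx => by
      simp only [hv.2.1 x hx, oc, fr x hx, sub_self]
  rw [bl_sub_right hb hs hu.1 hv.1 (oc_contDiff hru), sub_eq_zero] at a
  rw [a, bl_re hb hs hu.1 (oc_contDiff hru), hE]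
  have z1 : mp (oc (rp u)) = fun _ => 0 := by funext x; simp [mp, oc]
  have z2 : rp (oc (rp u)) = rp u := by funext x; simp [rp, oc]
  rw [z1, z2, rb_zero, rb_zero, rb_comm Ω hsym (mp u) (rp u), (ht _ hmu fi).1]
  simp

/-- **Equal Dirichlet-to-Neumann forms have equal Dirichlet energies.** -/
theorem SE_of_SD {Ω : Set (V n)} (hb : Bornology.IsBounded Ω) {s t : MF n}
    (hs : ∀ i j, Continuous fun x => s x i j) (hsym : ∀ x, (s x).IsSymm)
    (hp : ∀ x, (s x).PosSemidef) (ht : ∀ i j, Continuous fun x => t x i j)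
    (htsym : ∀ x, (t x).IsSymm) (htp : ∀ x, (t x).PosSemidef) (h : SD Ω t s) : SE Ω t s := by
  intro f hf
  obtain ⟨u, v, u', v', hu, hv, hu', hv', e⟩ := h (oc f) (oc f) (oc_contDiff hf) (oc_contDiff hf)
  rw [bl_Hm hb ht htsym htp hu hv, bl_Hm hb hs hsym hp hu' hv'] at e
  exact_mod_cast e

end Vale.Agent.P088.H639
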