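import Vale.Agent.P088.H639.ConX
import Vale.Agent.P088.H72.X.Defs
import Vale.Agent.P088.H833.CgoQ

/-!
# P088, row X_CON
-/

open MeasureTheory Set Filter Topology
open scoped ContDiff Matrix

noncomputable section

namespace Vale.Agent.P088.H639

open Vale.Agent.P088.LR Vale.Agent.P088.LR.B

/-- (X_CON) from (X_CGX). -/
theorem con_of_cgx (h : BX.RowCGX) : BX.RowCON := by
  intro n ρ hD σ hσ p hp ν τ hν hτ hντ hc
  have hb : Bornology.IsBounded (Om ρ) := by
    refine (Metric.isBounded_closedBall (x := (0 : V n)) (r := 1)).subset fun x hx => ?_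
    have h1 : x ∈ core n := by
      by_contra h2
      have h3 := hD.off x h2
      have h4 : 0 < ρ x := hx
      linarith
    rw [mem_closedBall_zero_iff, pi_norm_le_iff_of_nonneg zero_le_one]
    intro i
    have h5 := h1 i
    rw [Real.norm_eq_abs, abs_le]
    constructor <;> linarith [h5.1, h5.2]
  exact Kv.concX hD.sm rfl hb hp hν hτ hντ hc hσ.1 hσ.2 fun Q hQ R =>
    h ν (-τ) hν (by simpa using hτ) (by simpa using hντ) Q hQ R

/-- **Row X_CON.** -/
theorem rowCON : BX.RowCON := con_of_cgx fun ν τ h1 _ h3 Q hQ R => H833.cgoq ν τ h1 h3 Q hQ R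

end Vale.Agent.P088.H639
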