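import Vale.Agent.P088.H639.CCG3
import Vale.Agent.P088.H393.CFSym
import Vale.Agent.P088.H776.A3
import Vale.Agent.P088.H102.Neu
import Vale.Agent.P088.H501.A12

/-!
# P088, theorem C, row C_CG
-/

open MeasureTheory Set Filter Topology
open scoped ContDiff Matrix

noncomputable section

namespace Vale.Agent.P088.H639.CG

open Vale.Agent.P088.LR Vale.Agent.P088.LR.CF Vale.Agent.P088.LR.CC
open Vale.Agent.P088.LR.CF.H393 Vale.Agent.P088.LR.H393

variable {n : ℕ}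

theorem arD {u K X a Y P : ℝ} (hu : 0 ≤ u) (hK : 0 ≤ K) (hX : 1 ≤ X) (ha : 0 ≤ a)
    (hY : 0 ≤ Y) (hP : 0 ≤ P) :
    2 * ((u + 1) * (3 * (K * a) + u * (u * (3 * X * (2 * P * X) * (K * a))) +
      (u * (u * (3 * X * (K * a * Y))) + 3 / X * (K * a * Y)))) ≤
    2 * ((u + 1) * K * (3 + 6 * P * u ^ 2 + (3 * u ^ 2 + 3) * Y)) * (X ^ 2 * a) := by
  have hX0 : 0 < X := by linarith
  have x2 : 1 ≤ X ^ 2 := one_le_pow₀ hX
  have x1 : X ≤ X ^ 2 := by nlinarith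
  have t1 : a ≤ X ^ 2 * a := le_mul_of_one_le_left ha x2
  have t2 : X * a ≤ X ^ 2 * a := mul_le_mul_of_nonneg_right x1 ha
  have t3 : 1 / X * a ≤ X ^ 2 * a := by
    have : 1 / X ≤ 1 := by
      rw [div_le_one hX0]
      exact hX
    exact mul_le_mul_of_nonneg_right (this.trans x2) ha
  have w1 : 3 * (K * a) ≤ 3 * K * (X ^ 2 * a) := by
    have := mul_le_mul_of_nonneg_left t1 (show 0 ≤ 3 * K by positivity)
    linarith
  have w2 : u * (u * (3 * X * (2 * P * X) * (K * a))) = 6 * P * u ^ 2 * K *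
      (X ^ 2 * a) := by ring
  have w3 : u * (u * (3 * X * (K * a * Y))) ≤ 3 * u ^ 2 * Y * K * (X ^ 2 * a) := by
    have h1 : 0 ≤ 3 * u ^ 2 * Y * K := by positivity
    calc u * (u * (3 * X * (K * a * Y))) = 3 * u ^ 2 * Y * K * (X * a) := by ring
      _ ≤ _ := mul_le_mul_of_nonneg_left t2 h1
  have w4 : 3 / X * (K * a * Y) ≤ 3 * Y * K * (X ^ 2 * a) := by
    have h1 : 0 ≤ 3 * Y * K := by positivity
    calc 3 / X * (K * a * Y) = 3 * Y * K * (1 / X * a) := by ring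
      _ ≤ _ := mul_le_mul_of_nonneg_left t3 h1
  have h6 : 3 * (K * a) + u * (u * (3 * X * (2 * P * X) * (K * a))) +
      (u * (u * (3 * X * (K * a * Y))) + 3 / X * (K * a * Y)) ≤
      K * (3 + 6 * P * u ^ 2 + (3 * u ^ 2 + 3) * Y) * (X ^ 2 * a) := by
    rw [w2]
    have e : K * (3 + 6 * P * u ^ 2 + (3 * u ^ 2 + 3) * Y) * (X ^ 2 * a) =
        3 * K * (X ^ 2 * a) + 6 * P * u ^ 2 * K * (X ^ 2 * a) +
        (3 * u ^ 2 * Y * K * (X ^ 2 * a) + 3 * Y * K * (X ^ 2 * a)) := by ring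
    rw [e]
    linarith
  have h7 := mul_le_mul_of_nonneg_left h6 (show (0 : ℝ) ≤ 2 * (u + 1) by positivity)
  linarith

theorem arS {X K a B : ℝ} (hX : 0 < X) {h : Fin n → Fin n → Ix n → ℂ}
    {v : Ix n → ℂ} {M : ℕ} (nE : ∀ i j, nm M (h i j) ≤ K * a) (nv : nm M v ≤ K * (B + 1))
    (h1 : 12 * ((n : ℝ) + 1) * n ^ 2 * K * (X * a) ≤ 1)
    (h2 : 12 * ((n : ℝ) + 1) * K * (B + 1) ≤ X) :
    (Fintype.card (Option (Fin n)) : ℝ) * ∑ t' : TI n, bd X t' * nm M (ff h v t') ≤ 1 / 2 := by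
  have hcard : (Fintype.card (Option (Fin n)) : ℝ) = n + 1 := by
    rw [Fintype.card_option, Fintype.card_fin]
    push_cast
    ring
  rw [hcard, sum_TI]
  simp only [bd, ff]
  have h1' : ∑ i, ∑ j, 3 * X * nm M (h i j) ≤ n * (n * (3 * X * (K * a))) := by
    calc ∑ i, ∑ j, 3 * X * nm M (h i j)
        ≤ ∑ _i : Fin n, ∑ _j : Fin n, 3 * X * (K * a) :=
          Finset.sum_le_sum fun i _ => Finset.sum_le_sum fun j _ =>
            mul_le_mul_of_nonneg_left (nE i j) (by positivity)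
      _ = _ := by simp
  have h2' : 3 / X * nm M v ≤ 3 / X * (K * (B + 1)) :=
    mul_le_mul_of_nonneg_left nv (by positivity)
  have h3 : ((n : ℝ) + 1) * (n * (n * (3 * X * (K * a)))) ≤ 1 / 4 := by
    calc ((n : ℝ) + 1) * (n * (n * (3 * X * (K * a)))) =
          12 * ((n : ℝ) + 1) * n ^ 2 * K * (X * a) / 4 := by ring
      _ ≤ 1 / 4 := by linarith
  have h4 : ((n : ℝ) + 1) * (3 / X * (K * (B + 1))) ≤ 1 / 4 := by
    have : ((n : ℝ) + 1) * (3 / X * (K * (B + 1))) =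
        12 * ((n : ℝ) + 1) * K * (B + 1) / X / 4 := by ring
    rw [this]
    have h5 : 12 * ((n : ℝ) + 1) * K * (B + 1) / X ≤ 1 := (div_le_one hX).mpr h2
    linarith
  calc ((n : ℝ) + 1) * (∑ i, ∑ j, 3 * X * nm M (h i j) +
        3 / X * nm M v) ≤ ((n : ℝ) + 1) * (n * (n * (3 * X * (K * a))) +
        3 / X * (K * (B + 1))) := mul_le_mul_of_nonneg_left (add_le_add h1' h2') (by positivity)
    _ ≤ 1 / 2 := by linarith

theorem nm_add'' {c d : Ix n → ℂ} (hc : RD c) (hd : RD d) (M : ℕ) :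
    nm M (fun k => c k + d k) ≤ nm M c + nm M d := by
  unfold nm
  rw [← (hc M).tsum_add (hd M)]
  refine ((rd_add hc hd) M).tsum_le_tsum (fun k => ?_) ((hc M).add (hd M))
  rw [← mul_add]
  have := one_le_wt k
  exact mul_le_mul_of_nonneg_left (norm_add_le _ _) (by positivity)

theorem nmX {X : ℝ} (hX0 : 0 < X) (M : ℕ) (d : Ix n → ℂ) :
    nm M (fun k => (X : ℂ) * d k) = X * nm M d := by
  unfold nm
  rw [← tsum_mul_left]
  refine tsum_congr fun k => ?_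
  rw [norm_mul, Complex.norm_real, Real.norm_eq_abs, abs_of_pos hX0]
  ring

/-- The bound of the base solution. -/
theorem base_le (hA2 : RowA2) {X R : ℝ} {L : Ix n → Fin n → ℂ} {p : Ix n → ℂ} (S : Sq X L p)
    {z : Fin n → ℂ} (hz : ∀ j, ‖z j‖ ≤ R) {v w : Ix n → ℂ} (hv : RD v) (hw : RD w) {M : ℕ}
    (hs : (Fintype.card (Option (Fin n)) : ℝ) * ∑ t' : TI n, bd X t' *
      nm M (ff (fun _ _ _ => 0) v t') ≤ 1 / 2) {r : Option (Fin n) → Ix n → ℂ}
    (hr : ∀ a, RD (r a)) (e : Fx X L p z (fun _ _ _ => 0) (fun _ _ _ => 0) v w r) {W : ℝ}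
    (bW : nm M w ≤ W) : ∀ b, nm M (r b) ≤ 2 * (((n : ℝ) + 1) * (3 * W)) := by
  have hb : ∑ b, nm M (r b) ≤ 2 * (((n : ℝ) + 1) * (3 * W)) := by
    have h1 := apri hA2 S (h := fun _ _ _ => 0) (v := v) (fun _ _ => rd_zero) hv M
      hs (fun b => (src_le S hz (g := fun _ _ _ => 0) (w := w)
        (fun _ _ => rd_zero) hw M b).1) hr e
    have h2 : ∀ b, nm M (src X L p z (fun _ _ _ => 0) w b) ≤ 3 * W := fun b => by
      have h3 := (src_le S hz (g := fun _ _ _ => 0) (w := w)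
        (fun _ _ => rd_zero) hw M b).2
      simp only [nmm_zero, mul_zero, Finset.sum_const_zero, add_zero] at h3
      linarith
    refine h1.trans ?_
    refine mul_le_mul_of_nonneg_left ?_ (by norm_num)
    calc ∑ b, nm M (src X L p z (fun _ _ _ => 0) w b)
        ≤ ∑ _b : Option (Fin n), 3 * W := Finset.sum_le_sum fun b _ => h2 b
      _ = _ := by
          rw [Finset.sum_const, Finset.card_univ, nsmul_eq_mul, Fintype.card_option,
            Fintype.card_fin]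
          push_cast
          ring
  exact fun b => (Finset.single_le_sum (f := fun b => nm M (r b))
    (fun b _ => nmm_nonneg M _) (Finset.mem_univ b)).trans hb

/-- **Row C_CG.** -/
theorem cgc : RowCGC := by
  intro n M B0
  have hA1 : RowA1 := H501.rowA1
  have hA2 : RowA2 := H501.rowA2
  have hNEU : RowNEU := H102.neu
  obtain ⟨K, hK, hA3⟩ := H776.rowA3 n M
  set B : ℝ := max B0 0 with hBd
  have hB : 0 ≤ B := le_max_right _ _
  have hpi := Real.pi_pos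
  set Y : ℝ := 2 * (((n : ℝ) + 1) * (3 * (K * B))) with hYd
  have hY0 : 0 ≤ Y := by positivity
  set c1 : ℝ := 12 * ((n : ℝ) + 1) * n ^ 2 * K with hc1
  set c2 : ℝ := 12 * ((n : ℝ) + 1) * K * (B + 1) with hc2
  set c3 : ℝ := 2 * (((n : ℝ) + 1) * K * (3 + 6 * Real.pi * n ^ 2 + (3 * n ^ 2 + 3) * Y)) with hc3
  have hc10 : 0 ≤ c1 := by positivity
  have hc20 : 0 ≤ c2 := by positivity
  have hc30 : 0 ≤ c3 := by positivity
  refine ⟨1 + Y + c1 + c2 + c3, by linarith, ?_⟩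
  set C : ℝ := 1 + Y + c1 + c2 + c3 with hCd
  intro i₀ e ξ he hξ hX t q₀ q ht hq₀ hq zt zq₀ zq bq₀ a ha hSz hCa
  set X : ℝ := nr ξ with hXd
  have hC1 : 1 ≤ C := by linarith
  have hX1 : 1 ≤ X := hC1.trans hX
  have hX0 : 0 < X := by linarith
  obtain ⟨hz, hzn, hsy⟩ := CF.H393.sym i₀ e ξ he hξ hX1
  set z := zs e i₀ ξ with hzd
  set L := lmz i₀ z with hLd
  set p : Ix n → ℂ := fun k => ∑ j, L k j ^ 2 with hpd
  have S : Sq X L p := ⟨sy_of CF.H393.sym he hξ hX1, fun k => (hsy k).1⟩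
  have hL : ∀ k j, L k j = 2 * Real.pi * Complex.I * ((fr (th0 i₀) k j : ℝ) : ℂ) + z j :=
    fun k j => rfl
  have hz0 : ∀ j, |(0 : V n) j| ≤ 1 := fun j => by simp
  -- smoothness and supports
  have sE : ∀ i j, ContDiff ℝ ∞ (ent t i j) := fun i j => by
    unfold ent
    exact Complex.ofRealCLM.contDiff.comp ((ht i j).sub contDiff_const)
  have zE : ∀ i j, ∀ x ∉ core n, ent t i j x = 0 := fun i j x hx => by
    unfold ent
    rw [zt x hx]
    simp
  have sq : ContDiff ℝ ∞ (cx q) := Complex.ofRealCLM.contDiff.comp hq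
  have sq₀ : ContDiff ℝ ∞ (cx q₀) := Complex.ofRealCLM.contDiff.comp hq₀
  have zcq : ∀ x ∉ core n, cx q x = 0 := fun x hx => by simp [cx, zq x hx]
  have zcq₀ : ∀ x ∉ core n, cx q₀ x = 0 := fun x hx => by simp [cx, zq₀ x hx]
  have aE0 := fun i j => hA3 (ent t i j) (sE i j) (tsup (zE i j)) 0 hz0
  have aE1 := fun i j => hA3 (ent t i j) (sE i j) (tsup (zE i j)) (th0 i₀) (H393.th0_le i₀)
  have aq0 := hA3 (cx q) sq (tsup zcq) 0 hz0
  have aq1 := hA3 (cx q) sq (tsup zcq) (th0 i₀) (H393.th0_le i₀)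
  have ar0 := hA3 (cx q₀) sq₀ (tsup zcq₀) 0 hz0
  have ar1 := hA3 (cx q₀) sq₀ (tsup zcq₀) (th0 i₀) (H393.th0_le i₀)
  have bB : Cl (M + n + 1) B (cx q₀) := fun l hl x => (bq₀ l hl x).trans (le_max_left _ _)
  have sd : ContDiff ℝ ∞ fun x => cx q x - cx q₀ x := sq.sub sq₀
  have zd : ∀ x ∉ core n, cx q x - cx q₀ x = 0 := fun x hx => by rw [zcq x hx, zcq₀ x hx, sub_zero]
  have ad0 := hA3 _ sd (tsup zd) 0 hz0
  have ad1 := hA3 _ sd (tsup zd) (th0 i₀) (H393.th0_le i₀)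
  have ed0 : (fun k => cf 0 (cx q) k - cf 0 (cx q₀) k) = cf 0 (fun x => cx q x - cx q₀ x) :=
    funext fun k => (cf_sub sq zcq sq₀ zcq₀ 0 k).symm
  have ed1 : (fun k => cf (th0 i₀) (cx q) k - cf (th0 i₀) (cx q₀) k) =
      cf (th0 i₀) (fun x => cx q x - cx q₀ x) :=
    funext fun k => (cf_sub sq zcq sq₀ zcq₀ (th0 i₀) k).symm
  have nE0 : ∀ i j, nm M (cf 0 (ent t i j)) ≤ K * a := fun i j => (aE0 i j).2.2 a (hSz.1 i j)
  have nE1 : ∀ i j, nm M (cf (th0 i₀) (ent t i j)) ≤ K * a := fun i j =>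
    (aE1 i j).2.2 a (hSz.1 i j)
  have nr0 : nm M (cf 0 (cx q₀)) ≤ K * B := ar0.2.2 B bB
  have nr1 : nm M (cf (th0 i₀) (cx q₀)) ≤ K * B := ar1.2.2 B bB
  have nd0 : nm M (fun k => cf 0 (cx q) k - cf 0 (cx q₀) k) ≤ K * a := by
    rw [ed0]
    exact ad0.2.2 a hSz.2
  have nd1 : nm M (fun k => cf (th0 i₀) (cx q) k - cf (th0 i₀) (cx q₀) k) ≤ K * a := by
    rw [ed1]
    exact ad1.2.2 a hSz.2
  have nq0 : nm M (cf 0 (cx q)) ≤ K * (B + a) := by
    have h1 : cf 0 (cx q) = fun k => (cf 0 (cx q) k - cf 0 (cx q₀) k) + cf 0 (cx q₀) k := by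
      funext k
      ring
    have h2 := nm_add'' (rd_sub' aq0.1 ar0.1) ar0.1 M
    rw [h1]
    linarith
  -- arithmetic
  have hn0 : (0 : ℝ) ≤ n := Nat.cast_nonneg n
  have hXa : c1 * (X * a) ≤ 1 := by
    have h1 : c1 ≤ C := by linarith
    calc c1 * (X * a) ≤ C * (X * a) := mul_le_mul_of_nonneg_right h1 (by positivity)
      _ = C * X * a := by ring
      _ ≤ 1 := hCa
  have hc2X : c2 ≤ X := by linarith
  have ha1 : a ≤ 1 := by
    have h1 : 1 ≤ C * X := by nlinarith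
    nlinarith
  have hs : (Fintype.card (Option (Fin n)) : ℝ) * ∑ t' : TI n, bd X t' *
      nm M (ff (fun i j => cf 0 (ent t i j)) (cf 0 (cx q)) t') ≤ 1 / 2 :=
    arS hX0 nE0 (nq0.trans (mul_le_mul_of_nonneg_left (by linarith) hK.le)) hXa hc2X
  have hs₀ : (Fintype.card (Option (Fin n)) : ℝ) * ∑ t' : TI n, bd X t' *
      nm M (ff (fun _ _ _ => 0) (cf 0 (cx q₀)) t') ≤ 1 / 2 :=
    arS hX0 (a := a) (fun i j => by rw [nmm_zero]; positivity)
      (nr0.trans (mul_le_mul_of_nonneg_left (by linarith) hK.le)) hXa hc2X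
  have hR0 : (0 : ℝ) ≤ 2 * Real.pi * X := by positivity
  obtain ⟨r₀, c₀, hr₀, hc₀, fx₀, rn₀, rs₀, ce₀⟩ := exi hA2 hNEU S hzn
    (h := fun _ _ _ => 0) (g := fun _ _ _ => 0) (v := cf 0 (cx q₀)) (w := cf (th0 i₀) (cx q₀))
    (fun _ _ => rd_zero) (fun _ _ => rd_zero) ar0.1 ar1.1 M hs₀
  obtain ⟨r, c, hr, hc, fx, rn, rs, ce⟩ := exi hA2 hNEU S hzn
    (h := fun i j => cf 0 (ent t i j)) (g := fun i j => cf (th0 i₀) (ent t i j))
    (v := cf 0 (cx q)) (w := cf (th0 i₀) (cx q))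
    (fun i j => (aE0 i j).1) (fun i j => (aE1 i j).1) aq0.1 aq1.1 M hs
  have e1t : ∀ (i j : Fin n) (x : V n), ent (fun _ => 1) i j x = 0 := fun i j x => by
    simp [ent]
  have sol₀ := solq hA1 hA2 hz (th0 i₀) L hL (fun _ => 1) q₀ (fun _ _ _ => 0) (fun _ _ _ => 0)
    (cf 0 (cx q₀)) (cf (th0 i₀) (cx q₀)) (fun _ _ => rd_zero) (fun _ _ => rd_zero) ar0.1 ar1.1
    (fun i j x _ => by rw [e1t]; exact (Es_zero 0 x).symm)
    (fun i j x _ => by rw [e1t]; exact (Es_zero (th0 i₀) x).symm)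
    (fun x hx => ar0.2.1 x hx) (fun x hx => ar1.2.1 x hx) hc₀ ce₀
  have sol := solq hA1 hA2 hz (th0 i₀) L hL t q (fun i j => cf 0 (ent t i j))
    (fun i j => cf (th0 i₀) (ent t i j)) (cf 0 (cx q)) (cf (th0 i₀) (cx q))
    (fun i j => (aE0 i j).1) (fun i j => (aE1 i j).1) aq0.1 aq1.1
    (fun i j x hx => (aE0 i j).2.1 x hx) (fun i j x hx => (aE1 i j).2.1 x hx)
    (fun x hx => aq0.2.1 x hx) (fun x hx => aq1.2.1 x hx) hc ce
  -- bounds of the base solution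
  have hle₀ : ∀ b, nm M (r₀ b) ≤ Y :=
    base_le hA2 S hzn ar0.1 ar1.1 hs₀ hr₀ fx₀ nr1
  -- the difference
  have hD := dif_le hA2 S hzn (h := fun i j => cf 0 (ent t i j))
    (g := fun i j => cf (th0 i₀) (ent t i j)) (h' := fun _ _ _ => 0) (g' := fun _ _ _ => 0)
    (v := cf 0 (cx q)) (w := cf (th0 i₀) (cx q)) (v' := cf 0 (cx q₀))
    (w' := cf (th0 i₀) (cx q₀)) (fun i j => (aE0 i j).1) (fun i j => (aE1 i j).1) aq0.1 aq1.1
    (fun _ _ => rd_zero) (fun _ _ => rd_zero) ar0.1 ar1.1 M hs hr hr₀ fx fx₀ (Y := Y)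
    (G := K * a) (H := K * a) (V := K * a) (W := K * a) hle₀
    (fun i j => by simpa only [sub_zero] using nE1 i j)
    (fun i j => by simpa only [sub_zero] using nE0 i j) nd0 nd1 hR0
  have hDC : ∑ b, nm M (fun k => r b k - r₀ b k) ≤ C * X ^ 2 * a := by
    have h5 := hD.trans (arD hn0 hK.le hX1 ha hY0 hpi.le)
    refine h5.trans ?_
    have h8 : c3 ≤ C := by linarith
    calc c3 * (X ^ 2 * a) ≤ C * (X ^ 2 * a) := mul_le_mul_of_nonneg_right h8 (by positivity)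
      _ = _ := by ring
  have hleD : ∀ b, nm M (fun k => r b k - r₀ b k) ≤ C * X ^ 2 * a := fun b =>
    (Finset.single_le_sum (f := fun b => nm M (fun k => r b k - r₀ b k))
      (fun b _ => nmm_nonneg M _) (Finset.mem_univ b)).trans hDC
  have hnX := nmX (n := n) hX0 M
  refine ⟨c₀, c, _, _, sol₀, sol, ?_, fun i => ?_, ?_, fun i => ?_⟩
  · have h1 := hle₀ none
    have h2 : r₀ none = fun k => (X : ℂ) * c₀ k := funext rn₀
    rw [h2, hnX] at h1
    rw [le_div_iff₀ hX0]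
    linarith
  · have h1 := hle₀ (some i)
    have h2 : r₀ (some i) = fun k => L k i * c₀ k := funext fun k => rs₀ i k
    rw [h2] at h1
    exact h1.trans (by linarith)
  · have h1 := hleD none
    have h2 : (fun k => r none k - r₀ none k) = fun k => (X : ℂ) * (c k - c₀ k) := by
      funext k
      rw [rn k, rn₀ k]
      ring
    rw [h2, hnX] at h1
    have h3 : X * nm M (fun k => c k - c₀ k) ≤ X * (C * X * a) := by
      calc _ ≤ C * X ^ 2 * a := h1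
        _ = _ := by ring
    exact le_of_mul_le_mul_left h3 hX0
  · have h1 := hleD (some i)
    have h2 : (fun k => r (some i) k - r₀ (some i) k) = fun k => L k i * (c k - c₀ k) := by
      funext k
      rw [rs i k, rs₀ i k]
      ring
    rw [h2] at h1
    exact h1

end Vale.Agent.P088.H639.CG
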