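import Vale.Agent.P088.H639.KC7
import Vale.Agent.P088.H183.KEq
import Vale.Agent.P088.H183.Ext
import Vale.Agent.P088.H947.KSm

/-!
# P088, theorem JB, row K_CON: `RowCG → RowCON`
-/

namespace Vale.Agent.P088.H639.KC

/-- **Row K_CON** over the row K_CG. -/
theorem conK (h : Vale.Agent.P088.LR.K.RowCG) : Vale.Agent.P088.LR.K.RowCON :=
  con_of h Vale.Agent.P088.H183.ball Vale.Agent.P088.H947.KSm.sm Vale.Agent.P088.H183.keq

end Vale.Agent.P088.H639.KC
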