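import Vale.Agent.P088.H639.Scale
import Vale.Agent.P088.H27.Gauge
import Vale.Agent.P088.H393.Est
import Vale.Agent.P088.H634.Dif
import Vale.Agent.P088.H158.PushB
import Vale.Agent.P088.H757.Weak
import Vale.Agent.P088.H72.Norm
import Vale.Agent.P088.H776.A3
import Vale.Agent.P088.H501.A12
import Vale.Agent.P088.H102.Neu
import Vale.Agent.P088.H884.Iso

/-!
# P088, local rigidity of the flat metric with equal Dirichlet energies: unconditional
-/

open MeasureTheory Set
open scoped ContDiff Matrix

noncomputable section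

namespace Vale.Agent.P088.H639

open Vale.Agent.P088.LR

/-- **Local rigidity of the flat metric; the data are the Dirichlet energies.** -/
theorem loc_energy (n : ℕ) (hn : 3 ≤ n) : ∃ k : ℕ, ∀ R : ℝ, 0 < R → ∃ ε > 0,
    LocP n (fun Ω s => SE Ω (fun _ => 1) s) k ε {x | ∀ j, |x j| ≤ R} :=
  locSE weak H72.norm0 H72.norm1 H776.rowA3
    (H27.gauge H501.rowA1 H501.rowA2 H776.rowA3 H102.neu) H634.rowDIF H158.rowPUSH
    H393.core H884.iso n hn

end Vale.Agent.P088.H639
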