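import Vale.Agent.P088.H442.C.Defs
import Vale.Agent.P088.H393.CGM3

/-!
# P088, theorem C, row C_CG (1): from the coefficient equation to the solution on the cube
-/

open MeasureTheory Set Filter Topology
open scoped ContDiff Matrix

noncomputable section

namespace Vale.Agent.P088.H639.CG

open Vale.Agent.P088.LR Vale.Agent.P088.LR.CF Vale.Agent.P088.LR.CC
open Vale.Agent.P088.LR.CF.H393 Vale.Agent.P088.LR.H393

variable {n : ℕ}

/-- The coefficient equation. `h, g` are the coefficients of `t - 1` with shift `0, θ`; `v, w`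
those of `q`. -/
def Ceq (L : Ix n → Fin n → ℂ) (z : Fin n → ℂ) (h g : Fin n → Fin n → Ix n → ℂ)
    (v w c : Ix n → ℂ) : Prop :=
  ∀ k, (∑ j, L k j ^ 2) * c k +
    ∑ i, L k i * ∑ j, (z j * g i j k + cv (h i j) (fun l => L l j * c l) k) = w k + cv v c k

theorem solq (hA1 : RowA1) (hA2 : RowA2) {z : Fin n → ℂ} (hz : ∑ j, z j ^ 2 = 0) (θ : V n)
    (L : Ix n → Fin n → ℂ)
    (hL : ∀ k j, L k j = 2 * Real.pi * Complex.I * ((fr θ k j : ℝ) : ℂ) + z j)
    (t : MF n) (q : V n → ℝ) (h g : Fin n → Fin n → Ix n → ℂ) (v w : Ix n → ℂ)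
    (hh : ∀ i j, RD (h i j)) (hg : ∀ i j, RD (g i j)) (hv : RD v) (hw : RD w)
    (e0 : ∀ i j, ∀ x ∈ cube n, ent t i j x = Es 0 (h i j) x)
    (e1 : ∀ i j, ∀ x ∈ cube n, ent t i j x = Es θ (g i j) x)
    (f0 : ∀ x ∈ cube n, (q x : ℂ) = Es 0 v x) (f1 : ∀ x ∈ cube n, (q x : ℂ) = Es θ w x)
    {c : Ix n → ℂ} (hc : RD c) (heq : Ceq L z h g v w c) :
    SolQ z θ t q c (fun x => Complex.exp (∑ j, z j * x j) * (1 + Es θ c x)) := by
  have hW : (fun x : V n => Complex.exp (∑ j, z j * x j) * (1 + Es θ c x)) =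
      fun x => EE z x * (1 + Es θ c x) := by
    funext x
    unfold EE
    rw [LL_apply]
  refine ⟨hc, fun x => rfl, fun x hx => ?_⟩
  rw [hW]
  set W : V n → ℂ := fun x => EE z x * (1 + Es θ c x) with hWd
  have hy : ∀ j, RD fun k => L k j * c k := fun j => by
    have := rd_add (rd_fr hc θ j) (rd_const_mul hc (z j))
    refine (iff_of_eq (congrArg RD ?_)).mp this
    funext k
    rw [hL]
    ring
  have hpd : ∀ i x, pd i W x = EE z x * (z i + Es θ (fun k => L k i * c k) x) := by
    intro i x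
    have h1 := pd_EE_mul hA1 z θ 1 hc i x
    have h2 : (fun k => (2 * Real.pi * Complex.I * ((fr θ k i : ℝ) : ℂ) + z i) * c k)
        = fun k => L k i * c k := by
      funext k
      rw [hL]
    rw [h2, mul_one] at h1
    exact h1
  set F : Fin n → Ix n → ℂ := fun i k => ∑ j, (z j * g i j k + cv (h i j) (fun l => L l j * c l) k)
    with hF
  have fF := fun (i : Fin n) (w : V n) (hw : w ∈ cube n) => flux hA2 θ z (fun j => h i j)
    (fun j => g i j) (fun j k => L k j * c k) (fun j => ent t i j) (fun j => hh i j)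
    (fun j => hg i j) hy (x := w) (fun j => e0 i j w hw) (fun j => e1 i j w hw)
  have hFRD : ∀ i, RD (F i) := fun i => (fF i x hx).1
  have hΦ : ∀ i, RD fun k => L k i * c k + F i k := fun i => rd_add (hy i) (hFRD i)
  have ht : ∀ y i j, ((t y i j : ℝ) : ℂ) = (if i = j then 1 else 0) + ent t i j y := by
    intro y i j
    unfold ent
    rw [Matrix.one_apply]
    split_ifs <;> push_cast <;> ring
  have h5 : ∀ i, pd i (fun y => ∑ j, ((t y i j : ℝ) : ℂ) * pd j W y) x =
      EE z x * (z i * z i + Es θ (fun k => L k i * (L k i * c k + F i k)) x) := by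
    intro i
    have h6 : (fun y => ∑ j, ((t y i j : ℝ) : ℂ) * pd j W y) =ᶠ[nhds x]
        fun x => EE z x * (z i + Es θ (fun k => L k i * c k + F i k) x) := by
      filter_upwards [isOpen_cube.mem_nhds hx] with y hyc
      rw [Es_add (hy i) (hFRD i), (fF i y hyc).2]
      simp only [ht, add_mul, ite_mul, one_mul, zero_mul, Finset.sum_add_distrib,
        Finset.sum_ite_eq, Finset.mem_univ, if_true]
      rw [hpd i y]
      have : ∑ j, ent t i j y * pd j W y =
          EE z y * ∑ j, ent t i j y * (z j + Es θ (fun k => L k j * c k) y) := by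
        rw [Finset.mul_sum]
        exact Finset.sum_congr rfl fun j _ => by rw [hpd]; ring
      rw [this]
      ring
    have h7 := pd_EE_mul hA1 z θ (z i) (hΦ i) i x
    rw [pd_congr i h6, h7]
    have h8 : (fun k => (2 * Real.pi * Complex.I * ((fr θ k i : ℝ) : ℂ) + z i) *
        (L k i * c k + F i k)) = fun k => L k i * (L k i * c k + F i k) := by
      funext k
      rw [hL]
    rw [h8]
  have h8 : ∀ i, RD fun k => L k i * (L k i * c k + F i k) := by
    intro i
    have := rd_add (rd_fr (hΦ i) θ i) (rd_const_mul (hΦ i) (z i))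
    refine (iff_of_eq (congrArg RD ?_)).mp this
    funext k
    rw [hL]
    ring
  unfold dv
  have hz2 : ∑ i, z i * z i = 0 := by
    rw [← hz]
    exact Finset.sum_congr rfl fun j _ => by ring
  rw [Finset.sum_congr rfl fun i _ => h5 i, ← Finset.mul_sum, Finset.sum_add_distrib, hz2,
    zero_add, ← Es_sum h8]
  have h9 : (fun k => ∑ i, L k i * (L k i * c k + F i k)) = fun k => w k + cv v c k := by
    funext k
    rw [← heq k, Finset.sum_mul, ← Finset.sum_add_distrib]
    refine Finset.sum_congr rfl fun i _ => ?_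
    ring
  rw [h9, Es_add hw (hA2 0 0 v c hv hc).1, ← f1 x hx]
  have h3 := (hA2 0 θ _ _ hv hc).2.2.1 x
  rw [zero_add, ← f0 x hx] at h3
  rw [← h3]
  unfold EE
  rw [LL_apply]
  ring

end Vale.Agent.P088.H639.CG
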