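import Vale.Agent.P088.H639.CCG1

/-!
# P088, theorem C, row C_CG (2): the fixed point equation, existence and a priori bound
-/

open MeasureTheory Set Filter Topology
open scoped ContDiff Matrix

noncomputable section

namespace Vale.Agent.P088.H639.CG

open Vale.Agent.P088.LR Vale.Agent.P088.LR.CF Vale.Agent.P088.LR.CC
open Vale.Agent.P088.LR.CF.H393 Vale.Agent.P088.LR.H393

variable {n : ℕ}

/-- The multipliers `X, λ_j`. -/
def mc (X : ℝ) (L : Ix n → Fin n → ℂ) (a : Option (Fin n)) (k : Ix n) : ℂ :=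
  match a with
  | none => X
  | some j => L k j

/-- Indices of the terms. -/
abbrev TI (n : ℕ) := (Fin n × Fin n) ⊕ Unit

/-- The multipliers of the terms. -/
def mm (X : ℝ) (L : Ix n → Fin n → ℂ) (p : Ix n → ℂ) (a : Option (Fin n)) (t : TI n)
    (k : Ix n) : ℂ :=
  match t with
  | Sum.inl ij => -(L k ij.1 / p k * mc X L a k)
  | Sum.inr _ => mc X L a k / p k / X

/-- The coefficient sequences of the terms. -/
def ff (h : Fin n → Fin n → Ix n → ℂ) (v : Ix n → ℂ) (t : TI n) : Ix n → ℂ :=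
  match t with
  | Sum.inl ij => h ij.1 ij.2
  | Sum.inr _ => v

/-- The unknown of the term. -/
def pj (t : TI n) : Option (Fin n) :=
  match t with
  | Sum.inl ij => some ij.2
  | Sum.inr _ => none

/-- The bounds of the multipliers. -/
def bd (X : ℝ) (t : TI n) : ℝ :=
  match t with
  | Sum.inl _ => 3 * X
  | Sum.inr _ => 3 / X

/-- The assumptions on the symbol. -/
structure Sq (X : ℝ) (L : Ix n → Fin n → ℂ) (p : Ix n → ℂ) : Prop where
  S : Sy X L p
  hX : ∀ k, X ≤ ‖p k‖

variable {X : ℝ} {L : Ix n → Fin n → ℂ} {p : Ix n → ℂ}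

theorem Sq.pos (S : Sq X L p) : 0 < X := lt_of_lt_of_le one_pos S.S.hX

theorem Sq.mc_p (S : Sq X L p) (a : Option (Fin n)) (k : Ix n) : ‖mc X L a k / p k‖ ≤ 3 := by
  have h := S.hX k
  have h0 := S.pos
  cases a with
  | none =>
    simp only [mc]
    rw [norm_div, Complex.norm_real, Real.norm_eq_abs, abs_of_pos h0,
      div_le_iff₀ (lt_of_lt_of_le h0 h)]
    linarith
  | some j => exact S.S.h2 k j

theorem Sq.mc_pL (S : Sq X L p) (a : Option (Fin n)) (k : Ix n) (i : Fin n) :
    ‖L k i / p k * mc X L a k‖ ≤ 3 * X := by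
  have h0 := S.pos
  cases a with
  | none =>
    simp only [mc]
    rw [norm_mul, Complex.norm_real, Real.norm_eq_abs, abs_of_pos h0]
    exact mul_le_mul_of_nonneg_right (S.S.h2 k i) h0.le
  | some j => exact S.S.h3 k i j

theorem Sq.mm_le (S : Sq X L p) (a : Option (Fin n)) (t : TI n) (k : Ix n) :
    ‖mm X L p a t k‖ ≤ bd X t := by
  have h0 := S.pos
  cases t with
  | inl ij =>
    simp only [mm, bd, norm_neg]
    exact S.mc_pL a k ij.1
  | inr _ =>
    simp only [mm, bd]
    rw [norm_div, Complex.norm_real, Real.norm_eq_abs, abs_of_pos h0]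
    exact div_le_div_of_nonneg_right (S.mc_p a k) h0.le

theorem bd_nonneg (hX : 0 < X) (t : TI n) : 0 ≤ bd X t := by
  cases t <;> simp only [bd] <;> positivity

theorem sum_TI {M : Type*} [AddCommMonoid M] (F : TI n → M) :
    ∑ t, F t = (∑ i, ∑ j, F (Sum.inl (i, j))) + F (Sum.inr ()) := by
  rw [Fintype.sum_sum_type, Fintype.sum_prod_type]
  simp

/-- A priori bound. -/
theorem apri (hA2 : RowA2) (S : Sq X L p) {h : Fin n → Fin n → Ix n → ℂ} {v : Ix n → ℂ}
    (hh : ∀ i j, RD (h i j)) (hv : RD v) (m : ℕ)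
    (hs : (Fintype.card (Option (Fin n)) : ℝ) * ∑ t : TI n, bd X t * nm m (ff h v t) ≤ 1 / 2)
    {s r : Option (Fin n) → Ix n → ℂ} (hsR : ∀ a, RD (s a)) (hr : ∀ a, RD (r a))
    (e : ∀ a k, r a k = s a k + ∑ t : TI n, mm X L p a t k * cv (ff h v t) (r (pj t)) k) :
    ∑ a, nm m (r a) ≤ 2 * ∑ a, nm m (s a) := by
  have h0 := S.pos
  have hf : ∀ t : TI n, RD (ff h v t) := fun t => by
    cases t with
    | inl ij => exact hh ij.1 ij.2
    | inr _ => exact hv
  set T : ℝ := ∑ a, nm m (r a) with hT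
  have hT0 : 0 ≤ T := Finset.sum_nonneg fun a _ => nmm_nonneg m _
  have hle : ∀ a, nm m (r a) ≤ T := fun a =>
    Finset.single_le_sum (f := fun a => nm m (r a)) (fun a _ => nmm_nonneg m _)
      (Finset.mem_univ a)
  have hcv : ∀ t : TI n, RD (cv (ff h v t) (r (pj t))) := fun t =>
    (hA2 0 0 _ _ (hf t) (hr _)).1
  have h1 : ∀ a, nm m (r a) ≤ nm m (s a) + ∑ t : TI n, bd X t * nm m (ff h v t) * T := by
    intro a
    have hb : ∀ k, wt k ^ m * ‖r a k‖ ≤ wt k ^ m * ‖s a k‖ +
        ∑ t : TI n, bd X t * (wt k ^ m * ‖cv (ff h v t) (r (pj t)) k‖) := by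
      intro k
      have hw := one_le_wt k
      rw [e a k]
      calc wt k ^ m * ‖s a k + ∑ t : TI n, mm X L p a t k * cv (ff h v t) (r (pj t)) k‖
          ≤ wt k ^ m * (‖s a k‖ + ∑ t : TI n, bd X t * ‖cv (ff h v t) (r (pj t)) k‖) := by
            refine mul_le_mul_of_nonneg_left ?_ (by positivity)
            refine (norm_add_le _ _).trans (add_le_add_right ?_ _)
            refine (norm_sum_le _ _).trans (Finset.sum_le_sum fun t _ => ?_)
            rw [norm_mul]
            exact mul_le_mul_of_nonneg_right (S.mm_le a t k) (norm_nonneg _)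
        _ = _ := by
            rw [mul_add, Finset.mul_sum]
            congr 1
            exact Finset.sum_congr rfl fun t _ => by ring
    have sm : Summable fun k => ∑ t : TI n, bd X t * (wt k ^ m * ‖cv (ff h v t) (r (pj t)) k‖) :=
      summable_sum fun t _ => (hcv t m).mul_left _
    have h2 : nm m (r a) ≤ nm m (s a) + ∑ t : TI n, bd X t * nm m (cv (ff h v t) (r (pj t))) := by
      unfold nm
      refine ((hr a m).tsum_le_tsum hb ((hsR a m).add sm)).trans (le_of_eq ?_)
      rw [(hsR a m).tsum_add sm, Summable.tsum_finsetSum fun t _ => (hcv t m).mul_left _]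
      congr 1
      exact Finset.sum_congr rfl fun t _ => tsum_mul_left
    refine h2.trans (add_le_add_right (Finset.sum_le_sum fun t _ => ?_) _)
    rw [mul_assoc]
    refine mul_le_mul_of_nonneg_left ?_ (bd_nonneg h0 t)
    exact ((hA2 0 0 _ _ (hf t) (hr _)).2.2.2 m).trans
      (mul_le_mul_of_nonneg_left (hle _) (nmm_nonneg m _))
  have h3 : T ≤ ∑ a, nm m (s a) + 1 / 2 * T := by
    calc T = ∑ a, nm m (r a) := hT
      _ ≤ ∑ a, (nm m (s a) + ∑ t : TI n, bd X t * nm m (ff h v t) * T) :=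
          Finset.sum_le_sum fun a _ => h1 a
      _ = ∑ a, nm m (s a) + ((Fintype.card (Option (Fin n)) : ℝ) *
          ∑ t : TI n, bd X t * nm m (ff h v t)) * T := by
          rw [Finset.sum_add_distrib, Finset.sum_const, Finset.card_univ, nsmul_eq_mul,
            ← Finset.sum_mul]
          ring
      _ ≤ _ := by
          have := mul_le_mul_of_nonneg_right hs hT0
          linarith
  linarith

/-- The source. -/
def src (X : ℝ) (L : Ix n → Fin n → ℂ) (p : Ix n → ℂ) (z : Fin n → ℂ)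
    (g : Fin n → Fin n → Ix n → ℂ) (w : Ix n → ℂ) (a : Option (Fin n)) (k : Ix n) : ℂ :=
  mc X L a k / p k * w k - ∑ i, ∑ j, L k i / p k * mc X L a k * z j * g i j k

theorem src_le (S : Sq X L p) {z : Fin n → ℂ} {R : ℝ} (hz : ∀ j, ‖z j‖ ≤ R)
    {g : Fin n → Fin n → Ix n → ℂ} {w : Ix n → ℂ} (hg : ∀ i j, RD (g i j)) (hw : RD w) (m : ℕ)
    (a : Option (Fin n)) : RD (src X L p z g w a) ∧
      nm m (src X L p z g w a) ≤ 3 * nm m w + ∑ i, ∑ j, 3 * X * R * nm m (g i j) := by
  have h0 := S.pos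
  have hle : ∀ k, ‖src X L p z g w a k‖ ≤ 3 * ‖w k‖ + ∑ i, ∑ j, 3 * X * R * ‖g i j k‖ := by
    intro k
    unfold src
    refine (norm_sub_le _ _).trans (add_le_add ?_ ?_)
    · rw [norm_mul]
      exact mul_le_mul_of_nonneg_right (S.mc_p a k) (norm_nonneg _)
    · refine (norm_sum_le _ _).trans (Finset.sum_le_sum fun i _ => ?_)
      refine (norm_sum_le _ _).trans (Finset.sum_le_sum fun j _ => ?_)
      rw [norm_mul, norm_mul]
      exact mul_le_mul_of_nonneg_right (mul_le_mul (S.mc_pL a k i) (hz j) (norm_nonneg _)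
        (by positivity)) (norm_nonneg _)
  have sm : ∀ m, Summable fun k => 3 * (wt k ^ m * ‖w k‖) +
      ∑ i, ∑ j, 3 * X * R * (wt k ^ m * ‖g i j k‖) := fun m =>
    ((hw m).mul_left 3).add (summable_sum fun i _ => summable_sum fun j _ => (hg i j m).mul_left _)
  have hle2 : ∀ m k, wt k ^ m * ‖src X L p z g w a k‖ ≤ 3 * (wt k ^ m * ‖w k‖) +
      ∑ i, ∑ j, 3 * X * R * (wt k ^ m * ‖g i j k‖) := by
    intro m k
    have hw1 := one_le_wt k
    refine (mul_le_mul_of_nonneg_left (hle k) (by positivity)).trans (le_of_eq ?_)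
    rw [mul_add, Finset.mul_sum]
    congr 1
    · ring
    · refine Finset.sum_congr rfl fun i _ => ?_
      rw [Finset.mul_sum]
      exact Finset.sum_congr rfl fun j _ => by ring
  have hRD : RD (src X L p z g w a) := fun m =>
    Summable.of_nonneg_of_le (fun k => by have := one_le_wt k; positivity) (hle2 m) (sm m)
  refine ⟨hRD, ?_⟩
  unfold nm
  refine ((hRD m).tsum_le_tsum (hle2 m) (sm m)).trans (le_of_eq ?_)
  rw [((hw m).mul_left 3).tsum_add
    (summable_sum fun i _ => summable_sum fun j _ => (hg i j m).mul_left _), tsum_mul_left,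
    Summable.tsum_finsetSum fun i _ => summable_sum fun j _ => (hg i j m).mul_left _]
  congr 1
  refine Finset.sum_congr rfl fun i _ => ?_
  rw [Summable.tsum_finsetSum fun j _ => (hg i j m).mul_left _]
  exact Finset.sum_congr rfl fun j _ => tsum_mul_left

/-- The fixed point equation of the coefficient `c`. -/
def Fx (X : ℝ) (L : Ix n → Fin n → ℂ) (p : Ix n → ℂ) (z : Fin n → ℂ)
    (h g : Fin n → Fin n → Ix n → ℂ) (v w : Ix n → ℂ) (r : Option (Fin n) → Ix n → ℂ) : Prop :=
  ∀ a k, r a k = src X L p z g w a k +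
    ∑ t : TI n, mm X L p a t k * cv (ff h v t) (r (pj t)) k

/-- Existence. -/
theorem exi (hA2 : RowA2) (hNEU : RowNEU) (S : Sq X L p) {z : Fin n → ℂ} {R : ℝ}
    (hz : ∀ j, ‖z j‖ ≤ R) {h g : Fin n → Fin n → Ix n → ℂ} {v w : Ix n → ℂ}
    (hh : ∀ i j, RD (h i j)) (hg : ∀ i j, RD (g i j)) (hv : RD v) (hw : RD w) (m : ℕ)
    (hs : (Fintype.card (Option (Fin n)) : ℝ) * ∑ t : TI n, bd X t * nm m (ff h v t) ≤ 1 / 2) :
    ∃ (r : Option (Fin n) → Ix n → ℂ) (c : Ix n → ℂ), (∀ a, RD (r a)) ∧ RD c ∧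
      Fx X L p z h g v w r ∧ (∀ k, r none k = X * c k) ∧ (∀ j k, r (some j) k = L k j * c k) ∧
      Ceq L z h g v w c := by
  have h0 := S.pos
  have hXc : (X : ℂ) ≠ 0 := by exact_mod_cast h0.ne'
  have hf : ∀ t : TI n, RD (ff h v t) := fun t => by
    cases t with
    | inl ij => exact hh ij.1 ij.2
    | inr _ => exact hv
  obtain ⟨r, hr, er, -⟩ := neu_gen hA2 hNEU (fun a t k => mm X L p a t k) (ff h v) pj (bd X)
    (fun a t k => S.mm_le a t k) (bd_nonneg h0) hf m hs (src X L p z g w)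
    (fun a => (src_le S hz hg hw m a).1)
  -- common factor
  set c : Ix n → ℂ := fun k => (X : ℂ)⁻¹ * r none k with hc
  have hcR : RD c := rd_const_mul (hr none) _
  have key : ∀ a k, r a k = mc X L a k / p k * (w k - ∑ i, ∑ j, L k i * z j * g i j k -
      ∑ i, ∑ j, L k i * cv (h i j) (r (some j)) k + (X : ℂ)⁻¹ * cv v (r none) k) := by
    intro a k
    rw [er a k, sum_TI]
    simp only [mm, ff, pj, src]
    have e1 : ∑ i, ∑ j, L k i / p k * mc X L a k * z j * g i j k =
        mc X L a k / p k * ∑ i, ∑ j, L k i * z j * g i j k := by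
      rw [Finset.mul_sum]
      refine Finset.sum_congr rfl fun i _ => ?_
      rw [Finset.mul_sum]
      exact Finset.sum_congr rfl fun j _ => by ring
    have e2 : ∑ i, ∑ j, -(L k i / p k * mc X L a k) * cv (h i j) (r (some j)) k =
        -(mc X L a k / p k * ∑ i, ∑ j, L k i * cv (h i j) (r (some j)) k) := by
      rw [Finset.mul_sum, ← Finset.sum_neg_distrib]
      refine Finset.sum_congr rfl fun i _ => ?_
      rw [Finset.mul_sum, ← Finset.sum_neg_distrib]
      exact Finset.sum_congr rfl fun j _ => by ring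
    rw [e1, e2]
    ring
  have hn : ∀ k, r none k = X * c k := fun k => by
    simp only [hc]
    rw [← mul_assoc, mul_inv_cancel₀ hXc, one_mul]
  have hp0 := S.S.h0
  have hck : ∀ k, c k = (w k - ∑ i, ∑ j, L k i * z j * g i j k -
      ∑ i, ∑ j, L k i * cv (h i j) (r (some j)) k + (X : ℂ)⁻¹ * cv v (r none) k) / p k := by
    intro k
    simp only [hc]
    rw [key none k]
    simp only [mc]
    have := hp0 k
    field_simp
  have hsj : ∀ j k, r (some j) k = L k j * c k := fun j k => by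
    rw [key (some j) k, hck k]
    simp only [mc]
    ring
  refine ⟨r, c, hr, hcR, er, hn, hsj, fun k => ?_⟩
  have hp := S.S.hp k
  have h1 : p k * c k = w k - ∑ i, ∑ j, L k i * z j * g i j k -
      ∑ i, ∑ j, L k i * cv (h i j) (r (some j)) k + (X : ℂ)⁻¹ * cv v (r none) k := by
    rw [hck k]
    have := hp0 k
    field_simp
  have h2 : cv v (r none) k = X * cv v c k := by
    unfold cv
    rw [← tsum_mul_left]
    exact tsum_congr fun l => by rw [hn l]; ring
  have h3 : ∀ j, r (some j) = fun l => L l j * c l := fun j => funext fun l => hsj j l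
  rw [← hp, h1, h2]
  have h4 : ∑ i, L k i * ∑ j, (z j * g i j k + cv (h i j) (fun l => L l j * c l) k) =
      ∑ i, ∑ j, L k i * z j * g i j k + ∑ i, ∑ j, L k i * cv (h i j) (r (some j)) k := by
    rw [← Finset.sum_add_distrib]
    refine Finset.sum_congr rfl fun i _ => ?_
    rw [Finset.mul_sum, ← Finset.sum_add_distrib]
    exact Finset.sum_congr rfl fun j _ => by rw [h3 j]; ring
  rw [h4]
  field_simp
  ring

end Vale.Agent.P088.H639.CG
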