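import Vale.Agent.P088.H639.CCG2

/-!
# P088, theorem C, row C_CG (3): the difference of two solutions
-/

open MeasureTheory Set Filter Topology
open scoped ContDiff Matrix

noncomputable section

namespace Vale.Agent.P088.H639.CG

open Vale.Agent.P088.LR Vale.Agent.P088.LR.CF Vale.Agent.P088.LR.CC
open Vale.Agent.P088.LR.CF.H393 Vale.Agent.P088.LR.H393

variable {n : ℕ} {X : ℝ} {L : Ix n → Fin n → ℂ} {p : Ix n → ℂ}

theorem rd_sub' {c d : Ix n → ℂ} (hc : RD c) (hd : RD d) : RD fun k => c k - d k := by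
  have := rd_add hc (rd_const_mul hd (-1))
  refine (iff_of_eq (congrArg RD ?_)).mp this
  funext k
  ring

theorem cv_sub_right (hA2 : RowA2) {c d d' : Ix n → ℂ} (hc : RD c) (hd : RD d) (hd' : RD d')
    (k : Ix n) : cv c (fun k => d k - d' k) k = cv c d k - cv c d' k := by
  unfold cv
  rw [← ((hA2 0 0 c d hc hd).2.1 k).tsum_sub ((hA2 0 0 c d' hc hd').2.1 k)]
  exact tsum_congr fun l => by ring

/-- The difference. -/
theorem dif_le (hA2 : RowA2) (S : Sq X L p) {z : Fin n → ℂ} {R : ℝ} (hz : ∀ j, ‖z j‖ ≤ R)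
    {h g h' g' : Fin n → Fin n → Ix n → ℂ} {v w v' w' : Ix n → ℂ}
    (hh : ∀ i j, RD (h i j)) (hg : ∀ i j, RD (g i j)) (hv : RD v) (hw : RD w)
    (hh' : ∀ i j, RD (h' i j)) (hg' : ∀ i j, RD (g' i j)) (hv' : RD v') (hw' : RD w') (m : ℕ)
    (hs : (Fintype.card (Option (Fin n)) : ℝ) * ∑ t : TI n, bd X t * nm m (ff h v t) ≤ 1 / 2)
    {r r' : Option (Fin n) → Ix n → ℂ} (hr : ∀ a, RD (r a)) (hr' : ∀ a, RD (r' a))
    (e : Fx X L p z h g v w r) (e' : Fx X L p z h' g' v' w' r') {Y G H V W : ℝ}
    (hY : ∀ a, nm m (r' a) ≤ Y)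
    (bG : ∀ i j, nm m (fun k => g i j k - g' i j k) ≤ G)
    (bH : ∀ i j, nm m (fun k => h i j k - h' i j k) ≤ H)
    (bV : nm m (fun k => v k - v' k) ≤ V) (bW : nm m (fun k => w k - w' k) ≤ W) (hR : 0 ≤ R) :
    ∑ a, nm m (fun k => r a k - r' a k) ≤ 2 * (((n : ℝ) + 1) * (3 * W + n * (n * (3 * X * R * G)) +
      (n * (n * (3 * X * (H * Y))) + 3 / X * (V * Y)))) := by
  have h0 := S.pos
  have hf : ∀ t : TI n, RD (ff h v t) := fun t => by
    cases t with
    | inl ij => exact hh ij.1 ij.2
    | inr _ => exact hv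
  have hf' : ∀ t : TI n, RD (ff h' v' t) := fun t => by
    cases t with
    | inl ij => exact hh' ij.1 ij.2
    | inr _ => exact hv'
  have hdf : ∀ t : TI n, RD fun k => ff h v t k - ff h' v' t k := fun t => rd_sub' (hf t) (hf' t)
  set T : Option (Fin n) → Ix n → ℂ := fun a k =>
    ∑ t : TI n, mm X L p a t k * cv (fun k => ff h v t k - ff h' v' t k) (r' (pj t)) k with hT
  have hcv : ∀ t : TI n, RD (cv (fun k => ff h v t k - ff h' v' t k) (r' (pj t))) := fun t =>
    (hA2 0 0 _ _ (hdf t) (hr' _)).1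
  have hTle : ∀ m a k, wt k ^ m * ‖T a k‖ ≤ ∑ t : TI n, bd X t *
      (wt k ^ m * ‖cv (fun k => ff h v t k - ff h' v' t k) (r' (pj t)) k‖) := by
    intro m a k
    have hw1 := one_le_wt k
    calc wt k ^ m * ‖T a k‖ ≤ wt k ^ m * ∑ t : TI n, bd X t *
          ‖cv (fun k => ff h v t k - ff h' v' t k) (r' (pj t)) k‖ := by
          refine mul_le_mul_of_nonneg_left ?_ (by positivity)
          simp only [hT]
          refine (norm_sum_le _ _).trans (Finset.sum_le_sum fun t _ => ?_)
          rw [norm_mul]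
          exact mul_le_mul_of_nonneg_right (S.mm_le a t k) (norm_nonneg _)
      _ = _ := by
          rw [Finset.mul_sum]
          exact Finset.sum_congr rfl fun t _ => by ring
  have hTR : ∀ a, RD (T a) := fun a m =>
    Summable.of_nonneg_of_le (fun k => by have := one_le_wt k; positivity) (hTle m a)
      (summable_sum fun t _ => (hcv t m).mul_left _)
  have hdg : ∀ i j, RD fun k => g i j k - g' i j k := fun i j => rd_sub' (hg i j) (hg' i j)
  have hdw : RD fun k => w k - w' k := rd_sub' hw hw'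
  have hsrc := fun a => src_le S hz hdg hdw m a
  set s : Option (Fin n) → Ix n → ℂ := fun a k =>
    src X L p z (fun i j k => g i j k - g' i j k) (fun k => w k - w' k) a k + T a k with hsd
  have hsR : ∀ a, RD (s a) := fun a => rd_add (hsrc a).1 (hTR a)
  have hrd : ∀ a, RD fun k => r a k - r' a k := fun a => rd_sub' (hr a) (hr' a)
  have eq : ∀ a k, r a k - r' a k = s a k + ∑ t : TI n, mm X L p a t k *
      cv (ff h v t) (fun k => r (pj t) k - r' (pj t) k) k := by
    intro a k
    rw [e a k, e' a k]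
    simp only [hsd, hT]
    have e1 : src X L p z g w a k - src X L p z g' w' a k =
        src X L p z (fun i j k => g i j k - g' i j k) (fun k => w k - w' k) a k := by
      unfold src
      simp only [mul_sub, Finset.sum_sub_distrib]
      ring
    have e2 : ∑ t : TI n, mm X L p a t k * cv (ff h v t) (r (pj t)) k -
        ∑ t : TI n, mm X L p a t k * cv (ff h' v' t) (r' (pj t)) k =
        ∑ t : TI n, mm X L p a t k * cv (fun k => ff h v t k - ff h' v' t k) (r' (pj t)) k +
        ∑ t : TI n, mm X L p a t k * cv (ff h v t) (fun k => r (pj t) k - r' (pj t) k) k := by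
      rw [← Finset.sum_sub_distrib, ← Finset.sum_add_distrib]
      refine Finset.sum_congr rfl fun t _ => ?_
      rw [cv_sub_left hA2 (hf t) (hf' t) (hr' _), cv_sub_right hA2 (hf t) (hr _) (hr' _)]
      ring
    rw [← e1]
    linear_combination e2
  have h1 := apri hA2 S hh hv m hs hsR hrd eq
  refine h1.trans (mul_le_mul_of_nonneg_left ?_ (by norm_num))
  have hTn : ∀ a, nm m (T a) ≤ n * (n * (3 * X * (H * Y))) + 3 / X * (V * Y) := by
    intro a
    have h2 : nm m (T a) ≤ ∑ t : TI n, bd X t *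
        nm m (cv (fun k => ff h v t k - ff h' v' t k) (r' (pj t))) := by
      unfold nm
      refine ((hTR a m).tsum_le_tsum (hTle m a)
        (summable_sum fun t _ => (hcv t m).mul_left _)).trans (le_of_eq ?_)
      rw [Summable.tsum_finsetSum fun t _ => (hcv t m).mul_left _]
      exact Finset.sum_congr rfl fun t _ => tsum_mul_left
    have h3 : ∀ t : TI n, nm m (cv (fun k => ff h v t k - ff h' v' t k) (r' (pj t))) ≤
        nm m (fun k => ff h v t k - ff h' v' t k) * Y := fun t =>
      ((hA2 0 0 _ _ (hdf t) (hr' _)).2.2.2 m).trans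
        (mul_le_mul_of_nonneg_left (hY _) (nmm_nonneg m _))
    have hY0 : 0 ≤ Y := (nmm_nonneg m _).trans (hY none)
    refine h2.trans ?_
    rw [sum_TI]
    refine add_le_add ?_ ?_
    · calc ∑ i, ∑ j, bd X (Sum.inl (i, j)) * nm m (cv (fun k => ff h v (Sum.inl (i, j)) k -
            ff h' v' (Sum.inl (i, j)) k) (r' (pj (Sum.inl (i, j)))))
          ≤ ∑ _i : Fin n, ∑ _j : Fin n, 3 * X * (H * Y) := by
            refine Finset.sum_le_sum fun i _ => Finset.sum_le_sum fun j _ => ?_
            refine mul_le_mul_of_nonneg_left ((h3 (Sum.inl (i, j))).trans ?_)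
              (by simp only [bd]; positivity)
            exact mul_le_mul_of_nonneg_right (bH i j) hY0
        _ = _ := by simp
    · refine mul_le_mul_of_nonneg_left ((h3 (Sum.inr ())).trans ?_)
        (by simp only [bd]; positivity)
      exact mul_le_mul_of_nonneg_right bV hY0
  have hsn : ∀ a, nm m (s a) ≤ 3 * W + n * (n * (3 * X * R * G)) +
      (n * (n * (3 * X * (H * Y))) + 3 / X * (V * Y)) := by
    intro a
    have h4 : nm m (s a) ≤ nm m (src X L p z (fun i j k => g i j k - g' i j k)
        (fun k => w k - w' k) a) + nm m (T a) := by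
      unfold nm
      rw [← ((hsrc a).1 m).tsum_add ((hTR a) m)]
      refine (hsR a m).tsum_le_tsum (fun k => ?_) (((hsrc a).1 m).add ((hTR a) m))
      rw [← mul_add]
      have hw1 := one_le_wt k
      exact mul_le_mul_of_nonneg_left (norm_add_le _ _) (by positivity)
    refine h4.trans (add_le_add ((hsrc a).2.trans (add_le_add ?_ ?_)) (hTn a))
    · exact mul_le_mul_of_nonneg_left bW (by norm_num)
    · calc ∑ i, ∑ j, 3 * X * R * nm m (fun k => g i j k - g' i j k)
          ≤ ∑ _i : Fin n, ∑ _j : Fin n, 3 * X * R * G :=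
            Finset.sum_le_sum fun i _ => Finset.sum_le_sum fun j _ =>
              mul_le_mul_of_nonneg_left (bG i j) (by positivity)
        _ = _ := by simp
  calc ∑ a, nm m (s a) ≤ ∑ _a : Option (Fin n), (3 * W + n * (n * (3 * X * R * G)) +
      (n * (n * (3 * X * (H * Y))) + 3 / X * (V * Y))) := Finset.sum_le_sum fun a _ => hsn a
    _ = _ := by
        rw [Finset.sum_const, Finset.card_univ, Fintype.card_option, Fintype.card_fin,
          nsmul_eq_mul]
        push_cast
        ring

end Vale.Agent.P088.H639.CG
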