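import Vale.Agent.P088.H639.SmlX

/-!
# P088, stage 2 with a conformally flat base: `σ`-harmonic functions concentrating at a boundary
point
-/

open MeasureTheory Set Filter Topology
open scoped ContDiff

noncomputable section

namespace Vale.Agent.P088.H639.Kv

open Vale.Agent.P088.LR

variable {n : ℕ}

theorem chi_one {q : V n} {r : ℝ} (hr : 0 < r) {x : V n} (hx : r ^ 2 ≤ S q x) :
    chi q r x = 1 := by
  unfold chi
  apply Real.smoothTransition.one_of_one_le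
  rw [le_div_iff₀ (by positivity)]
  have : 0 < r ^ 2 := by positivity
  linarith

theorem chi_zero_ev {q : V n} {r : ℝ} (hr : 0 < r) {x : V n} (hx : S q x ≤ 0) :
    ∀ᶠ y in 𝓝 x, chi q r y = 0 := by
  have h1 : ∀ᶠ y in 𝓝 x, S q y < r ^ 2 / 4 :=
    (S_contDiff q).continuous.continuousAt.eventually (gt_mem_nhds (lt_of_le_of_lt hx
      (by positivity)))
  filter_upwards [h1] with y hy
  unfold chi
  rw [Real.smoothTransition.zero_of_nonpos]
  apply div_nonpos_of_nonpos_of_nonneg _ (by positivity)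
  linarith

theorem chi_one_ev {q : V n} {r : ℝ} (hr : 0 < r) {x : V n} (hx : r ^ 2 ≤ S q x) :
    ∀ᶠ y in 𝓝 x, chi q r y = 1 := by
  have h1 : ∀ᶠ y in 𝓝 x, r ^ 2 / 2 < S q y :=
    (S_contDiff q).continuous.continuousAt.eventually (lt_mem_nhds (lt_of_lt_of_le
      (by linarith [show 0 < r ^ 2 by positivity]) hx))
  filter_upwards [h1] with y hy
  unfold chi
  rw [Real.smoothTransition.one_of_one_le]
  rw [le_div_iff₀ (by positivity)]
  linarith

/-- Cutting off at the centre. -/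
theorem cut_contDiff (q : V n) {r : ℝ} (hr : 0 < r) {f : V n → ℂ}
    (hf : ∀ x, 0 < S q x → ContDiffAt ℝ ∞ f x) :
    ContDiff ℝ ∞ fun x => (chi q r x : ℂ) * f x := by
  rw [contDiff_iff_contDiffAt]
  intro x
  rcases lt_or_ge 0 (S q x) with h | h
  · exact (Complex.ofRealCLM.contDiff.comp (chi_contDiff q r)).contDiffAt.mul (hf x h)
  · have h2 : (fun x => (chi q r x : ℂ) * f x) =ᶠ[𝓝 x] fun _ => 0 := by
      filter_upwards [chi_zero_ev hr h] with y hy
      rw [hy]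
      simp
    exact contDiffAt_const.congr_of_eventuallyEq h2

theorem cut_ev (q : V n) {r : ℝ} (hr : 0 < r) (f : V n → ℂ) {x : V n} (hx : r ^ 2 ≤ S q x) :
    (fun x => (chi q r x : ℂ) * f x) =ᶠ[𝓝 x] f := by
  filter_upwards [chi_one_ev hr hx] with y hy
  rw [hy]
  simp

theorem dv_congr_ev {s : MF n} {u v : V n → ℂ} {x : V n} (h : u =ᶠ[𝓝 x] v) :
    dv s u x = dv s v x := by
  unfold dv pd
  refine Finset.sum_congr rfl fun i _ => ?_
  have h1 : (fun y => ∑ j, ((s y i j : ℝ) : ℂ) * (fderiv ℝ u y) (Pi.single j 1)) =ᶠ[𝓝 x]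
      (fun y => ∑ j, ((s y i j : ℝ) : ℂ) * (fderiv ℝ v y) (Pi.single j 1)) := by
    filter_upwards [h.fderiv (𝕜 := ℝ)] with y hy
    rw [hy]
  rw [h1.fderiv_eq]

theorem S_Y {q x : V n} (hx : 0 < S q x) : S 0 (Yv q x) = 1 / S q x := by
  have e : S 0 (Yv q x) = (∑ j, (x j - q j) ^ 2) / S q x ^ 2 := by
    unfold Yv
    rw [Finset.sum_div]
    show ∑ j, ((x j - q j) / S q x - (0 : V n) j) ^ 2 = _
    refine Finset.sum_congr rfl fun j _ => ?_
    rw [Pi.zero_apply, sub_zero, div_pow]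
  rw [e]
  show S q x / S q x ^ 2 = _
  field_simp

/-- The inverse of `Yv`. -/
def Zv (q y : V n) : V n := fun b => q b + y b / S 0 y

theorem Z_Y {q x : V n} (hx : 0 < S q x) : Zv q (Yv q x) = x := by
  funext b
  unfold Zv
  rw [S_Y hx]
  unfold Yv
  field_simp
  ring

theorem Z_contDiffAt (q : V n) {y : V n} (hy : 0 < S 0 y) : ContDiffAt ℝ ∞ (Zv q) y := by
  rw [contDiffAt_pi]
  intro b
  unfold Zv
  simp only [div_eq_mul_inv]
  refine contDiffAt_const.add (ContDiffAt.mul ?_ ((S_contDiff 0).contDiffAt.inv hy.ne'))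
  fun_prop

theorem norm_Y {q x : V n} {r : ℝ} (hr : 0 < r) (hx : r ^ 2 ≤ S q x) : ‖Yv q x‖ ≤ 1 / r := by
  have hS : 0 < S q x := lt_of_lt_of_le (by positivity) hx
  have h := norm_sq_le_sum (Yv q x)
  have e : ∑ j, Yv q x j ^ 2 = 1 / S q x := by
    rw [← S_Y hS]
    unfold S
    simp
  rw [e] at h
  have h2 : 1 / S q x ≤ (1 / r) ^ 2 := by
    rw [div_pow, one_pow]
    exact one_div_le_one_div_of_le (by positivity) hx
  exact le_of_sq_le_sq (h.trans h2) (by positivity)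

theorem pd_one_add {g : V n → ℂ} (a : Fin n) (y : V n) :
    pd a (fun y => 1 + g y) y = pd a g y := by
  unfold pd
  rw [fderiv_const_add]

theorem dv_one_add {g : V n → ℂ} (y : V n) :
    dv (fun _ => 1) (fun y => 1 + g y) y = dv (fun _ => 1) g y := by
  rw [dv_one, dv_one]
  refine Finset.sum_congr rfl fun a _ => ?_
  have : pd a (fun y => 1 + g y) = pd a g := funext fun y => pd_one_add a y
  rw [this]

theorem ex_Y (q : V n) (ζ : Fin n → ℂ) (M : ℝ) (x : V n) :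
    ex ζ M (Yv q x) = Ex q ζ M x := by
  unfold ex Ex Yv Lz
  congr 2
  rw [Finset.sum_div]
  refine Finset.sum_congr rfl fun j _ => ?_
  push_cast
  ring

/-- The gradient of the Kelvin transform of `e^{Mζ·y} (1 + g)`. -/
theorem pd_Kex (q : V n) (ζ : Fin n → ℂ) (M : ℝ) {g : V n → ℂ} (hg : ContDiff ℝ ∞ g) {x : V n}
    (hx : 0 < S q x) (a : Fin n) :
    pd a (KT q fun y => ex ζ M y * (1 + g y)) x = Ex q ζ M x *
      (M * (1 + g (Yv q x)) * Aa q ζ a x + (1 + g (Yv q x)) * Ba q a x +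
        ((S q x ^ al n : ℝ) : ℂ) * (pd a g (Yv q x) / (S q x : ℂ) -
          2 * ((x a - q a : ℝ) : ℂ) * (∑ b, ((x b - q b : ℝ) : ℂ) * pd b g (Yv q x)) /
            (S q x : ℂ) ^ 2)) := by
  have hS : (S q x : ℂ) ≠ 0 := by exact_mod_cast hx.ne'
  have hg1 : ContDiff ℝ ∞ fun y => 1 + g y := contDiff_const.add hg
  rw [pd_K q ((ex_contDiff ζ M).mul hg1) hx a]
  have e1 : ∀ b, pd b (fun y => ex ζ M y * (1 + g y)) (Yv q x) =
      Ex q ζ M x * (M * ζ b * (1 + g (Yv q x)) + pd b g (Yv q x)) := fun b => by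
    rw [pd_ex ζ M hg1 b, ex_Y, pd_one_add]
  have e2 : Tt q (fun y => ex ζ M y * (1 + g y)) x = Ex q ζ M x *
      (M * (1 + g (Yv q x)) * Lz q ζ x + ∑ b, ((x b - q b : ℝ) : ℂ) * pd b g (Yv q x)) := by
    unfold Tt Lz
    simp only [e1]
    rw [Finset.mul_sum, ← Finset.sum_add_distrib, Finset.mul_sum]
    refine Finset.sum_congr rfl fun b _ => ?_
    ring
  have e3 : (fun y => ex ζ M y * (1 + g y)) (Yv q x) = Ex q ζ M x * (1 + g (Yv q x)) := by
    show ex ζ M (Yv q x) * (1 + g (Yv q x)) = _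
    rw [ex_Y]
  unfold Rr
  rw [e1 a, e2, e3]
  unfold Aa Ba
  rw [Real.rpow_sub_one hx.ne']
  push_cast
  field_simp
  ring

theorem pd_conj {φ : V n → ℂ} (hφ : ContDiff ℝ ∞ φ) (h0 : ∀ x, φ x ≠ 0) {v : V n → ℂ}
    (hv : ContDiff ℝ ∞ v) (a : Fin n) (x : V n) : pd a (fun y => (φ y)⁻¹ * v y) x =
      (φ x)⁻¹ * pd a v x - pd a φ x / φ x ^ 2 * v x := by
  have dφ : ∀ y, DifferentiableAt ℝ φ y := fun y => (hφ.differentiable (by simp)) y
  have dv' : ∀ y, DifferentiableAt ℝ v y := fun y => (hv.differentiable (by simp)) y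
  have hinv : ContDiff ℝ ∞ fun y => (φ y)⁻¹ := hφ.inv h0
  have z0 : ∀ (y : V n) (a : Fin n), y + (0 : ℝ) • (Pi.single a (1 : ℝ) : V n) = y := by simp
  have h := ((line_of (dφ x) a).fun_inv (by rw [z0]; exact h0 x)).fun_mul (line_of (dv' x) a)
  simp only [z0] at h
  rw [pd_line (((hinv.mul hv).differentiable (by simp)) x) h]
  ring

variable {ρ : V n → ℝ} {Ω : Set (V n)} {p ν τ : V n}

/-- **`σ`-harmonic functions concentrating at a boundary point (inward normal `ν`).** -/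
theorem concX (hρ : ContDiff ℝ ∞ ρ) (hΩ : Ω = {x | 0 < ρ x}) (hb : Bornology.IsBounded Ω)
    (hp : ρ p = 0) (hν : ∑ i, ν i ^ 2 = 1) (hτ : ∑ i, τ i ^ 2 = 1)
    (hντ : ∑ i, ν i * τ i = 0) (hc : ∃ c > 0, ∀ i, pd i ρ p = c * ν i)
    {σ : V n → ℝ} (hσ : ContDiff ℝ ∞ σ) (hσ0 : ∀ x, 0 < σ x)
    (hcg : ∀ Q : V n → ℂ, ContDiff ℝ ∞ Q → ∀ R : ℝ,
      ∃ r : ℕ → V n → ℂ, (∀ N, ContDiff ℝ ∞ (r N)) ∧ ∀ ε > 0, ∀ᶠ N : ℕ in atTop,
        (∀ x, ‖x‖ ≤ R → dv (fun _ => 1) (r N) x + 2 * (N : ℂ) *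
          ∑ j, ((ν j : ℂ) + Complex.I * ((-τ) j : ℝ)) * pd j (r N) x = Q x * (1 + r N x)) ∧
        ∀ x, ‖x‖ ≤ R → ‖r N x‖ ≤ ε ∧ ∀ a, ‖pd a (r N) x‖ ≤ ε) :
    ∃ U : ℕ → V n → ℂ, (∀ N, ContDiff ℝ ∞ (U N)) ∧
      (∀ N, ∀ x ∈ Ω, dv (CF.sc σ) (U N) x = 0) ∧
      ∀ j : ℕ, ∃ Z : ℕ → ℝ, (∀ N, 0 < Z N) ∧ ∀ F : V n → ℂ, ContinuousOn F (closure Ω) →
        ∀ a b, Tendsto (fun N => ((Z N : ℝ) : ℂ)⁻¹ * ∫ x in Ω, ((ρ x ^ j : ℝ) : ℂ) * F x *
          pd a (U N) x * (starRingEnd ℂ) (pd b (U N) x)) atTop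
          (𝓝 (F p * ((ν a : ℂ) + Complex.I * τ a) *
            (starRingEnd ℂ) ((ν b : ℂ) + Complex.I * τ b))) := by
  obtain ⟨r, hr, hball⟩ := ext_ball hρ hΩ hb hp hν hc
  have hcl := mem_cl hρ hΩ hp hν hc
  have hK : IsCompact (closure Ω) := hb.isCompact_closure
  have hO : IsOpen Ω := by
    rw [hΩ]
    exact isOpen_lt continuous_const hρ.continuous
  set q : V n := fun j => p j - r * ν j with hq
  set ζ : Fin n → ℂ := fun j => (ν j : ℂ) - Complex.I * τ j with hζd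
  have hζ : ∑ j, ζ j ^ 2 = 0 := by
    have e : ∀ j, ζ j ^ 2 = ((ν j ^ 2 - τ j ^ 2 : ℝ) : ℂ) +
        ((-2 * (ν j * τ j) : ℝ) : ℂ) * Complex.I := by
      intro j
      simp only [hζd]
      push_cast
      linear_combination ((τ j : ℝ) : ℂ) ^ 2 * Complex.I_sq
    simp only [e, Finset.sum_add_distrib, ← Finset.sum_mul, ← Complex.ofReal_sum,
      Finset.sum_sub_distrib, ← Finset.mul_sum, hν, hτ, hντ]
    simp
  have hS : ∀ x ∈ closure Ω, r ^ 2 ≤ S q x := fun x hx => by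
    have h1 := hball x hx
    have h2 : 0 ≤ ∑ j, (x j - p j) ^ 2 := Finset.sum_nonneg fun _ _ => sq_nonneg _
    linarith
  have hS0 : ∀ x ∈ closure Ω, 0 < S q x := fun x hx => lt_of_lt_of_le (by positivity) (hS x hx)
  -- the conjugating factor
  set φ : V n → ℂ := fun x => ((√(σ x) : ℝ) : ℂ) with hφd
  have hφ : ContDiff ℝ ∞ φ := Complex.ofRealCLM.contDiff.comp (hσ.sqrt fun x => (hσ0 x).ne')
  have hφ0 : ∀ x, φ x ≠ 0 := fun x => by
    simp only [hφd]
    exact_mod_cast (Real.sqrt_pos.mpr (hσ0 x)).ne'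
  have hφσ : ∀ x, ((σ x : ℝ) : ℂ) = φ x ^ 2 := fun x => by
    simp only [hφd]
    rw [← Complex.ofReal_pow, Real.sq_sqrt (hσ0 x).le]
  -- the potential
  set Qx : V n → ℂ := fun x => (∑ a, pd a (pd a φ) x) * (φ x)⁻¹ with hQx
  have hQxs : ContDiff ℝ ∞ Qx :=
    (ContDiff.sum fun a _ => pd_smooth (pd_smooth hφ a) a).mul (hφ.inv hφ0)
  obtain ⟨B, hB⟩ := hK.exists_bound_of_continuousOn (S_contDiff q).continuous.continuousOn
  have hB' : ∀ x ∈ closure Ω, S q x ≤ max B 1 := fun x hx =>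
    (Real.le_norm_self _).trans ((hB x hx).trans (le_max_left _ _))
  set δ : ℝ := √(1 / max B 1) with hδ
  have hB1 : (0 : ℝ) < max B 1 := lt_of_lt_of_le one_pos (le_max_right _ _)
  have hδ0 : 0 < δ := Real.sqrt_pos.mpr (by positivity)
  have hδ2 : δ ^ 2 = 1 / max B 1 := Real.sq_sqrt (by positivity)
  set Qf : V n → ℂ := fun y => (chi 0 δ y : ℂ) * (((S 0 y : ℂ) ^ 2)⁻¹ * Qx (Zv q y)) with hQf
  have hQfs : ContDiff ℝ ∞ Qf := cut_contDiff 0 hδ0 fun y hy =>
    (((Sc_contDiff 0).contDiffAt.pow 2).inv (pow_ne_zero 2 (by exact_mod_cast hy.ne'))).mul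
      (hQxs.contDiffAt.comp y (Z_contDiffAt q hy))
  have hQY : ∀ x ∈ closure Ω, Qf (Yv q x) = (S q x : ℂ) ^ 2 * Qx x := by
    intro x hx
    have h1 := hS0 x hx
    have h2 : δ ^ 2 ≤ S 0 (Yv q x) := by
      rw [S_Y h1, hδ2]
      exact one_div_le_one_div_of_le h1 (hB' x hx)
    simp only [hQf]
    rw [chi_one hδ0 h2, S_Y h1, Z_Y h1]
    have : (S q x : ℂ) ≠ 0 := by exact_mod_cast h1.ne'
    push_cast
    field_simp
  obtain ⟨rr, hrs, hrr⟩ := hcg Qf hQfs (1 / r)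
  obtain ⟨N₀, hN₀⟩ := eventually_atTop.mp (hrr 1 one_pos)
  have hY : ∀ x ∈ closure Ω, ‖Yv q x‖ ≤ 1 / r := fun x hx => norm_Y hr (hS x hx)
  -- the functions
  set m : ℕ → ℕ := fun N => N + (N₀ + 1) with hm
  have hmt : Tendsto m atTop atTop := tendsto_add_atTop_nat _
  set w : ℕ → V n → ℂ := fun N y => ex ζ (m N) y * (1 + rr (m N) y) with hw
  have hws : ∀ N, ContDiff ℝ ∞ (w N) := fun N =>
    (ex_contDiff ζ _).mul (contDiff_const.add (hrs _))
  set v : ℕ → V n → ℂ := fun N x => (chi q r x : ℂ) * KT q (w N) x with hv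
  have hvs : ∀ N, ContDiff ℝ ∞ (v N) := fun N =>
    cut_contDiff q hr fun x hx => K_contDiffAt q (hws N) hx
  have hvev : ∀ N, ∀ x ∈ closure Ω, v N =ᶠ[𝓝 x] KT q (w N) := fun N x hx =>
    cut_ev q hr _ (hS x hx)
  have hUs : ∀ N, ContDiff ℝ ∞ fun x => (φ x)⁻¹ * v N x := fun N => (hφ.inv hφ0).mul (hvs N)
  refine ⟨fun N x => (φ x)⁻¹ * v N x, hUs, fun N x hx => ?_, fun j => ?_⟩
  · have hx' := subset_closure hx
    have h1 := hS0 x hx'
    have hS1 : (S q x : ℂ) ≠ 0 := by exact_mod_cast h1.ne'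
    rw [dv_conj hφ hφ0 hφσ (hvs N) x, dv_congr_ev (hvev N x hx'), (hvev N x hx').eq_of_nhds,
      dv_K q (hws N) h1]
    have h2 := (hN₀ (m N) (by simp only [hm]; omega)).1 (Yv q x) (hY x hx')
    have h3 : dv (fun _ => 1) (w N) (Yv q x) = ex ζ (m N) (Yv q x) *
        (2 * (m N : ℝ) * ∑ a, ζ a * pd a (rr (m N)) (Yv q x) +
          dv (fun _ => 1) (rr (m N)) (Yv q x)) := by
      simp only [hw]
      rw [dv_ex ζ hζ _ (contDiff_const.add (hrs _)), dv_one_add]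
      simp only [pd_one_add]
    have h4 : ∑ a, ζ a * pd a (rr (m N)) (Yv q x) =
        ∑ j, ((ν j : ℂ) + Complex.I * ((-τ) j : ℝ)) * pd j (rr (m N)) (Yv q x) := by
      refine Finset.sum_congr rfl fun j _ => ?_
      simp only [hζd, Pi.neg_apply]
      push_cast
      ring
    have h5 : dv (fun _ => 1) φ x = Qx x * φ x := by
      rw [dv_one]
      simp only [hQx]
      rw [mul_assoc, inv_mul_cancel₀ (hφ0 x), mul_one]
    rw [h3, h4, h5]
    have h6 : 2 * ((m N : ℝ) : ℂ) * ∑ j, ((ν j : ℂ) + Complex.I * ((-τ) j : ℝ)) *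
        pd j (rr (m N)) (Yv q x) + dv (fun _ => 1) (rr (m N)) (Yv q x) =
        (S q x : ℂ) ^ 2 * Qx x * (1 + rr (m N) (Yv q x)) := by
      rw [← hQY x hx', ← h2]
      push_cast
      ring
    rw [h6]
    simp only [KT, hw]
    field_simp
    ring
  -- the weight
  have hre : ∀ x, (Lz q ζ x / (S q x : ℂ)).re = (∑ j, ν j * (x j - q j)) / S q x := by
    intro x
    rw [Complex.div_ofReal_re]
    congr 1
    unfold Lz
    rw [Complex.re_sum]
    refine Finset.sum_congr rfl fun j _ => ?_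
    rw [Complex.re_mul_ofReal]
    simp [hζd]
  have hSp : S q p = r ^ 2 := by
    unfold S
    have : ∀ j, (p j - q j) ^ 2 = r ^ 2 * ν j ^ 2 := fun j => by simp only [hq]; ring
    simp only [this, ← Finset.mul_sum, hν, mul_one]
  have hTp : ∑ j, ν j * (p j - q j) = r := by
    have : ∀ j, ν j * (p j - q j) = r * ν j ^ 2 := fun j => by simp only [hq]; ring
    simp only [this, ← Finset.mul_sum, hν, mul_one]
  have hLp : Lz q ζ p = r := by
    unfold Lz
    have : ∀ j, ζ j * ((p j - q j : ℝ) : ℂ) = ((r * ν j ^ 2 : ℝ) : ℂ) -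
        Complex.I * ((r * (ν j * τ j) : ℝ) : ℂ) := fun j => by
      simp only [hζd, hq]
      push_cast
      ring
    simp only [this, Finset.sum_sub_distrib, ← Finset.mul_sum, ← Complex.ofReal_sum, hν, hντ]
    simp
  have hcc : ContinuousOn (cw q ζ) (closure Ω) := by
    intro x hx
    unfold cw
    refine ContinuousAt.continuousWithinAt ?_
    exact (continuousAt_const.mul (Complex.continuous_re.continuousAt.comp
      (G_contDiffAt q ζ (hS0 x hx)).continuousAt)).rexp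
  have hc0 : ∀ x, 0 < cw q ζ x := fun x => Real.exp_pos _
  have hcm : ∀ y ∈ closure Ω, y ≠ p → cw q ζ y < cw q ζ p := by
    intro x hx hne
    unfold cw
    apply Real.exp_lt_exp.mpr
    rw [hre, hre, hSp, hTp]
    have hSx : r ^ 2 < S q x := by
      have h1 := hball x hx
      have h2 : 0 < ∑ j, (x j - p j) ^ 2 := by
        obtain ⟨j, hj⟩ := Function.ne_iff.mp hne
        refine Finset.sum_pos' (fun _ _ => sq_nonneg _) ⟨j, Finset.mem_univ j, ?_⟩
        have : x j - p j ≠ 0 := sub_ne_zero.mpr hj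
        positivity
      linarith
    have hT : (∑ j, ν j * (x j - q j)) ^ 2 ≤ S q x := by
      have := Finset.sum_mul_sq_le_sq_mul_sq Finset.univ ν (fun j => x j - q j)
      rw [hν, one_mul] at this
      exact this
    have hlt : r * (∑ j, ν j * (x j - q j)) < S q x := by
      refine lt_of_pow_lt_pow_left₀ 2 (hS0 x hx).le ?_
      have h3 : (r * ∑ j, ν j * (x j - q j)) ^ 2 ≤ r ^ 2 * S q x := by
        rw [mul_pow]
        exact mul_le_mul_of_nonneg_left hT (by positivity)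
      have h4 : r ^ 2 * S q x < S q x ^ 2 := by
        rw [pow_two (S q x)]
        exact mul_lt_mul_of_pos_right hSx (hS0 x hx)
      linarith
    have h5 : (∑ j, ν j * (x j - q j)) / S q x < r / r ^ 2 := by
      rw [div_lt_div_iff₀ (hS0 x hx) (by positivity)]
      nlinarith
    linarith
  -- the coefficients
  set A : Fin n → V n → ℂ := fun a x => (φ x)⁻¹ * Aa q ζ a x with hA
  set C1 : Fin n → V n → ℂ := fun a x => (φ x)⁻¹ * Ba q a x -
    pd a φ x * ((φ x) ^ 2)⁻¹ * ((S q x ^ al n : ℝ) : ℂ) with hC1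
  set C2 : Fin n → Fin n → V n → ℂ := fun a b x => (φ x)⁻¹ * ((S q x ^ al n : ℝ) : ℂ) *
    ((if b = a then 1 else 0) * (S q x : ℂ)⁻¹ -
      2 * ((x a - q a : ℝ) : ℂ) * ((x b - q b : ℝ) : ℂ) * ((S q x : ℂ) ^ 2)⁻¹) with hC2
  have hφi : Continuous fun x => (φ x)⁻¹ := (hφ.inv hφ0).continuous
  have hφi2 : Continuous fun x => ((φ x) ^ 2)⁻¹ :=
    ((hφ.pow 2).inv fun x => pow_ne_zero 2 (hφ0 x)).continuous
  have cP : ContinuousOn (fun x => ((S q x ^ al n : ℝ) : ℂ)) (closure Ω) := fun x hx =>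
    (P_contDiffAt q (hS0 x hx) _).continuousAt.continuousWithinAt
  have cSi : ContinuousOn (fun x => (S q x : ℂ)⁻¹) (closure Ω) := fun x hx =>
    ((Sc_contDiff q).contDiffAt.inv (by
      exact_mod_cast (hS0 x hx).ne' : (S q x : ℂ) ≠ 0)).continuousAt.continuousWithinAt
  have cSi2 : ContinuousOn (fun x => ((S q x : ℂ) ^ 2)⁻¹) (closure Ω) := fun x hx =>
    (((Sc_contDiff q).contDiffAt.pow 2).inv (pow_ne_zero 2 (by
      exact_mod_cast (hS0 x hx).ne' : (S q x : ℂ) ≠ 0))).continuousAt.continuousWithinAt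
  have cA : ∀ a, ContinuousOn (A a) (closure Ω) := fun a => hφi.continuousOn.mul fun x hx =>
    (A_contDiffAt q ζ (hS0 x hx) a).continuousAt.continuousWithinAt
  have cB : ∀ a, ContinuousOn (Ba q a) (closure Ω) := fun a x hx =>
    (B_contDiffAt q (hS0 x hx) a).continuousAt.continuousWithinAt
  have cC1 : ∀ a, ContinuousOn (C1 a) (closure Ω) := fun a =>
    (hφi.continuousOn.mul (cB a)).sub
      (((pd_smooth hφ a).continuous.continuousOn.mul hφi2.continuousOn).mul cP)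
  have cC2 : ∀ a b, ContinuousOn (C2 a b) (closure Ω) := fun a b =>
    (hφi.continuousOn.mul cP).mul ((continuousOn_const.mul cSi).sub
      (((continuousOn_const.mul (X_contDiff q a).continuous.continuousOn).mul
        (X_contDiff q b).continuous.continuousOn).mul cSi2))
  -- the normalised gradients
  have hm0 : ∀ N, ((m N : ℝ) : ℂ) ≠ 0 := fun N => by
    have : m N ≠ 0 := by simp only [hm]; omega
    exact_mod_cast this
  have hE0 : ∀ N x, Ex q ζ (m N) x ≠ 0 := fun N x => Complex.exp_ne_zero _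
  set H : ℕ → Fin n → V n → ℂ := fun N a x => pd a (fun x => (φ x)⁻¹ * v N x) x *
    (Ex q ζ (m N) x)⁻¹ * ((m N : ℝ) : ℂ)⁻¹ with hH
  have hHc : ∀ N a, ContinuousOn (H N a) (closure Ω) := fun N a =>
    (((pd_smooth (hUs N) a).continuous.continuousOn).mul fun x hx =>
      ((E_contDiffAt q ζ (m N) (hS0 x hx)).inv (hE0 N x)).continuousAt.continuousWithinAt).mul
        continuousOn_const
  have hHid : ∀ N a, ∀ x ∈ closure Ω, H N a x - A a x = A a x * rr (m N) (Yv q x) +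
      (C1 a x * (1 + rr (m N) (Yv q x)) + ∑ b, C2 a b x * pd b (rr (m N)) (Yv q x)) *
        ((m N : ℝ) : ℂ)⁻¹ := by
    intro N a x hx
    have hS1 : (S q x : ℂ) ≠ 0 := by exact_mod_cast (hS0 x hx).ne'
    have h1 : pd a (fun x => (φ x)⁻¹ * v N x) x = (φ x)⁻¹ * pd a (v N) x -
      pd a φ x / φ x ^ 2 * v N x := pd_conj hφ hφ0 (hvs N) a x
    have h2 : pd a (v N) x = pd a (KT q (w N)) x := by
      unfold pd
      rw [(hvev N x hx).fderiv_eq]
    have h3 : v N x = ((S q x ^ al n : ℝ) : ℂ) * (Ex q ζ (m N) x *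
        (1 + rr (m N) (Yv q x))) := by
      rw [(hvev N x hx).eq_of_nhds]
      simp only [KT, hw]
      rw [ex_Y]
    have h4 : ∑ b, C2 a b x * pd b (rr (m N)) (Yv q x) = (φ x)⁻¹ * ((S q x ^ al n : ℝ) : ℂ) *
        (pd a (rr (m N)) (Yv q x) / (S q x : ℂ) - 2 * ((x a - q a : ℝ) : ℂ) *
          (∑ b, ((x b - q b : ℝ) : ℂ) * pd b (rr (m N)) (Yv q x)) / (S q x : ℂ) ^ 2) := by
      have e : ∀ b, C2 a b x * pd b (rr (m N)) (Yv q x) = (φ x)⁻¹ * ((S q x ^ al n : ℝ) : ℂ) *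
          (if b = a then pd b (rr (m N)) (Yv q x) / (S q x : ℂ) else 0) -
          (φ x)⁻¹ * ((S q x ^ al n : ℝ) : ℂ) * 2 * ((x a - q a : ℝ) : ℂ) / (S q x : ℂ) ^ 2 *
            (((x b - q b : ℝ) : ℂ) * pd b (rr (m N)) (Yv q x)) := by
        intro b
        simp only [hC2]
        split_ifs
        · field_simp
        · field_simp
          ring
      simp only [e, Finset.sum_sub_distrib, ← Finset.mul_sum, Finset.sum_ite_eq',
        Finset.mem_univ, if_true]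
      ring
    have hE := hE0 N x
    have hmN := hm0 N
    have hφx := hφ0 x
    simp only [hH]
    rw [h1, h2, h3, h4]
    simp only [hw]
    rw [pd_Kex q ζ (m N) (hrs (m N)) (hS0 x hx) a]
    simp only [hA, hC1]
    field_simp
    ring
  have s1 : Sml (closure Ω) fun N x => rr (m N) (Yv q x) := by
    intro ε hε
    filter_upwards [hmt.eventually (hrr ε hε)] with N hN x hx
    exact (hN.2 _ (hY x hx)).1
  have s2 : ∀ b, Sml (closure Ω) fun N x => pd b (rr (m N)) (Yv q x) := by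
    intro b ε hε
    filter_upwards [hmt.eventually (hrr ε hε)] with N hN x hx
    exact (hN.2 _ (hY x hx)).2 b
  have s3 : Sml (closure Ω) fun N _ => ((m N : ℝ) : ℂ)⁻¹ := by
    refine Sml.of_tendsto ?_
    have h4 : Tendsto (fun N : ℕ => (((((m N : ℕ) : ℝ))⁻¹ : ℝ) : ℂ)) atTop (𝓝 ((0 : ℝ) : ℂ)) :=
      (Complex.continuous_ofReal.tendsto 0).comp
        (tendsto_inv_atTop_nhds_zero_nat (𝕜 := ℝ) |>.comp hmt)
    simpa using h4
  have u0 : UBd (closure Ω) fun _ _ => (1 : ℂ) := UBd.of_cont hK continuousOn_const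
  have hHs : ∀ a, Sml (closure Ω) fun N x => H N a x - A a x := fun a =>
    (((UBd.of_cont hK (cA a)).mul_sml s1).add
      (UBd.mul_sml (((UBd.of_cont hK (cC1 a)).mul (u0.add s1.ubd)).add
        (Sml.sum Finset.univ fun b _ => (UBd.of_cont hK (cC2 a b)).mul_sml (s2 b)).ubd) s3)).congr
      (Eventually.of_forall fun N x hx => hHid N a x hx)
  have hAp : ∀ a, A a p = -((((r ^ 2) ^ al n / r ^ 2 / √(σ p) : ℝ)) *
      ((ν a : ℂ) + Complex.I * τ a)) := by
    intro a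
    simp only [hA, hφd]
    unfold Aa
    rw [hSp, hLp]
    have hrc : (r : ℂ) ≠ 0 := by exact_mod_cast hr.ne'
    have hσp : ((√(σ p) : ℝ) : ℂ) ≠ 0 := by exact_mod_cast (Real.sqrt_pos.mpr (hσ0 p)).ne'
    have hX : ((p a - q a : ℝ) : ℂ) = r * ν a := by
      simp only [hq]
      push_cast
      ring
    rw [hX]
    simp only [hζd]
    push_cast
    field_simp
    ring
  set κ : ℝ := (r ^ 2) ^ al n / r ^ 2 / √(σ p) with hκd
  have hκ : 0 < κ := by
    have := Real.sqrt_pos.mpr (hσ0 p)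
    positivity
  have hmc : Continuous fun x => ρ x ^ j := hρ.continuous.pow j
  have hmp : ∀ x ∈ Ω, 0 < ρ x ^ j := fun x hx => by
    rw [hΩ] at hx
    exact pow_pos hx j
  set D : ℕ → ℝ := fun N => ∫ x in Ω, cw q ζ x ^ m N * ρ x ^ j with hD
  have hD0 : ∀ N, 0 < D N := fun N =>
    peak_pos hO hb hcl hmc hmp hcc (fun x _ => hc0 x) (m N)
  have hmr : ∀ N, 0 < (m N : ℝ) := fun N => by
    have : 0 < m N := by simp only [hm]; omega
    exact_mod_cast this
  refine ⟨fun N => (m N : ℝ) ^ 2 * D N * κ ^ 2, fun N => by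
    have := hD0 N
    have := hmr N
    positivity, fun F hF a b => ?_⟩
  have hconj : ∀ {f : V n → ℂ}, ContinuousOn f (closure Ω) →
      ContinuousOn (fun x => (starRingEnd ℂ) (f x)) (closure Ω) := fun hf =>
    Complex.continuous_conj.comp_continuousOn hf
  have uA : ∀ a, UBd (closure Ω) fun _ => A a := fun a => UBd.of_cont hK (cA a)
  have uF : UBd (closure Ω) fun _ => F := UBd.of_cont hK hF
  have uAc : ∀ a, UBd (closure Ω) fun _ x => (starRingEnd ℂ) (A a x) := fun a =>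
    UBd.of_cont hK (hconj (cA a))
  have sHc : ∀ a, Sml (closure Ω) fun N x => (starRingEnd ℂ) (H N a x - A a x) := fun a =>
    (hHs a).conj
  have hs : Sml (closure Ω) fun N x => F x * H N a x * (starRingEnd ℂ) (H N b x) -
      F x * A a x * (starRingEnd ℂ) (A b x) := by
    have t1 := (uF.mul ((uAc b).add (sHc b).ubd)).mul_sml (hHs a)
    have t2 := (uF.mul (uA a)).mul_sml (sHc b)
    refine (t1.add t2).congr (Eventually.of_forall fun N x _ => ?_)
    simp only [map_sub]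
    ring
  have hlim := (peakU hO hb hcl hmc hmp hcc hcm (fun x _ => hc0 x)
    (G := fun x => F x * A a x * (starRingEnd ℂ) (A b x)) ((hF.mul (cA a)).mul (hconj (cA b)))
    (Gn := fun N x => F x * H N a x * (starRingEnd ℂ) (H N b x))
    (fun N => (hF.mul (hHc N a)).mul (hconj (hHc N b))) hmt hs).const_mul (((κ : ℝ) : ℂ) ^ 2)⁻¹
  have hk : ((κ : ℝ) : ℂ) ≠ 0 := by exact_mod_cast hκ.ne'
  have hval : (((κ : ℝ) : ℂ) ^ 2)⁻¹ * (F p * A a p * (starRingEnd ℂ) (A b p)) =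
      F p * ((ν a : ℂ) + Complex.I * τ a) * (starRingEnd ℂ) ((ν b : ℂ) + Complex.I * τ b) := by
    rw [hAp a, hAp b]
    simp only [map_neg, map_mul, Complex.conj_ofReal]
    field_simp
  rw [hval] at hlim
  refine hlim.congr fun N => ?_
  have hDn : ((D N : ℝ) : ℂ) ≠ 0 := by exact_mod_cast (hD0 N).ne'
  have hI : ∫ x in Ω, ((ρ x ^ j : ℝ) : ℂ) * F x * pd a (fun x => (φ x)⁻¹ * v N x) x *
      (starRingEnd ℂ) (pd b (fun x => (φ x)⁻¹ * v N x) x) =
      ((m N : ℝ) : ℂ) ^ 2 * ∫ x in Ω, ((cw q ζ x ^ m N * ρ x ^ j : ℝ) : ℂ) *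
        (F x * H N a x * (starRingEnd ℂ) (H N b x)) := by
    rw [← integral_const_mul]
    refine setIntegral_congr_fun hO.measurableSet fun x hx => ?_
    have hE := hE0 N x
    have h1 : ∀ a, pd a (fun x => (φ x)⁻¹ * v N x) x =
        Ex q ζ (m N) x * ((m N : ℝ) : ℂ) * H N a x := fun a => by
      simp only [hH]
      have := hm0 N
      field_simp
    have h2 := Ex_conj q ζ (m N) x
    show ((ρ x ^ j : ℝ) : ℂ) * F x * pd a (fun x => (φ x)⁻¹ * v N x) x *
      (starRingEnd ℂ) (pd b (fun x => (φ x)⁻¹ * v N x) x) = _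
    rw [h1 a, h1 b]
    simp only [map_mul, Complex.conj_ofReal]
    push_cast at h2 ⊢
    linear_combination (((ρ x : ℝ) : ℂ) ^ j * F x * ((m N : ℝ) : ℂ) ^ 2 * H N a x *
      (starRingEnd ℂ) (H N b x)) * h2
  rw [hI]
  have hZ : (((m N : ℝ) ^ 2 * D N * κ ^ 2 : ℝ) : ℂ) =
      ((m N : ℝ) : ℂ) ^ 2 * ((D N : ℝ) : ℂ) * ((κ : ℝ) : ℂ) ^ 2 := by
    push_cast
    ring
  rw [hZ]
  have hmN := hm0 N
  have hDe : (∫ x in Ω, cw q ζ x ^ m N * ρ x ^ j) = D N := rfl
  rw [hDe]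
  generalize (∫ x in Ω, ((cw q ζ x ^ m N * ρ x ^ j : ℝ) : ℂ) *
        (F x * H N a x * (starRingEnd ℂ) (H N b x))) = I
  field_simp

end Vale.Agent.P088.H639.Kv
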