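import Vale.Agent.P088.H198.Defs

/-!
# P088, stage 2: the Kelvin transform of a complex exponential
-/

open MeasureTheory Set Filter Topology
open scoped ContDiff

noncomputable section

namespace Vale.Agent.P088.H639.Kv

open Vale.Agent.P088.LR

variable {n : ℕ}

/-- `|x - q|²`. -/
def S (q x : V n) : ℝ := ∑ j, (x j - q j) ^ 2

/-- `ζ·(x - q)`. -/
def Lz (q : V n) (ζ : Fin n → ℂ) (x : V n) : ℂ := ∑ j, ζ j * ((x j - q j : ℝ) : ℂ)

/-- `(2 - n)/2`. -/
def al (n : ℕ) : ℝ := (2 - n) / 2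

/-- The leading coefficient of the gradient. -/
def Aa (q : V n) (ζ : Fin n → ℂ) (a : Fin n) (x : V n) : ℂ :=
  ((S q x ^ al n : ℝ) : ℂ) *
    (ζ a / (S q x : ℂ) - 2 * ((x a - q a : ℝ) : ℂ) * Lz q ζ x / (S q x : ℂ) ^ 2)

/-- The second coefficient of the gradient. -/
def Ba (q : V n) (a : Fin n) (x : V n) : ℂ :=
  ((2 * al n * (x a - q a) * S q x ^ (al n - 1) : ℝ) : ℂ)

/-- The exponential factor. -/
def Ex (q : V n) (ζ : Fin n → ℂ) (M : ℝ) (x : V n) : ℂ :=
  Complex.exp (M * (Lz q ζ x / (S q x : ℂ)))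

/-- The Kelvin transform of an exponential. -/
def Ut (q : V n) (ζ : Fin n → ℂ) (M : ℝ) (x : V n) : ℂ :=
  ((S q x ^ al n : ℝ) : ℂ) * Ex q ζ M x

/-- Partial derivatives along a line. -/
theorem pd_line {F : Type*} [NormedAddCommGroup F] [NormedSpace ℝ F] {f : V n → F} {x : V n}
    (hf : DifferentiableAt ℝ f x) {a : Fin n} {f' : F}
    (h : HasDerivAt (fun t : ℝ => f (x + t • (Pi.single a (1 : ℝ) : V n))) f' 0) :
    pd a f x = f' := by
  have h1 : HasDerivAt (fun t : ℝ => x + t • (Pi.single a (1 : ℝ) : V n)) (Pi.single a 1) 0 := by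
    have := ((hasDerivAt_id (0 : ℝ)).smul_const (Pi.single a (1 : ℝ) : V n)).const_add x
    simpa using this
  have h0 : x + (0 : ℝ) • (Pi.single a (1 : ℝ) : V n) = x := by simp
  have h2 : HasFDerivAt f (fderiv ℝ f x) (x + (0 : ℝ) • (Pi.single a (1 : ℝ) : V n)) := by
    rw [h0]; exact hf.hasFDerivAt
  exact (h2.comp_hasDerivAt (0 : ℝ) h1).unique h

variable (q : V n) (ζ : Fin n → ℂ) (M : ℝ)

theorem line_X (x : V n) (a j : Fin n) :
    HasDerivAt (fun t : ℝ => (x + t • (Pi.single a (1 : ℝ) : V n)) j - q j)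
      (if j = a then 1 else 0) 0 := by
  have h : HasDerivAt (fun t : ℝ => x j + t * (Pi.single a (1 : ℝ) : V n) j - q j)
      ((Pi.single a (1 : ℝ) : V n) j) 0 := by
    have := (((hasDerivAt_id (0 : ℝ)).mul_const ((Pi.single a (1 : ℝ) : V n) j)).const_add
      (x j)).sub_const (q j)
    simpa using this
  have e : (Pi.single a (1 : ℝ) : V n) j = if j = a then 1 else 0 := by
    rw [Pi.single_apply]
  exact h.congr_deriv e

theorem line_S (x : V n) (a : Fin n) :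
    HasDerivAt (fun t : ℝ => S q (x + t • (Pi.single a (1 : ℝ) : V n))) (2 * (x a - q a)) 0 := by
  unfold S
  have h : HasDerivAt (fun t : ℝ => ∑ j, ((x + t • (Pi.single a (1 : ℝ) : V n)) j - q j) ^ 2)
      (∑ j, 2 * (x j - q j) * (if j = a then 1 else 0)) 0 := by
    refine HasDerivAt.fun_sum fun j _ => ?_
    have := (line_X q x a j).fun_pow 2
    simpa using this
  simpa using h

theorem line_L (x : V n) (a : Fin n) :
    HasDerivAt (fun t : ℝ => Lz q ζ (x + t • (Pi.single a (1 : ℝ) : V n))) (ζ a) 0 := by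
  unfold Lz
  have h : HasDerivAt (fun t : ℝ => ∑ j, ζ j *
      ((((x + t • (Pi.single a (1 : ℝ) : V n)) j - q j : ℝ)) : ℂ))
      (∑ j, ζ j * (((if j = a then 1 else 0 : ℝ)) : ℂ)) 0 := by
    refine HasDerivAt.fun_sum fun j _ => ?_
    exact ((line_X q x a j).ofReal_comp).const_mul (ζ j)
  refine h.congr_deriv ?_
  simp only [apply_ite Complex.ofReal, Complex.ofReal_one, Complex.ofReal_zero, mul_ite, mul_one,
    mul_zero, Finset.sum_ite_eq', Finset.mem_univ, if_true]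

theorem line_P {x : V n} (hx : 0 < S q x) (a : Fin n) (β : ℝ) :
    HasDerivAt (fun t : ℝ => ((S q (x + t • (Pi.single a (1 : ℝ) : V n)) ^ β : ℝ) : ℂ))
      ((2 * (x a - q a) * β * S q x ^ (β - 1) : ℝ) : ℂ) 0 := by
  have h0 : x + (0 : ℝ) • (Pi.single a (1 : ℝ) : V n) = x := by simp
  have h := (line_S q x a).rpow_const (p := β) (Or.inl (by rw [h0]; exact hx.ne'))
  rw [h0] at h
  exact h.ofReal_comp

theorem line_G {x : V n} (hx : 0 < S q x) (a : Fin n) :
    HasDerivAt (fun t : ℝ => Lz q ζ (x + t • (Pi.single a (1 : ℝ) : V n)) /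
      (S q (x + t • (Pi.single a (1 : ℝ) : V n)) : ℂ))
      (ζ a / (S q x : ℂ) - 2 * ((x a - q a : ℝ) : ℂ) * Lz q ζ x / (S q x : ℂ) ^ 2) 0 := by
  have h0 : x + (0 : ℝ) • (Pi.single a (1 : ℝ) : V n) = x := by simp
  have hS : (S q x : ℂ) ≠ 0 := by exact_mod_cast hx.ne'
  have h := (line_L q ζ x a).fun_div ((line_S q x a).ofReal_comp) (by rw [h0]; exact hS)
  rw [h0] at h
  refine h.congr_deriv ?_
  push_cast
  field_simp

theorem line_E {x : V n} (hx : 0 < S q x) (a : Fin n) :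
    HasDerivAt (fun t : ℝ => Ex q ζ M (x + t • (Pi.single a (1 : ℝ) : V n)))
      (Ex q ζ M x * (M * (ζ a / (S q x : ℂ) -
        2 * ((x a - q a : ℝ) : ℂ) * Lz q ζ x / (S q x : ℂ) ^ 2))) 0 := by
  have h0 : x + (0 : ℝ) • (Pi.single a (1 : ℝ) : V n) = x := by simp
  have h := ((line_G q ζ hx a).const_mul (M : ℂ)).cexp
  rw [h0] at h
  exact h

theorem line_U {x : V n} (hx : 0 < S q x) (a : Fin n) :
    HasDerivAt (fun t : ℝ => Ut q ζ M (x + t • (Pi.single a (1 : ℝ) : V n)))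
      (Ex q ζ M x * (M * Aa q ζ a x + Ba q a x)) 0 := by
  have h0 : x + (0 : ℝ) • (Pi.single a (1 : ℝ) : V n) = x := by simp
  have h := (line_P q hx a (al n)).fun_mul (line_E q ζ M hx a)
  refine HasDerivAt.congr_deriv h ?_
  simp only [h0]
  unfold Aa Ba
  push_cast
  ring

/-- Smoothness away from the centre. -/
theorem S_contDiff : ContDiff ℝ ∞ (S q) := by
  unfold S
  fun_prop

theorem X_contDiff (a : Fin n) : ContDiff ℝ ∞ (fun x : V n => ((x a - q a : ℝ) : ℂ)) := by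
  have h : ContDiff ℝ ∞ (fun x : V n => x a - q a) := by fun_prop
  exact Complex.ofRealCLM.contDiff.comp h

theorem L_contDiff : ContDiff ℝ ∞ (Lz q ζ) := by
  unfold Lz
  exact ContDiff.sum fun j _ => contDiff_const.mul (X_contDiff q j)

theorem Sc_contDiff : ContDiff ℝ ∞ (fun x : V n => (S q x : ℂ)) :=
  Complex.ofRealCLM.contDiff.comp (S_contDiff q)

theorem P_contDiffAt {x : V n} (hx : 0 < S q x) (β : ℝ) :
    ContDiffAt ℝ ∞ (fun x => ((S q x ^ β : ℝ) : ℂ)) x := by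
  have h : ContDiffAt ℝ ∞ (fun x => S q x ^ β) x :=
    (S_contDiff q).contDiffAt.rpow_const_of_ne hx.ne'
  exact Complex.ofRealCLM.contDiff.contDiffAt.comp x h

theorem G_contDiffAt {x : V n} (hx : 0 < S q x) :
    ContDiffAt ℝ ∞ (fun x => Lz q ζ x / (S q x : ℂ)) x := by
  simp only [div_eq_mul_inv]
  exact (L_contDiff q ζ).contDiffAt.mul
    ((Sc_contDiff q).contDiffAt.inv (by exact_mod_cast hx.ne'))

theorem E_contDiffAt {x : V n} (hx : 0 < S q x) : ContDiffAt ℝ ∞ (Ex q ζ M) x := by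
  unfold Ex
  exact (contDiffAt_const.mul (G_contDiffAt q ζ hx)).cexp

theorem U_contDiffAt {x : V n} (hx : 0 < S q x) : ContDiffAt ℝ ∞ (Ut q ζ M) x := by
  unfold Ut
  exact (P_contDiffAt q hx _).mul (E_contDiffAt q ζ M hx)

theorem A_contDiffAt {x : V n} (hx : 0 < S q x) (a : Fin n) :
    ContDiffAt ℝ ∞ (Aa q ζ a) x := by
  unfold Aa
  have hS : (S q x : ℂ) ≠ 0 := by exact_mod_cast hx.ne'
  simp only [div_eq_mul_inv]
  refine (P_contDiffAt q hx _).mul (ContDiffAt.sub ?_ ?_)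
  · exact contDiffAt_const.mul ((Sc_contDiff q).contDiffAt.inv hS)
  · exact ((contDiffAt_const.mul (X_contDiff q a).contDiffAt).mul
      (L_contDiff q ζ).contDiffAt).mul
      (((Sc_contDiff q).contDiffAt.pow 2).inv (pow_ne_zero 2 hS))

theorem B_contDiffAt {x : V n} (hx : 0 < S q x) (a : Fin n) :
    ContDiffAt ℝ ∞ (Ba q a) x := by
  have h : ContDiffAt ℝ ∞ (fun x : V n => 2 * al n * (x a - q a) * S q x ^ (al n - 1)) x :=
    (contDiffAt_const.mul (by fun_prop)).mul ((S_contDiff q).contDiffAt.rpow_const_of_ne hx.ne')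
  exact Complex.ofRealCLM.contDiff.contDiffAt.comp x h

/-- The gradient. -/
theorem pd_U {x : V n} (hx : 0 < S q x) (a : Fin n) :
    pd a (Ut q ζ M) x = Ex q ζ M x * (M * Aa q ζ a x + Ba q a x) :=
  pd_line ((U_contDiffAt q ζ M hx).differentiableAt (by simp)) (line_U q ζ M hx a)

/-- The derivative of the gradient. -/
theorem line_A {x : V n} (hx : 0 < S q x) (a : Fin n) :
    HasDerivAt (fun t : ℝ => Aa q ζ a (x + t • (Pi.single a (1 : ℝ) : V n)))
      (((2 * (x a - q a) * al n * S q x ^ (al n - 1) : ℝ) : ℂ) *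
        (ζ a / (S q x : ℂ) - 2 * ((x a - q a : ℝ) : ℂ) * Lz q ζ x / (S q x : ℂ) ^ 2) +
      ((S q x ^ al n : ℝ) : ℂ) * (-(ζ a * (2 * ((x a - q a : ℝ) : ℂ))) / (S q x : ℂ) ^ 2 -
        ((2 * Lz q ζ x + 2 * ((x a - q a : ℝ) : ℂ) * ζ a) / (S q x : ℂ) ^ 2 -
          8 * ((x a - q a : ℝ) : ℂ) ^ 2 * Lz q ζ x / (S q x : ℂ) ^ 3))) 0 := by
  have h0 : x + (0 : ℝ) • (Pi.single a (1 : ℝ) : V n) = x := by simp
  have hS : (S q x : ℂ) ≠ 0 := by exact_mod_cast hx.ne'
  have hX := (line_X q x a a).ofReal_comp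
  have hSc := (line_S q x a).ofReal_comp
  have h1 := (hasDerivAt_const (0 : ℝ) (ζ a)).fun_div hSc (by rw [h0]; exact hS)
  have h2 := (((hX.const_mul (2 : ℂ)).fun_mul (line_L q ζ x a)).fun_div (hSc.fun_pow 2)
    (by rw [h0]; exact pow_ne_zero 2 hS))
  have h := (line_P q hx a (al n)).fun_mul (h1.fun_sub h2)
  refine HasDerivAt.congr_deriv h ?_
  simp only [h0, if_true]
  push_cast
  field_simp
  ring

theorem line_B {x : V n} (hx : 0 < S q x) (a : Fin n) :
    HasDerivAt (fun t : ℝ => Ba q a (x + t • (Pi.single a (1 : ℝ) : V n)))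
      ((2 * al n * S q x ^ (al n - 1) +
        2 * al n * (x a - q a) * (2 * (x a - q a) * (al n - 1) * S q x ^ (al n - 1 - 1)) : ℝ) : ℂ)
      0 := by
  have h0 : x + (0 : ℝ) • (Pi.single a (1 : ℝ) : V n) = x := by simp
  have h1 := (line_S q x a).rpow_const (p := al n - 1) (Or.inl (by rw [h0]; exact hx.ne'))
  have h2 := ((line_X q x a a).const_mul (2 * al n)).fun_mul h1
  have h3 := h2.ofReal_comp
  refine HasDerivAt.congr_deriv h3 ?_
  simp only [h0, if_true]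
  push_cast
  ring

/-- **Harmonicity.** -/
theorem harm (hζ : ∑ j, ζ j ^ 2 = 0) {x : V n} (hx : 0 < S q x) :
    dv (fun _ => 1) (Ut q ζ M) x = 0 := by
  have hS : (S q x : ℂ) ≠ 0 := by exact_mod_cast hx.ne'
  have hev : ∀ᶠ y in 𝓝 x, 0 < S q y := (S_contDiff q).continuous.continuousAt.eventually
    (lt_mem_nhds hx)
  have e0 : ∀ i, pd i (fun y => ∑ j, (((1 : Matrix (Fin n) (Fin n) ℝ) i j : ℝ) : ℂ) *
      pd j (Ut q ζ M) y) x = pd i (fun y => Ex q ζ M y * (M * Aa q ζ i y + Ba q i y)) x := by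
    intro i
    unfold pd
    have : (fun y => ∑ j, (((1 : Matrix (Fin n) (Fin n) ℝ) i j : ℝ) : ℂ) *
        (fderiv ℝ (Ut q ζ M) y) (Pi.single j 1)) =ᶠ[𝓝 x]
        (fun y => Ex q ζ M y * (M * Aa q ζ i y + Ba q i y)) := by
      filter_upwards [hev] with y hy
      have h1 : ∀ j, (((1 : Matrix (Fin n) (Fin n) ℝ) i j : ℝ) : ℂ) =
          if i = j then 1 else 0 := fun j => by
        rw [Matrix.one_apply]; split_ifs <;> simp
      simp only [h1, ite_mul, one_mul, zero_mul, Finset.sum_ite_eq, Finset.mem_univ, if_true]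
      exact pd_U q ζ M hy i
    rw [this.fderiv_eq]
  have e1 : ∀ i, pd i (fun y => Ex q ζ M y * (M * Aa q ζ i y + Ba q i y)) x = _ := fun i =>
    pd_line (((E_contDiffAt q ζ M hx).mul ((contDiffAt_const.mul (A_contDiffAt q ζ hx i)).add
      (B_contDiffAt q hx i))).differentiableAt (by simp))
      ((line_E q ζ M hx i).fun_mul
        (((line_A q ζ hx i).const_mul (M : ℂ)).fun_add (line_B q hx i)))
  have hp1 : S q x ^ (al n - 1) = S q x ^ al n / S q x := by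
    rw [Real.rpow_sub_one hx.ne']
  have hp2 : S q x ^ (al n - 1 - 1) = S q x ^ al n / S q x / S q x := by
    rw [Real.rpow_sub_one hx.ne', hp1]
  have h0 : ∀ i : Fin n, x + (0 : ℝ) • (Pi.single i (1 : ℝ) : V n) = x := by simp
  unfold dv
  simp only [e0, e1, h0]
  have hX2 : ∑ i, ((x i - q i : ℝ) : ℂ) ^ 2 = (S q x : ℂ) := by
    unfold S
    push_cast
    rfl
  have hL : ∑ i, ζ i * ((x i - q i : ℝ) : ℂ) = Lz q ζ x := rfl
  set P : ℂ := ((S q x ^ al n : ℝ) : ℂ) with hP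
  set s : ℂ := (S q x : ℂ) with hs
  set L : ℂ := Lz q ζ x with hLd
  set E : ℂ := Ex q ζ M x with hE
  have key : ∀ i, (E * (M * (ζ i / s - 2 * ((x i - q i : ℝ) : ℂ) * L / s ^ 2)) *
      (M * Aa q ζ i x + Ba q i x) + E * (M * (((2 * (x i - q i) * al n *
      S q x ^ (al n - 1) : ℝ) : ℂ) *
        (ζ i / s - 2 * ((x i - q i : ℝ) : ℂ) * L / s ^ 2) +
      P * (-(ζ i * (2 * ((x i - q i : ℝ) : ℂ))) / s ^ 2 -
        ((2 * L + 2 * ((x i - q i : ℝ) : ℂ) * ζ i) / s ^ 2 -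
          8 * ((x i - q i : ℝ) : ℂ) ^ 2 * L / s ^ 3))) +
      ((2 * al n * S q x ^ (al n - 1) +
        2 * al n * (x i - q i) * (2 * (x i - q i) * (al n - 1) *
          S q x ^ (al n - 1 - 1)) : ℝ) : ℂ))) =
      (E * (M ^ 2 * P / s ^ 2)) * ζ i ^ 2 +
      (E * (-4 * M ^ 2 * P * L / s ^ 3 + M * P * (4 * al n - 4) / s ^ 2)) *
        (ζ i * ((x i - q i : ℝ) : ℂ)) +
      (E * (4 * M ^ 2 * P * L ^ 2 / s ^ 4 + M * P * L * (8 - 8 * al n) / s ^ 3 +
        4 * al n * (al n - 1) * P / s ^ 2)) * ((x i - q i : ℝ) : ℂ) ^ 2 +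
      E * (-2 * M * P * L / s ^ 2 + 2 * al n * P / s) := by
    intro i
    unfold Aa Ba
    rw [hp1, hp2]
    simp only [← hLd, ← hs, ← hP]
    push_cast
    simp only [← hP, ← hs]
    field_simp
    ring
  have key2 : ∑ i, ((E * (M ^ 2 * P / s ^ 2)) * ζ i ^ 2 +
      (E * (-4 * M ^ 2 * P * L / s ^ 3 + M * P * (4 * al n - 4) / s ^ 2)) *
        (ζ i * ((x i - q i : ℝ) : ℂ)) +
      (E * (4 * M ^ 2 * P * L ^ 2 / s ^ 4 + M * P * L * (8 - 8 * al n) / s ^ 3 +
        4 * al n * (al n - 1) * P / s ^ 2)) * ((x i - q i : ℝ) : ℂ) ^ 2 +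
      E * (-2 * M * P * L / s ^ 2 + 2 * al n * P / s)) = 0 := by
    simp only [Finset.sum_add_distrib, ← Finset.mul_sum, hζ, hL, hX2, Finset.sum_const,
      Finset.card_univ, Fintype.card_fin, nsmul_eq_mul]
    unfold al
    push_cast
    field_simp
    ring
  rw [← key2]
  exact Finset.sum_congr rfl fun i _ => key i

end Vale.Agent.P088.H639.Kv
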