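import Vale.Agent.P088.H639.Peak
import Vale.Agent.P088.H639.Kelv

/-!
# P088, stage 2, row CONC: harmonic functions concentrating at a boundary point
-/

open MeasureTheory Set Filter Topology
open scoped ContDiff

noncomputable section

namespace Vale.Agent.P088.H639

open Vale.Agent.P088.LR Kv

variable {n : ℕ}

theorem vec_sum (v : V n) : v = ∑ i, v i • (Pi.single i (1 : ℝ) : V n) := by
  funext j
  simp [Finset.sum_apply, Pi.single_apply]

theorem fderiv_sum (ρ : V n → ℝ) (p v : V n) : fderiv ℝ ρ p v = ∑ i, v i * pd i ρ p := by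
  conv_lhs => rw [vec_sum v]
  rw [map_sum]
  simp only [map_smul, smul_eq_mul]
  rfl

/-- Second order upper bound. -/
theorem taylor {ρ : V n → ℝ} (hρ : ContDiff ℝ ∞ ρ) (p : V n) (R : ℝ) :
    ∃ L : ℝ, 0 ≤ L ∧ ∀ x ∈ Metric.closedBall p R,
      ρ x ≤ ρ p + fderiv ℝ ρ p (x - p) + L * ‖x - p‖ ^ 2 := by
  have h1 : ContDiff ℝ ∞ (fderiv ℝ ρ) := hρ.fderiv_right (by simp)
  have hc : Continuous fun x => ‖fderiv ℝ (fderiv ℝ ρ) x‖ :=
    (h1.continuous_fderiv (by simp)).norm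
  obtain ⟨L, hL⟩ := (isCompact_closedBall p R).exists_bound_of_continuousOn
    (f := fun x => ‖fderiv ℝ (fderiv ℝ ρ) x‖) hc.continuousOn
  refine ⟨max L 0, le_max_right _ _, fun x hx => ?_⟩
  have hR : ∀ y ∈ Metric.closedBall p ‖x - p‖, y ∈ Metric.closedBall p R := fun y hy => by
    rw [Metric.mem_closedBall] at hx hy ⊢
    rw [dist_eq_norm] at hx
    exact hy.trans hx
  have hd : ∀ y ∈ Metric.closedBall p ‖x - p‖, ‖fderiv ℝ ρ y - fderiv ℝ ρ p‖ ≤
      max L 0 * ‖x - p‖ := by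
    intro y hy
    have := (convex_closedBall p ‖x - p‖).norm_image_sub_le_of_norm_fderiv_le (𝕜 := ℝ)
      (f := fderiv ℝ ρ) (C := max L 0) (fun z _ => (h1.differentiable (by simp)) z)
      (fun z hz => by
        exact (Real.le_norm_self _).trans ((hL z (hR z hz)).trans (le_max_left _ _)))
      (Metric.mem_closedBall_self (norm_nonneg _)) hy
    refine this.trans (mul_le_mul_of_nonneg_left ?_ (le_max_right _ _))
    rw [Metric.mem_closedBall, dist_eq_norm] at hy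
    exact hy
  have h2 := (convex_closedBall p ‖x - p‖).norm_image_sub_le_of_norm_fderiv_le' (𝕜 := ℝ)
    (f := ρ) (φ := fderiv ℝ ρ p) (C := max L 0 * ‖x - p‖)
    (fun z _ => (hρ.differentiable (by simp)) z) hd
    (Metric.mem_closedBall_self (norm_nonneg _)) (y := x) (by
      rw [Metric.mem_closedBall, dist_eq_norm])
  have h3 := (Real.le_norm_self _).trans h2
  nlinarith [h3]

theorem norm_sq_le_sum (v : V n) : ‖v‖ ^ 2 ≤ ∑ j, v j ^ 2 := by
  have hs : 0 ≤ ∑ j, v j ^ 2 := Finset.sum_nonneg fun _ _ => sq_nonneg _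
  have h : ‖v‖ ≤ √(∑ j, v j ^ 2) := by
    rw [pi_norm_le_iff_of_nonneg (Real.sqrt_nonneg _)]
    intro i
    rw [Real.norm_eq_abs]
    apply Real.abs_le_sqrt
    exact Finset.single_le_sum (f := fun j => v j ^ 2) (fun _ _ => sq_nonneg _)
      (Finset.mem_univ i)
  calc ‖v‖ ^ 2 ≤ √(∑ j, v j ^ 2) ^ 2 := by gcongr
    _ = _ := Real.sq_sqrt hs

variable {ρ : V n → ℝ} {Ω : Set (V n)} {p ν : V n}

/-- The exterior ball. -/
theorem ext_ball (hρ : ContDiff ℝ ∞ ρ) (hΩ : Ω = {x | 0 < ρ x}) (hb : Bornology.IsBounded Ω)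
    (hp : ρ p = 0) (hν : ∑ i, ν i ^ 2 = 1) (hc : ∃ c > 0, ∀ i, pd i ρ p = c * ν i) :
    ∃ r : ℝ, 0 < r ∧ ∀ x ∈ closure Ω,
      r ^ 2 + (∑ j, (x j - p j) ^ 2) / 2 ≤ S (fun j => p j - r * ν j) x := by
  obtain ⟨c, hc0, hc⟩ := hc
  obtain ⟨R, hR⟩ := (Metric.isBounded_iff_subset_closedBall p).mp hb.closure
  obtain ⟨L, hL0, hL⟩ := taylor hρ p R
  refine ⟨1 / (4 * (L / c + 1)), by positivity, fun x hx => ?_⟩
  set r : ℝ := 1 / (4 * (L / c + 1)) with hr
  have hr0 : 0 < r := by positivity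
  have hrL : r * (L / c) ≤ 1 / 4 := by
    rw [hr, div_mul_eq_mul_div, one_mul, div_le_iff₀ (by positivity)]
    linarith [show 0 ≤ L / c by positivity]
  have hx0 : 0 ≤ ρ x := by
    have : closure Ω ⊆ {x | 0 ≤ ρ x} := by
      rw [hΩ]
      exact closure_minimal (fun y (hy : 0 < ρ y) => (hy.le : 0 ≤ ρ y))
        (isClosed_le continuous_const hρ.continuous)
    exact this hx
  have h1 := hL x (hR hx)
  rw [hp, fderiv_sum, zero_add] at h1
  have h2 : ∑ i, (x - p) i * pd i ρ p = c * ∑ i, ν i * (x i - p i) := by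
    rw [Finset.mul_sum]
    refine Finset.sum_congr rfl fun i _ => ?_
    rw [hc i, Pi.sub_apply]
    ring
  rw [h2] at h1
  have h3 : ‖x - p‖ ^ 2 ≤ ∑ j, (x j - p j) ^ 2 := norm_sq_le_sum (x - p)
  set Q : ℝ := ∑ j, (x j - p j) ^ 2 with hQ
  set T : ℝ := ∑ i, ν i * (x i - p i) with hT
  have hQ0 : 0 ≤ Q := Finset.sum_nonneg fun _ _ => sq_nonneg _
  have h4 : -(L / c * Q) ≤ T := by
    have h5 : 0 ≤ c * T + L * Q := by nlinarith
    have h6 : -(L / c * Q) = -(L * Q) / c := by ring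
    rw [h6, div_le_iff₀ hc0]
    linarith
  have h7 : S (fun j => p j - r * ν j) x = Q + 2 * r * T + r ^ 2 := by
    unfold S
    have : ∀ j, (x j - (p j - r * ν j)) ^ 2 = (x j - p j) ^ 2 + 2 * r * (ν j * (x j - p j)) +
        r ^ 2 * ν j ^ 2 := fun j => by ring
    simp only [this, Finset.sum_add_distrib, ← Finset.mul_sum, hν]
    ring
  rw [h7]
  nlinarith

/-- `p` is in the closure. -/
theorem mem_cl (hρ : ContDiff ℝ ∞ ρ) (hΩ : Ω = {x | 0 < ρ x}) (hp : ρ p = 0)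
    (hν : ∑ i, ν i ^ 2 = 1) (hc : ∃ c > 0, ∀ i, pd i ρ p = c * ν i) : p ∈ closure Ω := by
  obtain ⟨c, hc0, hc⟩ := hc
  by_contra h
  have h1 : ∀ᶠ x in 𝓝 p, x ∉ Ω := by
    have : (closure Ω)ᶜ ∈ 𝓝 p := isClosed_closure.isOpen_compl.mem_nhds h
    filter_upwards [this] with x hx hx'
    exact hx (subset_closure hx')
  have h2 : IsLocalMax ρ p := by
    filter_upwards [h1] with x hx
    rw [hΩ] at hx
    simp only [mem_setOf_eq, not_lt] at hx
    rw [hp]
    exact hx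
  have h3 := h2.fderiv_eq_zero
  have h4 : ∀ i, ν i = 0 := fun i => by
    have h5 := hc i
    unfold pd at h5
    rw [h3] at h5
    simp only [ContinuousLinearMap.zero_apply] at h5
    rcases mul_eq_zero.mp h5.symm with h6 | h6
    · exact absurd h6 hc0.ne'
    · exact h6
  simp [h4] at hν

/-- The weight `exp (2 Re (ζ·y))`. -/
def cw (q : V n) (ζ : Fin n → ℂ) (x : V n) : ℝ := Real.exp (2 * (Lz q ζ x / (S q x : ℂ)).re)

theorem Ex_conj (q : V n) (ζ : Fin n → ℂ) (M : ℕ) (x : V n) :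
    Ex q ζ M x * (starRingEnd ℂ) (Ex q ζ M x) = ((cw q ζ x ^ M : ℝ) : ℂ) := by
  rw [Complex.mul_conj, Complex.normSq_eq_norm_sq]
  unfold Ex cw
  rw [Complex.norm_exp, ← Real.exp_nat_mul, ← Real.exp_nat_mul]
  congr 2
  simp only [Complex.mul_re, Complex.ofReal_re, Complex.ofReal_im, zero_mul, sub_zero]
  push_cast
  ring

/-- The cut-off. -/
def chi (q : V n) (r : ℝ) (x : V n) : ℝ := Real.smoothTransition ((4 * S q x - r ^ 2) / r ^ 2)

/-- The cut-off harmonic functions. -/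
def UU (q : V n) (ζ : Fin n → ℂ) (r : ℝ) (M : ℝ) (x : V n) : ℂ :=
  (chi q r x : ℂ) * Ut q ζ M x

theorem chi_contDiff (q : V n) (r : ℝ) : ContDiff ℝ ∞ (chi q r) := by
  unfold chi
  have h : ContDiff ℝ ∞ (fun x => (4 * S q x - r ^ 2) / r ^ 2) :=
    ((contDiff_const.mul (S_contDiff q)).sub contDiff_const).div_const _
  exact Real.smoothTransition.contDiff.comp h

theorem UU_contDiff (q : V n) (ζ : Fin n → ℂ) {r : ℝ} (hr : 0 < r) (M : ℝ) :
    ContDiff ℝ ∞ (UU q ζ r M) := by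
  rw [contDiff_iff_contDiffAt]
  intro x
  rcases lt_or_ge 0 (S q x) with h | h
  · unfold UU
    exact (Complex.ofRealCLM.contDiff.comp (chi_contDiff q r)).contDiffAt.mul
      (U_contDiffAt q ζ M h)
  · have h1 : ∀ᶠ y in 𝓝 x, S q y < r ^ 2 / 4 :=
      (S_contDiff q).continuous.continuousAt.eventually (gt_mem_nhds (lt_of_le_of_lt h
        (by positivity)))
    have h2 : UU q ζ r M =ᶠ[𝓝 x] fun _ => 0 := by
      filter_upwards [h1] with y hy
      unfold UU chi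
      rw [Real.smoothTransition.zero_of_nonpos]
      · simp
      · apply div_nonpos_of_nonpos_of_nonneg _ (by positivity)
        linarith
    exact contDiffAt_const.congr_of_eventuallyEq h2

theorem UU_ev (q : V n) (ζ : Fin n → ℂ) {r : ℝ} (hr : 0 < r) (M : ℝ) {x : V n}
    (hx : r ^ 2 ≤ S q x) : UU q ζ r M =ᶠ[𝓝 x] Ut q ζ M := by
  have h1 : ∀ᶠ y in 𝓝 x, r ^ 2 / 2 < S q y :=
    (S_contDiff q).continuous.continuousAt.eventually (lt_mem_nhds (lt_of_lt_of_le
      (by linarith [show 0 < r ^ 2 by positivity]) hx))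
  filter_upwards [h1] with y hy
  unfold UU chi
  rw [Real.smoothTransition.one_of_one_le]
  · simp
  · rw [le_div_iff₀ (by positivity)]
    linarith

theorem UU_pd (q : V n) (ζ : Fin n → ℂ) {r : ℝ} (hr : 0 < r) (M : ℝ) {x : V n}
    (hx : r ^ 2 ≤ S q x) (a : Fin n) :
    pd a (UU q ζ r M) x = Ex q ζ M x * (M * Aa q ζ a x + Ba q a x) := by
  have hS : 0 < S q x := lt_of_lt_of_le (by positivity) hx
  rw [← pd_U q ζ M hS a]
  unfold pd
  rw [(UU_ev q ζ hr M hx).fderiv_eq]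

theorem UU_dv (q : V n) (ζ : Fin n → ℂ) (hζ : ∑ j, ζ j ^ 2 = 0) {r : ℝ} (hr : 0 < r) (M : ℝ)
    {x : V n} (hx : r ^ 2 ≤ S q x) : dv (fun _ => 1) (UU q ζ r M) x = 0 := by
  have hS : 0 < S q x := lt_of_lt_of_le (by positivity) hx
  rw [← harm q ζ M hζ hS]
  unfold dv pd
  refine Finset.sum_congr rfl fun i _ => ?_
  have h1 : (fun y => ∑ j, (((1 : Matrix (Fin n) (Fin n) ℝ) i j : ℝ) : ℂ) *
      (fderiv ℝ (UU q ζ r M) y) (Pi.single j 1)) =ᶠ[𝓝 x]
      (fun y => ∑ j, (((1 : Matrix (Fin n) (Fin n) ℝ) i j : ℝ) : ℂ) *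
      (fderiv ℝ (Ut q ζ M) y) (Pi.single j 1)) := by
    filter_upwards [(UU_ev q ζ hr M hx).fderiv (𝕜 := ℝ)] with y hy
    rw [hy]
  rw [h1.fderiv_eq]

/-- **Concentration (inward normal `ν`).** -/
theorem concIn (hρ : ContDiff ℝ ∞ ρ) (hΩ : Ω = {x | 0 < ρ x}) (hb : Bornology.IsBounded Ω)
    (hp : ρ p = 0) {τ : V n} (hν : ∑ i, ν i ^ 2 = 1) (hτ : ∑ i, τ i ^ 2 = 1)
    (hντ : ∑ i, ν i * τ i = 0) (hc : ∃ c > 0, ∀ i, pd i ρ p = c * ν i) :
    ∃ U : ℕ → V n → ℂ, (∀ N, ContDiff ℝ ∞ (U N)) ∧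
      (∀ N, ∀ x ∈ Ω, dv (fun _ => 1) (U N) x = 0) ∧
      (∃ (c : V n → ℝ) (A B : Fin n → V n → ℂ), ContinuousOn c (closure Ω) ∧
        (∀ x, 0 < c x) ∧ (∀ y ∈ closure Ω, y ≠ p → c y < c p) ∧
        (∀ a, ContinuousOn (A a) (closure Ω)) ∧ (∀ a, ContinuousOn (B a) (closure Ω)) ∧
        (∃ κ : ℝ, 0 < κ ∧ ∀ a, A a p = -(κ * ((ν a : ℂ) + Complex.I * τ a))) ∧
        ∀ (N : ℕ) (a b : Fin n), ∀ x ∈ closure Ω,
          pd a (U N) x * (starRingEnd ℂ) (pd b (U N) x) = ((c x ^ (N + 1) : ℝ) : ℂ) *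
            ((((N + 1 : ℕ) : ℝ) * A a x + B a x) *
              (starRingEnd ℂ) (((N + 1 : ℕ) : ℝ) * A b x + B b x))) := by
  obtain ⟨r, hr, hball⟩ := ext_ball hρ hΩ hb hp hν hc
  have hcl := mem_cl hρ hΩ hp hν hc
  set q : V n := fun j => p j - r * ν j with hq
  set ζ : Fin n → ℂ := fun j => (ν j : ℂ) - Complex.I * τ j with hζd
  have hζ : ∑ j, ζ j ^ 2 = 0 := by
    have e : ∀ j, ζ j ^ 2 = ((ν j ^ 2 - τ j ^ 2 : ℝ) : ℂ) +
        ((-2 * (ν j * τ j) : ℝ) : ℂ) * Complex.I := by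
      intro j
      simp only [hζd]
      push_cast
      linear_combination ((τ j : ℝ) : ℂ) ^ 2 * Complex.I_sq
    simp only [e, Finset.sum_add_distrib, ← Finset.sum_mul, ← Complex.ofReal_sum,
      Finset.sum_sub_distrib, ← Finset.mul_sum, hν, hτ, hντ]
    simp
  have hS : ∀ x ∈ closure Ω, r ^ 2 ≤ S q x := fun x hx => by
    have h1 := hball x hx
    have h2 : 0 ≤ ∑ j, (x j - p j) ^ 2 := Finset.sum_nonneg fun _ _ => sq_nonneg _
    linarith
  have hS0 : ∀ x ∈ closure Ω, 0 < S q x := fun x hx => lt_of_lt_of_le (by positivity) (hS x hx)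
  have hre : ∀ x, (Lz q ζ x / (S q x : ℂ)).re = (∑ j, ν j * (x j - q j)) / S q x := by
    intro x
    rw [Complex.div_ofReal_re]
    congr 1
    unfold Lz
    rw [Complex.re_sum]
    refine Finset.sum_congr rfl fun j _ => ?_
    rw [Complex.re_mul_ofReal]
    simp [hζd]
  have hSp : S q p = r ^ 2 := by
    unfold S
    have : ∀ j, (p j - q j) ^ 2 = r ^ 2 * ν j ^ 2 := fun j => by simp only [hq]; ring
    simp only [this, ← Finset.mul_sum, hν, mul_one]
  have hTp : ∑ j, ν j * (p j - q j) = r := by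
    have : ∀ j, ν j * (p j - q j) = r * ν j ^ 2 := fun j => by simp only [hq]; ring
    simp only [this, ← Finset.mul_sum, hν, mul_one]
  have hLp : Lz q ζ p = r := by
    unfold Lz
    have : ∀ j, ζ j * ((p j - q j : ℝ) : ℂ) = ((r * ν j ^ 2 : ℝ) : ℂ) -
        Complex.I * ((r * (ν j * τ j) : ℝ) : ℂ) := fun j => by
      simp only [hζd, hq]
      push_cast
      ring
    simp only [this, Finset.sum_sub_distrib, ← Finset.mul_sum, ← Complex.ofReal_sum, hν, hντ]
    simp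
  refine ⟨fun N => UU q ζ r ((N + 1 : ℕ) : ℝ), fun N => UU_contDiff q ζ hr _,
    fun N x hx => UU_dv q ζ hζ hr _ (hS x (subset_closure hx)), cw q ζ, Aa q ζ, Ba q, ?_, ?_, ?_,
    ?_, ?_, ?_, ?_⟩
  · intro x hx
    unfold cw
    refine ContinuousAt.continuousWithinAt ?_
    exact (continuousAt_const.mul (Complex.continuous_re.continuousAt.comp
      (G_contDiffAt q ζ (hS0 x hx)).continuousAt)).rexp
  · intro x
    exact Real.exp_pos _
  · intro x hx hne
    unfold cw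
    apply Real.exp_lt_exp.mpr
    rw [hre, hre, hSp, hTp]
    have hSx : r ^ 2 < S q x := by
      have h1 := hball x hx
      have h2 : 0 < ∑ j, (x j - p j) ^ 2 := by
        obtain ⟨j, hj⟩ := Function.ne_iff.mp hne
        refine Finset.sum_pos' (fun _ _ => sq_nonneg _) ⟨j, Finset.mem_univ j, ?_⟩
        have : x j - p j ≠ 0 := sub_ne_zero.mpr hj
        positivity
      linarith
    have hT : (∑ j, ν j * (x j - q j)) ^ 2 ≤ S q x := by
      have := Finset.sum_mul_sq_le_sq_mul_sq Finset.univ ν (fun j => x j - q j)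
      rw [hν, one_mul] at this
      exact this
    have hlt : r * (∑ j, ν j * (x j - q j)) < S q x := by
      refine lt_of_pow_lt_pow_left₀ 2 (hS0 x hx).le ?_
      have h3 : (r * ∑ j, ν j * (x j - q j)) ^ 2 ≤ r ^ 2 * S q x := by
        rw [mul_pow]
        exact mul_le_mul_of_nonneg_left hT (by positivity)
      have h4 : r ^ 2 * S q x < S q x ^ 2 := by
        rw [pow_two (S q x)]
        exact mul_lt_mul_of_pos_right hSx (hS0 x hx)
      linarith
    have h5 : (∑ j, ν j * (x j - q j)) / S q x < r / r ^ 2 := by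
      rw [div_lt_div_iff₀ (hS0 x hx) (by positivity)]
      nlinarith
    linarith
  · intro a x hx
    exact (A_contDiffAt q ζ (hS0 x hx) a).continuousAt.continuousWithinAt
  · intro a x hx
    exact (B_contDiffAt q (hS0 x hx) a).continuousAt.continuousWithinAt
  · refine ⟨(r ^ 2) ^ al n / r ^ 2, by positivity, fun a => ?_⟩
    unfold Aa
    rw [hSp, hLp]
    have hrc : (r : ℂ) ≠ 0 := by exact_mod_cast hr.ne'
    have hX : ((p a - q a : ℝ) : ℂ) = r * ν a := by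
      simp only [hq]
      push_cast
      ring
    rw [hX]
    simp only [hζd]
    push_cast
    field_simp
    ring
  · intro N a b x hx
    rw [UU_pd q ζ hr _ (hS x hx) a, UU_pd q ζ hr _ (hS x hx) b, map_mul]
    rw [← Ex_conj q ζ (N + 1) x]
    push_cast
    ring

end Vale.Agent.P088.H639
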