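import Vale.Agent.P088.H639.Conc

/-!
# P088, stage 2, row CONC: the limits
-/

open MeasureTheory Set Filter Topology
open scoped ContDiff

noncomputable section

namespace Vale.Agent.P088.H639

open Vale.Agent.P088.LR Kv

variable {n : ℕ} {ρ : V n → ℝ} {Ω : Set (V n)} {p ν τ : V n}

/-- **Concentration at a boundary point, limits (inward unit normal `ν`).** -/
theorem conc_in (hρ : ContDiff ℝ ∞ ρ) (hΩ : Ω = {x | 0 < ρ x}) (hb : Bornology.IsBounded Ω)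
    (hp : ρ p = 0) (hν : ∑ i, ν i ^ 2 = 1) (hτ : ∑ i, τ i ^ 2 = 1)
    (hντ : ∑ i, ν i * τ i = 0) (hc : ∃ c > 0, ∀ i, pd i ρ p = c * ν i) :
    ∃ U : ℕ → V n → ℂ, (∀ N, ContDiff ℝ ∞ (U N)) ∧
      (∀ N, ∀ x ∈ Ω, dv (fun _ => 1) (U N) x = 0) ∧
      ∀ j : ℕ, ∃ Z : ℕ → ℝ, (∀ N, 0 < Z N) ∧ ∀ F : V n → ℂ, ContinuousOn F (closure Ω) →
        ∀ a b, Tendsto (fun N => ((Z N : ℝ) : ℂ)⁻¹ * ∫ x in Ω, ((ρ x ^ j : ℝ) : ℂ) * F x *
          pd a (U N) x * (starRingEnd ℂ) (pd b (U N) x)) atTop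
          (𝓝 (F p * ((ν a : ℂ) + Complex.I * τ a) *
            (starRingEnd ℂ) ((ν b : ℂ) + Complex.I * τ b))) := by
  obtain ⟨U, h1, h2, c, A, B, hcc, hc0, hcm, hA, hB, ⟨κ, hκ, hAp⟩, hU⟩ :=
    concIn hρ hΩ hb hp hν hτ hντ hc
  have hcl := mem_cl hρ hΩ hp hν hc
  have hO : IsOpen Ω := by
    rw [hΩ]
    exact isOpen_lt continuous_const hρ.continuous
  have hK : IsCompact (closure Ω) := hb.isCompact_closure
  refine ⟨U, h1, h2, fun j => ?_⟩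
  have hm : Continuous fun x => ρ x ^ j := hρ.continuous.pow j
  have hmp : ∀ x ∈ Ω, 0 < ρ x ^ j := fun x hx => by
    rw [hΩ] at hx
    exact pow_pos hx j
  set D : ℕ → ℝ := fun N => ∫ x in Ω, c x ^ (N + 1) * ρ x ^ j with hD
  have hD0 : ∀ N, 0 < D N := fun N => peak_pos hO hb hcl hm hmp hcc (fun x _ => hc0 x) (N + 1)
  refine ⟨fun N => ((N + 1 : ℕ) : ℝ) ^ 2 * D N * κ ^ 2, fun N => by
    have := hD0 N
    positivity, fun F hF a b => ?_⟩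
  have hconj : ∀ {f : V n → ℂ}, ContinuousOn f (closure Ω) →
      ContinuousOn (fun x => (starRingEnd ℂ) (f x)) (closure Ω) := fun hf =>
    Complex.continuous_conj.comp_continuousOn hf
  set G2 : V n → ℂ := fun x => F x * A a x * (starRingEnd ℂ) (A b x) with hG2
  set G1 : V n → ℂ := fun x => F x * (A a x * (starRingEnd ℂ) (B b x) +
    B a x * (starRingEnd ℂ) (A b x)) with hG1
  set G0 : V n → ℂ := fun x => F x * B a x * (starRingEnd ℂ) (B b x) with hG0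
  have c2 : ContinuousOn G2 (closure Ω) := (hF.mul (hA a)).mul (hconj (hA b))
  have c1 : ContinuousOn G1 (closure Ω) :=
    hF.mul (((hA a).mul (hconj (hB b))).add ((hB a).mul (hconj (hA b))))
  have c0 : ContinuousOn G0 (closure Ω) := (hF.mul (hB a)).mul (hconj (hB b))
  have P : ∀ {G : V n → ℂ}, ContinuousOn G (closure Ω) → Tendsto (fun N : ℕ =>
      ((D N : ℝ) : ℂ)⁻¹ * ∫ x in Ω, ((c x ^ (N + 1) * ρ x ^ j : ℝ) : ℂ) * G x) atTop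
      (𝓝 (G p)) := fun {G} hG =>
    (peak hO hb hcl hm hmp hcc hcm (fun x _ => hc0 x) hG).comp (tendsto_add_atTop_nat 1)
  have hint : ∀ {G : V n → ℂ}, ContinuousOn G (closure Ω) → ∀ N : ℕ,
      IntegrableOn (fun x => ((c x ^ (N + 1) * ρ x ^ j : ℝ) : ℂ) * G x) Ω := fun {G} hG N => by
    have h3 : ContinuousOn (fun x => ((c x ^ (N + 1) * ρ x ^ j : ℝ) : ℂ) * G x) (closure Ω) :=
      (Complex.continuous_ofReal.comp_continuousOn ((hcc.pow _).mul hm.continuousOn)).mul hG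
    exact (h3.integrableOn_compact hK).mono_set subset_closure
  have hN : Tendsto (fun N : ℕ => (((N + 1 : ℕ) : ℝ) : ℂ)⁻¹) atTop (𝓝 0) := by
    have h4 : Tendsto (fun N : ℕ => ((((N : ℝ) + 1)⁻¹ : ℝ) : ℂ)) atTop (𝓝 ((0 : ℝ) : ℂ)) := by
      refine (Complex.continuous_ofReal.tendsto 0).comp ?_
      have := tendsto_one_div_add_atTop_nhds_zero_nat (𝕜 := ℝ)
      simpa only [one_div] using this
    simpa using h4
  have hlim := ((((P c2).add (hN.mul (P c1))).add ((hN.pow 2).mul (P c0))).const_mul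
    (((κ : ℝ) : ℂ) ^ 2)⁻¹)
  have hval : (((κ : ℝ) : ℂ) ^ 2)⁻¹ * (G2 p + 0 * G1 p + 0 ^ 2 * G0 p) =
      F p * ((ν a : ℂ) + Complex.I * τ a) * (starRingEnd ℂ) ((ν b : ℂ) + Complex.I * τ b) := by
    have hk : ((κ : ℝ) : ℂ) ≠ 0 := by exact_mod_cast hκ.ne'
    simp only [hG2, hAp, map_neg, map_mul, Complex.conj_ofReal]
    field_simp
    ring
  rw [hval] at hlim
  refine hlim.congr fun N => ?_
  have hMn : (((N + 1 : ℕ) : ℝ) : ℂ) ≠ 0 := by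
    exact_mod_cast (Nat.succ_ne_zero N)
  have hDn : ((D N : ℝ) : ℂ) ≠ 0 := by exact_mod_cast (hD0 N).ne'
  have hk : ((κ : ℝ) : ℂ) ≠ 0 := by exact_mod_cast hκ.ne'
  have hI : ∫ x in Ω, ((ρ x ^ j : ℝ) : ℂ) * F x * pd a (U N) x *
      (starRingEnd ℂ) (pd b (U N) x) =
      (((N + 1 : ℕ) : ℝ) : ℂ) ^ 2 * (∫ x in Ω, ((c x ^ (N + 1) * ρ x ^ j : ℝ) : ℂ) * G2 x) +
      (((N + 1 : ℕ) : ℝ) : ℂ) * (∫ x in Ω, ((c x ^ (N + 1) * ρ x ^ j : ℝ) : ℂ) * G1 x) +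
      ∫ x in Ω, ((c x ^ (N + 1) * ρ x ^ j : ℝ) : ℂ) * G0 x := by
    have i12 : Integrable (fun x => (((N + 1 : ℕ) : ℝ) : ℂ) ^ 2 *
        (((c x ^ (N + 1) * ρ x ^ j : ℝ) : ℂ) * G2 x) + (((N + 1 : ℕ) : ℝ) : ℂ) *
        (((c x ^ (N + 1) * ρ x ^ j : ℝ) : ℂ) * G1 x)) (volume.restrict Ω) :=
      ((hint c2 N).const_mul _).add ((hint c1 N).const_mul _)
    rw [← integral_const_mul, ← integral_const_mul,
      ← integral_add ((hint c2 N).const_mul _) ((hint c1 N).const_mul _),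
      ← integral_add i12 (hint c0 N)]
    refine setIntegral_congr_fun hO.measurableSet fun x hx => ?_
    have h5 := hU N a b x (subset_closure hx)
    show ((ρ x ^ j : ℝ) : ℂ) * F x * pd a (U N) x * (starRingEnd ℂ) (pd b (U N) x) = _
    rw [mul_assoc, h5]
    simp only [hG2, hG1, hG0, map_add, map_mul, Complex.conj_ofReal]
    push_cast
    ring
  rw [hI]
  have hZ : ((((N + 1 : ℕ) : ℝ) ^ 2 * D N * κ ^ 2 : ℝ) : ℂ) =
      (((N + 1 : ℕ) : ℝ) : ℂ) ^ 2 * ((D N : ℝ) : ℂ) * ((κ : ℝ) : ℂ) ^ 2 := by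
    push_cast
    ring
  rw [hZ]
  field_simp

/-- **Concentration at a boundary point (outward unit normal `ν`).** -/
theorem conc (hρ : ContDiff ℝ ∞ ρ) (hΩ : Ω = {x | 0 < ρ x}) (hb : Bornology.IsBounded Ω)
    (hp : ρ p = 0) (hn : ∑ j, pd j ρ p ^ 2 ≠ 0) (hc : ∃ c > 0, ∀ j, ν j = -c * pd j ρ p)
    (hν : ∑ i, ν i ^ 2 = 1) (hτ : ∑ i, τ i ^ 2 = 1) (hντ : ∑ i, ν i * τ i = 0) :
    ∃ U : ℕ → V n → ℂ, (∀ N, ContDiff ℝ ∞ (U N)) ∧
      (∀ N, ∀ x ∈ Ω, dv (fun _ => 1) (U N) x = 0) ∧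
      ∀ j : ℕ, ∃ Z : ℕ → ℝ, (∀ N, 0 < Z N) ∧ ∀ F : V n → ℂ, ContinuousOn F (closure Ω) →
        ∀ a b, Tendsto (fun N => ((Z N : ℝ) : ℂ)⁻¹ * ∫ x in Ω, ((ρ x ^ j : ℝ) : ℂ) * F x *
          pd a (U N) x * (starRingEnd ℂ) (pd b (U N) x)) atTop
          (𝓝 (F p * ((ν a : ℂ) + Complex.I * τ a) *
            (starRingEnd ℂ) ((ν b : ℂ) + Complex.I * τ b))) := by
  obtain ⟨c, hc0, hc⟩ := hc
  obtain ⟨U, h1, h2, h3⟩ := conc_in (ν := -ν) (τ := -τ) hρ hΩ hb hp (by simpa using hν)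
    (by simpa using hτ) (by simpa using hντ) ⟨1 / c, by positivity, fun i => by
      rw [Pi.neg_apply, hc i]; field_simp⟩
  refine ⟨U, h1, h2, fun j => ?_⟩
  obtain ⟨Z, hZ, h4⟩ := h3 j
  refine ⟨Z, hZ, fun F hF a b => ?_⟩
  have h5 := h4 F hF a b
  have e : F p * (((-ν) a : ℝ) + Complex.I * ((-τ) a : ℝ)) *
      (starRingEnd ℂ) ((((-ν) b : ℝ) : ℂ) + Complex.I * ((-τ) b : ℝ)) =
      F p * ((ν a : ℂ) + Complex.I * τ a) * (starRingEnd ℂ) ((ν b : ℂ) + Complex.I * τ b) := by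
    simp only [Pi.neg_apply, Complex.ofReal_neg, map_add, map_neg, map_mul, Complex.conj_ofReal]
    ring
  rw [e] at h5
  exact h5

end Vale.Agent.P088.H639
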