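import Vale.Agent.P088.H639.Kel2
import Vale.Agent.P088.H442.Defs3

/-!
# P088, stage 2 with a conformally flat base: exponentials and conjugation by `√σ`
-/

open MeasureTheory Set Filter Topology
open scoped ContDiff

noncomputable section

namespace Vale.Agent.P088.H639.Kv

open Vale.Agent.P088.LR

variable {n : ℕ}

/-- `e^{M ζ·y}`. -/
def ex (ζ : Fin n → ℂ) (M : ℝ) (y : V n) : ℂ := Complex.exp (M * ∑ j, ζ j * (y j : ℂ))

theorem lin_contDiff (ζ : Fin n → ℂ) : ContDiff ℝ ∞ (fun y : V n => ∑ j, ζ j * (y j : ℂ)) := by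
  refine ContDiff.sum fun j _ => contDiff_const.mul ?_
  have h : ContDiff ℝ ∞ (fun x : V n => x j) := by fun_prop
  exact Complex.ofRealCLM.contDiff.comp h

theorem ex_contDiff (ζ : Fin n → ℂ) (M : ℝ) : ContDiff ℝ ∞ (ex ζ M) := by
  unfold ex
  exact (contDiff_const.mul (lin_contDiff ζ)).cexp

theorem line_ex (ζ : Fin n → ℂ) (M : ℝ) (y : V n) (a : Fin n) :
    HasDerivAt (fun t : ℝ => ex ζ M (y + t • (Pi.single a (1 : ℝ) : V n)))
      (ex ζ M y * (M * ζ a)) 0 := by
  have h0 : y + (0 : ℝ) • (Pi.single a (1 : ℝ) : V n) = y := by simp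
  have h : HasDerivAt (fun t : ℝ => ∑ j, ζ j *
      (((y + t • (Pi.single a (1 : ℝ) : V n)) j : ℝ) : ℂ))
      (∑ j, ζ j * (((if j = a then 1 else 0 : ℝ)) : ℂ)) 0 := by
    refine HasDerivAt.fun_sum fun j _ => ?_
    have h1 := line_X 0 y a j
    simp only [Pi.zero_apply, sub_zero] at h1
    exact (h1.ofReal_comp).const_mul (ζ j)
  have h2 := (h.const_mul (M : ℂ)).cexp
  rw [h0] at h2
  refine HasDerivAt.congr_deriv h2 ?_
  simp only [apply_ite Complex.ofReal, Complex.ofReal_one, Complex.ofReal_zero, mul_ite, mul_one,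
    mul_zero, Finset.sum_ite_eq', Finset.mem_univ, if_true]
  rfl

/-- Derivative along a line of a differentiable function. -/
theorem line_of {g : V n → ℂ} {y : V n} (hg : DifferentiableAt ℝ g y) (a : Fin n) :
    HasDerivAt (fun t : ℝ => g (y + t • (Pi.single a (1 : ℝ) : V n))) (pd a g y) 0 := by
  have h0 : y + (0 : ℝ) • (Pi.single a (1 : ℝ) : V n) = y := by simp
  have h1 : HasDerivAt (fun t : ℝ => y + t • (Pi.single a (1 : ℝ) : V n)) (Pi.single a 1) 0 := by
    have := ((hasDerivAt_id (0 : ℝ)).smul_const (Pi.single a (1 : ℝ) : V n)).const_add y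
    simpa using this
  have h2 : HasFDerivAt g (fderiv ℝ g y) (y + (0 : ℝ) • (Pi.single a (1 : ℝ) : V n)) := by
    rw [h0]; exact hg.hasFDerivAt
  exact h2.comp_hasDerivAt (0 : ℝ) h1

theorem pd_ex (ζ : Fin n → ℂ) (M : ℝ) {g : V n → ℂ} (hg : ContDiff ℝ ∞ g) (a : Fin n) (y : V n) :
    pd a (fun y => ex ζ M y * g y) y = ex ζ M y * (M * ζ a * g y + pd a g y) := by
  have h0 : y + (0 : ℝ) • (Pi.single a (1 : ℝ) : V n) = y := by simp
  have hd : DifferentiableAt ℝ g y := (hg.differentiable (by simp)) y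
  have h := (line_ex ζ M y a).fun_mul (line_of hd a)
  simp only [h0] at h
  rw [pd_line ((((ex_contDiff ζ M).mul hg).differentiable (by simp)) y) h]
  ring

theorem pd_lin {g : V n → ℂ} (hg : ContDiff ℝ ∞ g) (c : ℂ) (a : Fin n) (y : V n) :
    pd a (fun y => c * g y + pd a g y) y = c * pd a g y + pd a (pd a g) y := by
  have h0 : y + (0 : ℝ) • (Pi.single a (1 : ℝ) : V n) = y := by simp
  have hd : DifferentiableAt ℝ g y := (hg.differentiable (by simp)) y
  have hd' : DifferentiableAt ℝ (pd a g) y := ((pd_smooth hg a).differentiable (by simp)) y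
  have h := ((line_of hd a).const_mul c).fun_add (line_of hd' a)
  exact pd_line (((contDiff_const.mul hg).add (pd_smooth hg a)).differentiable (by simp) y) h

/-- The Laplacian of `e^{Mζ·y} g`. -/
theorem dv_ex (ζ : Fin n → ℂ) (hζ : ∑ j, ζ j ^ 2 = 0) (M : ℝ) {g : V n → ℂ}
    (hg : ContDiff ℝ ∞ g) (y : V n) :
    dv (fun _ => 1) (fun y => ex ζ M y * g y) y =
      ex ζ M y * (2 * M * ∑ a, ζ a * pd a g y + dv (fun _ => 1) g y) := by
  rw [dv_one, dv_one]
  have e : ∀ a, pd a (pd a (fun y => ex ζ M y * g y)) y =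
      ex ζ M y * (M ^ 2 * g y) * ζ a ^ 2 + ex ζ M y * (2 * M) * (ζ a * pd a g y) +
        ex ζ M y * pd a (pd a g) y := by
    intro a
    have h1 : pd a (fun y => ex ζ M y * g y) =
        fun y => ex ζ M y * (M * ζ a * g y + pd a g y) := funext fun y => pd_ex ζ M hg a y
    rw [h1, pd_ex ζ M ((contDiff_const.mul hg).add (pd_smooth hg a)) a y, pd_lin hg]
    ring
  simp only [e, Finset.sum_add_distrib, ← Finset.mul_sum, hζ]
  ring

/-- Conjugation by `φ`. -/
theorem dv_conj {φ : V n → ℂ} (hφ : ContDiff ℝ ∞ φ) (h0 : ∀ x, φ x ≠ 0) {σ : V n → ℝ}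
    (hσ : ∀ x, ((σ x : ℝ) : ℂ) = φ x ^ 2) {v : V n → ℂ} (hv : ContDiff ℝ ∞ v) (x : V n) :
    dv (CF.sc σ) (fun y => (φ y)⁻¹ * v y) x =
      φ x * dv (fun _ => 1) v x - v x * dv (fun _ => 1) φ x := by
  rw [dv_one, dv_one]
  have dφ : ∀ y, DifferentiableAt ℝ φ y := fun y => (hφ.differentiable (by simp)) y
  have dv' : ∀ y, DifferentiableAt ℝ v y := fun y => (hv.differentiable (by simp)) y
  have hinv : ContDiff ℝ ∞ fun y => (φ y)⁻¹ := hφ.inv h0
  have z0 : ∀ (y : V n) (a : Fin n), y + (0 : ℝ) • (Pi.single a (1 : ℝ) : V n) = y := by simp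
  have e1 : ∀ (j : Fin n) y, pd j (fun y => (φ y)⁻¹ * v y) y =
      (φ y)⁻¹ * pd j v y - pd j φ y * v y / φ y ^ 2 := by
    intro j y
    have h := ((line_of (dφ y) j).fun_inv (by rw [z0]; exact h0 y)).fun_mul (line_of (dv' y) j)
    simp only [z0] at h
    rw [pd_line (((hinv.mul hv).differentiable (by simp)) y) h]
    ring
  have e2 : ∀ i, (fun y => ∑ j, ((CF.sc σ y i j : ℝ) : ℂ) * pd j (fun y => (φ y)⁻¹ * v y) y) =
      fun y => φ y * pd i v y - pd i φ y * v y := by
    intro i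
    funext y
    have h1 : ∀ j, ((CF.sc σ y i j : ℝ) : ℂ) = if i = j then φ y ^ 2 else 0 := fun j => by
      unfold CF.sc
      rw [Matrix.smul_apply, Matrix.one_apply]
      split_ifs
      · rw [← hσ y]; simp
      · simp
    simp only [h1, ite_mul, zero_mul, Finset.sum_ite_eq, Finset.mem_univ, if_true]
    rw [e1]
    have := h0 y
    field_simp
  unfold dv
  rw [Finset.mul_sum, Finset.mul_sum, ← Finset.sum_sub_distrib]
  refine Finset.sum_congr rfl fun i _ => ?_
  rw [e2 i]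
  have dpφ : DifferentiableAt ℝ (pd i φ) x := ((pd_smooth hφ i).differentiable (by simp)) x
  have dpv : DifferentiableAt ℝ (pd i v) x := ((pd_smooth hv i).differentiable (by simp)) x
  have h := ((line_of (dφ x) i).fun_mul (line_of dpv i)).fun_sub
    ((line_of dpφ i).fun_mul (line_of (dv' x) i))
  simp only [z0] at h
  rw [pd_line (((hφ.mul (pd_smooth hv i)).sub ((pd_smooth hφ i).mul hv)).differentiable
    (by simp) x) h]
  ring

end Vale.Agent.P088.H639.Kv
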