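import Vale.Agent.P088.H639.ConX

/-!
# P088, theorem JB, row K_CON (1): amplitudes
-/

open MeasureTheory Set Filter Topology
open scoped ContDiff

noncomputable section

namespace Vale.Agent.P088.H639.Kv

open Vale.Agent.P088.LR

variable {n : ℕ} {K : Set (V n)} {p : V n}

/-- The family `E` tends to `e₀` at `p`, up to a fixed continuous function which vanishes
at `p`. -/
def Am (K : Set (V n)) (p : V n) (E : ℕ → V n → ℂ) (e₀ : ℂ) : Prop :=
  (∀ N, ContinuousOn (E N) K) ∧ ∃ wm : V n → ℝ, ContinuousOn wm K ∧ wm p = 0 ∧ (∀ x, 0 ≤ wm x) ∧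
    ∀ ε > 0, ∀ᶠ N : ℕ in atTop, ∀ x ∈ K, ‖E N x - e₀‖ ≤ wm x + ε

variable {E F : ℕ → V n → ℂ} {e₀ f₀ : ℂ}

theorem Am.ubd (hK : IsCompact K) (h : Am K p E e₀) : UBd K E := by
  obtain ⟨-, wm, hwm, -, h0, h1⟩ := h
  obtain ⟨C, hC⟩ := hK.exists_bound_of_continuousOn hwm
  refine ⟨max C 0 + 1 + ‖e₀‖, by positivity, ?_⟩
  filter_upwards [h1 1 one_pos] with N hN x hx
  have h2 : E N x = (E N x - e₀) + e₀ := by ring
  rw [h2]
  refine (norm_add_le _ _).trans (add_le_add_left ((hN x hx).trans (add_le_add_left ?_ _)) _)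
  exact (Real.le_norm_self _).trans ((hC x hx).trans (le_max_left _ _))

theorem Am.add (hE : Am K p E e₀) (hF : Am K p F f₀) :
    Am K p (fun N x => E N x + F N x) (e₀ + f₀) := by
  obtain ⟨c1, wm1, k1, z1, p1, b1⟩ := hE
  obtain ⟨c2, wm2, k2, z2, p2, b2⟩ := hF
  refine ⟨fun N => (c1 N).add (c2 N), fun x => wm1 x + wm2 x, k1.add k2, by simp [z1, z2],
    fun x => add_nonneg (p1 x) (p2 x), fun ε hε => ?_⟩
  filter_upwards [b1 (ε / 2) (by positivity), b2 (ε / 2) (by positivity)] with N h1 h2 x hx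
  have e : E N x + F N x - (e₀ + f₀) = (E N x - e₀) + (F N x - f₀) := by ring
  rw [e]
  refine (norm_add_le _ _).trans ?_
  have := h1 x hx
  have := h2 x hx
  linarith

theorem Am.mul (hK : IsCompact K) (hE : Am K p E e₀) (hF : Am K p F f₀) :
    Am K p (fun N x => E N x * F N x) (e₀ * f₀) := by
  obtain ⟨C, hC, hb⟩ := hF.ubd hK
  obtain ⟨c1, wm1, k1, z1, p1, b1⟩ := hE
  obtain ⟨c2, wm2, k2, z2, p2, b2⟩ := hF
  have hD : 0 < C + ‖e₀‖ + 1 := by positivity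
  refine ⟨fun N => (c1 N).mul (c2 N), fun x => C * wm1 x + ‖e₀‖ * wm2 x,
    (continuousOn_const.mul k1).add (continuousOn_const.mul k2), by simp [z1, z2],
    fun x => add_nonneg (mul_nonneg hC.le (p1 x)) (mul_nonneg (norm_nonneg _) (p2 x)),
    fun ε hε => ?_⟩
  filter_upwards [b1 (ε / (C + ‖e₀‖ + 1)) (by positivity),
    b2 (ε / (C + ‖e₀‖ + 1)) (by positivity), hb] with N h1 h2 h3 x hx
  have e : E N x * F N x - e₀ * f₀ = (E N x - e₀) * F N x + e₀ * (F N x - f₀) := by ring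
  rw [e]
  refine (norm_add_le _ _).trans ?_
  rw [norm_mul, norm_mul]
  have t1 : ‖E N x - e₀‖ * ‖F N x‖ ≤ (wm1 x + ε / (C + ‖e₀‖ + 1)) * C :=
    mul_le_mul (h1 x hx) (h3 x hx) (norm_nonneg _) (add_nonneg (p1 x) (by positivity))
  have t2 : ‖e₀‖ * ‖F N x - f₀‖ ≤ ‖e₀‖ * (wm2 x + ε / (C + ‖e₀‖ + 1)) :=
    mul_le_mul_of_nonneg_left (h2 x hx) (norm_nonneg _)
  have t3 : ε / (C + ‖e₀‖ + 1) * (C + ‖e₀‖) ≤ ε := by
    rw [div_mul_eq_mul_div, div_le_iff₀ hD]
    nlinarith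
  nlinarith

theorem Am.conj (hE : Am K p E e₀) :
    Am K p (fun N x => (starRingEnd ℂ) (E N x)) ((starRingEnd ℂ) e₀) := by
  obtain ⟨c1, wm1, k1, z1, p1, b1⟩ := hE
  refine ⟨fun N => Complex.continuous_conj.comp_continuousOn (c1 N), wm1, k1, z1, p1,
    fun ε hε => ?_⟩
  filter_upwards [b1 ε hε] with N h1 x hx
  rw [← map_sub, RCLike.norm_conj]
  exact h1 x hx

theorem Am.of_cont {f : V n → ℂ} (hf : ContinuousOn f K) : Am K p (fun _ => f) (f p) := by
  refine ⟨fun _ => hf, fun x => ‖f x - f p‖, (hf.sub continuousOn_const).norm, by simp,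
    fun x => norm_nonneg _, fun ε hε => Eventually.of_forall fun N x _ => ?_⟩
  linarith

theorem Am.of_sml (hc : ∀ N, ContinuousOn (E N) K) (h : Sml K E) : Am K p E 0 := by
  refine ⟨hc, fun _ => 0, continuousOn_const, rfl, fun _ => le_rfl, fun ε hε => ?_⟩
  filter_upwards [h ε hε] with N h1 x hx
  simpa using h1 x hx

/-- **Concentration.** -/
theorem peakA {Ω : Set (V n)} (hO : IsOpen Ω) (hb : Bornology.IsBounded Ω) {p : V n}
    (hp : p ∈ closure Ω) {m : V n → ℝ} (hm : Continuous m) (hpos : ∀ x ∈ Ω, 0 < m x)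
    {c : V n → ℝ} (hc : ContinuousOn c (closure Ω)) (hmax : ∀ y ∈ closure Ω, y ≠ p → c y < c p)
    (hc0 : ∀ x ∈ closure Ω, 0 < c x) {E : ℕ → V n → ℂ} {e₀ : ℂ} (hE : Am (closure Ω) p E e₀)
    {k : ℕ → ℕ} (hk : Tendsto k atTop atTop) :
    Tendsto (fun N : ℕ => (((∫ x in Ω, c x ^ k N * m x : ℝ) : ℂ))⁻¹ *
      ∫ x in Ω, ((c x ^ k N * m x : ℝ) : ℂ) * E N x) atTop (𝓝 e₀) := by
  obtain ⟨c1, wm, k1, z1, p1, b1⟩ := hE
  have hK : IsCompact (closure Ω) := hb.isCompact_closure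
  have hD : ∀ N, 0 < ∫ x in Ω, c x ^ k N * m x := fun N => peak_pos hO hb hp hm hpos hc hc0 _
  have hi0 : ∀ N, IntegrableOn (fun x => c x ^ k N * m x) Ω := fun N =>
    (((hc.pow _).mul hm.continuousOn).integrableOn_compact hK).mono_set subset_closure
  have hiwm : ∀ N, IntegrableOn (fun x => c x ^ k N * m x * wm x) Ω := fun N =>
    ((((hc.pow _).mul hm.continuousOn).mul k1).integrableOn_compact hK).mono_set subset_closure
  have hi : ∀ {F : V n → ℂ}, ContinuousOn F (closure Ω) → ∀ N,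
      IntegrableOn (fun x => ((c x ^ k N * m x : ℝ) : ℂ) * F x) Ω := fun {F} hF N => by
    have h3 : ContinuousOn (fun x => ((c x ^ k N * m x : ℝ) : ℂ) * F x) (closure Ω) :=
      (Complex.continuous_ofReal.comp_continuousOn ((hc.pow _).mul hm.continuousOn)).mul hF
    exact (h3.integrableOn_compact hK).mono_set subset_closure
  -- the limit of the modulus
  have hwm := (peak hO hb hp hm hpos hc hmax hc0
    (G := fun x => ((wm x : ℝ) : ℂ)) (Complex.continuous_ofReal.comp_continuousOn k1)).comp hk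
  have hwm' : Tendsto (fun N : ℕ => (∫ x in Ω, c x ^ k N * m x)⁻¹ *
      ∫ x in Ω, c x ^ k N * m x * wm x) atTop (𝓝 0) := by
    have h1 := (Complex.continuous_re.tendsto _).comp hwm
    rw [z1] at h1
    refine h1.congr fun N => ?_
    show ((((∫ x in Ω, c x ^ k N * m x : ℝ) : ℂ))⁻¹ *
      ∫ x in Ω, ((c x ^ k N * m x : ℝ) : ℂ) * ((wm x : ℝ) : ℂ)).re = _
    have h2 : ∫ x in Ω, ((c x ^ k N * m x : ℝ) : ℂ) * ((wm x : ℝ) : ℂ) =
        ((∫ x in Ω, c x ^ k N * m x * wm x : ℝ) : ℂ) := by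
      rw [← integral_complex_ofReal]
      refine integral_congr_ae (Eventually.of_forall fun x => ?_)
      push_cast
      ring
    rw [h2, ← Complex.ofReal_inv, ← Complex.ofReal_mul, Complex.ofReal_re]
  rw [tendsto_iff_norm_sub_tendsto_zero, Metric.tendsto_atTop]
  intro ε hε
  obtain ⟨N₁, hN₁⟩ := eventually_atTop.mp (b1 (ε / 2) (by positivity))
  obtain ⟨N₂, hN₂⟩ := Metric.tendsto_atTop.mp hwm' (ε / 4) (by positivity)
  refine ⟨max N₁ N₂, fun N hN => ?_⟩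
  have hD1 := hD N
  have hDc : (((∫ x in Ω, c x ^ k N * m x : ℝ)) : ℂ) ≠ 0 := by exact_mod_cast hD1.ne'
  rw [Real.dist_eq, sub_zero, abs_of_nonneg (norm_nonneg _)]
  have e1 : (((∫ x in Ω, c x ^ k N * m x : ℝ) : ℂ))⁻¹ *
      (∫ x in Ω, ((c x ^ k N * m x : ℝ) : ℂ) * E N x) - e₀ =
      (((∫ x in Ω, c x ^ k N * m x : ℝ) : ℂ))⁻¹ *
        ∫ x in Ω, ((c x ^ k N * m x : ℝ) : ℂ) * (E N x - e₀) := by
    have h3 : ∫ x in Ω, ((c x ^ k N * m x : ℝ) : ℂ) * e₀ =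
        (((∫ x in Ω, c x ^ k N * m x : ℝ)) : ℂ) * e₀ := by
      rw [integral_mul_const, integral_complex_ofReal]
    have h4 : ∫ x in Ω, ((c x ^ k N * m x : ℝ) : ℂ) * (E N x - e₀) =
        (∫ x in Ω, ((c x ^ k N * m x : ℝ) : ℂ) * E N x) -
          ∫ x in Ω, ((c x ^ k N * m x : ℝ) : ℂ) * e₀ := by
      rw [← integral_sub (hi (c1 N) N) (hi continuousOn_const N)]
      refine integral_congr_ae (Eventually.of_forall fun x => ?_)
      show _ = _ - _
      ring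
    rw [h4, h3, mul_sub, ← mul_assoc (((∫ x in Ω, c x ^ k N * m x : ℝ) : ℂ))⁻¹ _ e₀,
      inv_mul_cancel₀ hDc, one_mul]
  rw [e1, norm_mul, norm_inv, Complex.norm_real, Real.norm_eq_abs, abs_of_pos hD1]
  have h5 : ‖∫ x in Ω, ((c x ^ k N * m x : ℝ) : ℂ) * (E N x - e₀)‖ ≤
      (∫ x in Ω, c x ^ k N * m x * wm x) + (∫ x in Ω, c x ^ k N * m x) * (ε / 2) := by
    rw [← integral_mul_const, ← integral_add (hiwm N) ((hi0 N).mul_const _)]
    refine norm_integral_le_of_norm_le ((hiwm N).add ((hi0 N).mul_const _)) ?_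
    refine (ae_restrict_iff' hO.measurableSet).mpr (Eventually.of_forall fun x hx => ?_)
    have h6 : 0 < c x ^ k N * m x := mul_pos (pow_pos (hc0 x (subset_closure hx)) _) (hpos x hx)
    rw [norm_mul, Complex.norm_real, Real.norm_eq_abs, abs_of_pos h6, ← mul_add]
    exact mul_le_mul_of_nonneg_left
      (hN₁ N ((le_max_left _ _).trans hN) x (subset_closure hx)) h6.le
  have h7 := hN₂ N ((le_max_right _ _).trans hN)
  rw [Real.dist_eq, sub_zero] at h7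
  have h8 := (abs_lt.mp h7).2
  calc (∫ x in Ω, c x ^ k N * m x)⁻¹ * _ ≤ (∫ x in Ω, c x ^ k N * m x)⁻¹ *
        ((∫ x in Ω, c x ^ k N * m x * wm x) + (∫ x in Ω, c x ^ k N * m x) * (ε / 2)) :=
        mul_le_mul_of_nonneg_left h5 (by positivity)
    _ = (∫ x in Ω, c x ^ k N * m x)⁻¹ * (∫ x in Ω, c x ^ k N * m x * wm x) + ε / 2 := by
        field_simp
    _ < ε := by linarith

end Vale.Agent.P088.H639.Kv
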