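import Vale.Agent.P088.H639.KC1

/-!
# P088, theorem JB, row K_CON (2): families with uniformly bounded derivatives
-/

open MeasureTheory Set Filter Topology
open scoped ContDiff

noncomputable section

namespace Vale.Agent.P088.H639.Kv

open Vale.Agent.P088.LR

variable {n : ℕ} {K : Set (V n)}

theorem pd_mulC {f g : V n → ℂ} (hf : ContDiff ℝ ∞ f) (hg : ContDiff ℝ ∞ g) (a : Fin n) :
    pd a (fun x => f x * g x) = fun x => pd a f x * g x + f x * pd a g x := by
  funext x
  have z0 : x + (0 : ℝ) • (Pi.single a (1 : ℝ) : V n) = x := by simp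
  have df := (hf.differentiable (by simp)) x
  have dg := (hg.differentiable (by simp)) x
  have h := (line_of df a).fun_mul (line_of dg a)
  simp only [z0] at h
  exact pd_line (df.fun_mul dg) h

theorem pd_addC {f g : V n → ℂ} (hf : ContDiff ℝ ∞ f) (hg : ContDiff ℝ ∞ g) (a : Fin n) :
    pd a (fun x => f x + g x) = fun x => pd a f x + pd a g x := by
  funext x
  unfold pd
  rw [fderiv_fun_add ((hf.differentiable (by simp)) x) ((hg.differentiable (by simp)) x)]
  rfl

/-- Chain rule. -/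
theorem pd_compC {B : V n → ℂ} (hB : ContDiff ℝ ∞ B) {T : V n → V n} (hT : ContDiff ℝ ∞ T)
    (b : Fin n) : pd b (fun x => B (T x)) =
      fun x => ∑ c, pd c B (T x) * ((pd b (fun y => T y c) x : ℝ) : ℂ) := by
  funext x
  have dB := (hB.differentiable (by simp)) (T x)
  have dT := (hT.differentiable (by simp)) x
  have h1 : fderiv ℝ (fun x => B (T x)) x = (fderiv ℝ B (T x)).comp (fderiv ℝ T x) :=
    fderiv_comp x dB dT
  have h2 : ∀ c, pd b (fun y => T y c) x = (fderiv ℝ T x (Pi.single b 1)) c := by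
    intro c
    unfold pd
    have h3 : HasFDerivAt (fun y => T y c)
        ((ContinuousLinearMap.proj (R := ℝ) (φ := fun _ : Fin n => ℝ) c).comp (fderiv ℝ T x)) x :=
      (ContinuousLinearMap.proj (R := ℝ) (φ := fun _ : Fin n => ℝ) c).hasFDerivAt.comp x
        dT.hasFDerivAt
    rw [h3.fderiv]
    rfl
  show fderiv ℝ (fun x => B (T x)) x (Pi.single b 1) = _
  rw [h1]
  show fderiv ℝ B (T x) (fderiv ℝ T x (Pi.single b 1)) = _
  rw [fderiv_sumC]
  refine Finset.sum_congr rfl fun c _ => ?_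
  rw [h2 c]
  ring

/-- Families which are bounded on `K`, uniformly, with derivatives of order `≤ k`. -/
def UBk : ℕ → Set (V n) → (ℕ → V n → ℂ) → Prop
  | 0, K, E => (∀ N, ContDiff ℝ ∞ (E N)) ∧ UBd K E
  | k + 1, K, E => UBk k K E ∧ ∀ a : Fin n, UBk k K fun N => pd a (E N)

theorem UBk.sm : ∀ {k : ℕ} {E : ℕ → V n → ℂ}, UBk k K E → ∀ N, ContDiff ℝ ∞ (E N)
  | 0, _, h => h.1
  | _ + 1, _, h => UBk.sm h.1

theorem UBk.ubd : ∀ {k : ℕ} {E : ℕ → V n → ℂ}, UBk k K E → UBd K E
  | 0, _, h => h.2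
  | _ + 1, _, h => UBk.ubd h.1

theorem UBk.add : ∀ {k : ℕ} {E F : ℕ → V n → ℂ}, UBk k K E → UBk k K F →
    UBk k K fun N x => E N x + F N x
  | 0, _, _, h1, h2 => ⟨fun N => (h1.1 N).add (h2.1 N), h1.2.add h2.2⟩
  | k + 1, E, F, h1, h2 => by
    refine ⟨UBk.add h1.1 h2.1, fun a => ?_⟩
    have e : (fun N => pd a fun x => E N x + F N x) =
        fun N x => pd a (E N) x + pd a (F N) x :=
      funext fun N => pd_addC (h1.sm N) (h2.sm N) a
    rw [e]
    exact UBk.add (h1.2 a) (h2.2 a)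

theorem UBk.mul : ∀ {k : ℕ} {E F : ℕ → V n → ℂ}, UBk k K E → UBk k K F →
    UBk k K fun N x => E N x * F N x
  | 0, _, _, h1, h2 => ⟨fun N => (h1.1 N).mul (h2.1 N), h1.2.mul h2.2⟩
  | k + 1, E, F, h1, h2 => by
    refine ⟨UBk.mul h1.1 h2.1, fun a => ?_⟩
    have e : (fun N => pd a fun x => E N x * F N x) =
        fun N x => pd a (E N) x * F N x + E N x * pd a (F N) x :=
      funext fun N => pd_mulC (h1.sm N) (h2.sm N) a
    rw [e]
    exact (UBk.mul (h1.2 a) h2.1).add (UBk.mul h1.1 (h2.2 a))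

theorem UBk.of_smooth (hK : IsCompact K) : ∀ {k : ℕ} {f : V n → ℂ}, ContDiff ℝ ∞ f →
    UBk k K fun _ => f
  | 0, _, hf => ⟨fun _ => hf, UBd.of_cont hK hf.continuous.continuousOn⟩
  | _ + 1, _, hf => ⟨UBk.of_smooth hK hf, fun a => UBk.of_smooth hK (pd_smooth hf a)⟩

theorem UBk.sum (hK : IsCompact K) {k : ℕ} {ι : Type*} (s : Finset ι)
    {E : ι → ℕ → V n → ℂ} (h : ∀ i ∈ s, UBk k K (E i)) :
    UBk k K fun N x => ∑ i ∈ s, E i N x := by
  classical
  induction s using Finset.induction_on with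
  | empty =>
    simp only [Finset.sum_empty]
    exact UBk.of_smooth hK contDiff_const
  | insert j s hj ih =>
    simp only [Finset.sum_insert hj]
    exact (h j (Finset.mem_insert_self _ _)).add
      (ih fun i hi => h i (Finset.mem_insert_of_mem hi))

theorem UBk.comp (hK : IsCompact K) {K' : Set (V n)} {T : V n → V n} (hT : ContDiff ℝ ∞ T)
    (hm : ∀ x ∈ K, T x ∈ K') : ∀ {k : ℕ} {B : ℕ → V n → ℂ}, UBk k K' B →
    UBk k K fun N x => B N (T x)
  | 0, B, h => ⟨fun N => (h.1 N).comp hT, by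
      obtain ⟨C, hC, hb⟩ := h.2
      refine ⟨C, hC, ?_⟩
      filter_upwards [hb] with N hN x hx
      exact hN _ (hm x hx)⟩
  | k + 1, B, h => by
    refine ⟨UBk.comp hK hT hm h.1, fun b => ?_⟩
    have e : (fun N => pd b fun x => B N (T x)) =
        fun N x => ∑ c, pd c (B N) (T x) * ((pd b (fun y => T y c) x : ℝ) : ℂ) :=
      funext fun N => pd_compC (h.sm N) hT b
    rw [e]
    refine UBk.sum hK Finset.univ fun c _ => UBk.mul (UBk.comp hK hT hm (h.2 c))
      (UBk.of_smooth hK ?_)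
    have h1 : ContDiff ℝ ∞ fun y => T y c := contDiff_pi.mp hT c
    have h2 : ContDiff ℝ ∞ (pd b fun y => T y c) := by
      unfold pd
      exact (h1.fderiv_right (m := ∞) (by simp)).clm_apply contDiff_const
    exact Complex.ofRealCLM.contDiff.comp h2

/-- A family with bounded gradients and a fixed value at `T p`. -/
theorem Am.of_lip {T : V n → V n} (hT : Continuous T) {R : ℝ} (hm : ∀ x ∈ K, ‖T x‖ ≤ R)
    {p : V n} (hp : p ∈ K) {B : ℕ → V n → ℂ} (hB : UBk 1 (Metric.closedBall 0 R) B) {e₀ : ℂ}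
    (he : ∀ᶠ N in atTop, B N (T p) = e₀) : Am K p (fun N x => B N (T x)) e₀ := by
  choose C hC hb using fun c => (hB.2 c).ubd
  have hCn : 0 ≤ ∑ c, C c := Finset.sum_nonneg fun c _ => (hC c).le
  refine ⟨fun N => ((hB.sm N).continuous.comp hT).continuousOn,
    fun x => (∑ c, C c) * ‖T x - T p‖, (continuous_const.mul
      (hT.sub continuous_const).norm).continuousOn, by simp,
    fun x => mul_nonneg hCn (norm_nonneg _), fun ε hε => ?_⟩
  have hb' : ∀ᶠ N : ℕ in atTop, ∀ c, ∀ y ∈ Metric.closedBall (0 : V n) R,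
      ‖pd c (B N) y‖ ≤ C c := eventually_all.mpr hb
  filter_upwards [he, hb'] with N h1 h2 x hx
  rw [← h1]
  have h3 : ∀ y ∈ Metric.closedBall (0 : V n) R, ‖fderiv ℝ (B N) y‖ ≤ ∑ c, C c := by
    intro y hy
    refine ContinuousLinearMap.opNorm_le_bound _ hCn fun v => ?_
    rw [fderiv_sumC]
    refine (norm_sum_le _ _).trans ?_
    rw [Finset.sum_mul]
    refine Finset.sum_le_sum fun c _ => ?_
    rw [norm_mul, Complex.norm_real, mul_comm]
    exact mul_le_mul (h2 c y hy) (norm_le_pi_norm v c) (norm_nonneg _) (hC c).le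
  have h4 := (convex_closedBall (0 : V n) R).norm_image_sub_le_of_norm_fderiv_le (𝕜 := ℝ)
    (f := B N) (fun z _ => ((hB.sm N).differentiable (by simp)) z) h3
    (x := T p) (y := T x) (by simpa using hm p hp) (by simpa using hm x hx)
  linarith

end Vale.Agent.P088.H639.Kv
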