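import Vale.Agent.P088.H639.KC2

/-!
# P088, theorem JB, row K_CON (3): concentration of vector valued families
-/

open MeasureTheory Set Filter Topology
open scoped ContDiff

noncomputable section

namespace Vale.Agent.P088.H639.Kv

open Vale.Agent.P088.LR

variable {n : ℕ} {N' : ℕ}

theorem pd_expC {G : V n → ℂ} (hG : ContDiff ℝ ∞ G) (m : ℂ) {E : V n → ℂ}
    (hE : ContDiff ℝ ∞ E) (a : Fin n) : pd a (fun x => Complex.exp (m * G x) * E x) =
      fun x => Complex.exp (m * G x) * (m * pd a G x * E x + pd a E x) := by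
  have hG' : ContDiff ℝ ∞ fun x => m * G x := contDiff_const.mul hG
  have he : ContDiff ℝ ∞ fun x => Complex.exp (m * G x) := Complex.contDiff_exp.comp hG'
  rw [pd_mulC he hE a]
  funext x
  have h1 : pd a (fun x => Complex.exp (m * G x)) x = Complex.exp (m * G x) * (m * pd a G x) := by
    have d1 := (hG.differentiable (by simp)) x
    have h2 : HasFDerivAt (fun x => Complex.exp (m * G x))
        (Complex.exp (m * G x) • (m • fderiv ℝ G x)) x :=
      (d1.hasFDerivAt.const_mul m).cexp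
    unfold pd
    rw [h2.fderiv]
    simp
  rw [h1]
  ring

theorem pd_vec {u : V n → Fin N' → ℂ} (hu : ContDiff ℝ ∞ u) (a : Fin n) (x : V n) (l : Fin N') :
    pd a u x l = pd a (fun y => u y l) x := by
  unfold pd
  have h3 : HasFDerivAt (fun y => u y l)
      ((ContinuousLinearMap.proj (R := ℝ) (φ := fun _ : Fin N' => ℂ) l).comp (fderiv ℝ u x)) x :=
    (ContinuousLinearMap.proj (R := ℝ) (φ := fun _ : Fin N' => ℂ) l).hasFDerivAt.comp x
      ((hu.differentiable (by simp)) x).hasFDerivAt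
  rw [h3.fderiv]
  rfl

theorem pd_vec_smooth {u : V n → Fin N' → ℂ} (hu : ContDiff ℝ ∞ u) (a : Fin n) :
    ContDiff ℝ ∞ (pd a u) := by
  unfold pd
  exact (hu.fderiv_right (m := ∞) (by simp)).clm_apply contDiff_const

variable {Ω : Set (V n)} {p : V n}

/-- Peaks with the factor `m²`. -/
theorem peakM (hO : IsOpen Ω) (hb : Bornology.IsBounded Ω) (hp : p ∈ closure Ω) {G : V n → ℂ}
    (hG : ContDiff ℝ ∞ G) (hpk : ∀ y ∈ closure Ω, y ≠ p → (G y).re < (G p).re) {m : ℕ → ℕ}
    (hm : Tendsto m atTop atTop) (hm0 : ∀ M, 0 < m M) {w : V n → ℝ} (hw : Continuous w)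
    (hw0 : ∀ x ∈ Ω, 0 < w x) {Y : ℕ → V n → ℂ} {y₀ : ℂ} (hY : Am (closure Ω) p Y y₀) :
    Tendsto (fun M : ℕ => ((((m M : ℝ) ^ 2 *
      ∫ x in Ω, Real.exp (2 * (G x).re) ^ m M * w x : ℝ) : ℂ))⁻¹ *
      ∫ x in Ω, ((Real.exp (2 * (G x).re) ^ m M * w x : ℝ) : ℂ) * (((m M : ℝ) : ℂ) ^ 2 * Y M x))
      atTop (𝓝 y₀) := by
  have hc : Continuous fun x => Real.exp (2 * (G x).re) :=
    Real.continuous_exp.comp (continuous_const.mul (Complex.continuous_re.comp hG.continuous))
  have h := peakA hO hb hp hw hw0 (c := fun x => Real.exp (2 * (G x).re)) hc.continuousOn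
    (fun y hy hne => Real.exp_lt_exp.mpr (by linarith [hpk y hy hne]))
    (fun x _ => Real.exp_pos _) hY hm
  refine h.congr fun M => ?_
  have hmr : ((m M : ℝ) : ℂ) ≠ 0 := by
    have : m M ≠ 0 := (hm0 M).ne'
    exact_mod_cast this
  have e : ∫ x in Ω, ((Real.exp (2 * (G x).re) ^ m M * w x : ℝ) : ℂ) *
      (((m M : ℝ) : ℂ) ^ 2 * Y M x) = ((m M : ℝ) : ℂ) ^ 2 *
      ∫ x in Ω, ((Real.exp (2 * (G x).re) ^ m M * w x : ℝ) : ℂ) * Y M x := by
    rw [← integral_const_mul]
    refine integral_congr_ae (Eventually.of_forall fun x => ?_)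
    show _ = _
    ring
  rw [e, Complex.ofReal_mul, Complex.ofReal_pow, mul_inv]
  field_simp

/-- **Concentration.** -/
theorem concK (hO : IsOpen Ω) (hb : Bornology.IsBounded Ω) (hp : p ∈ closure Ω) {G : V n → ℂ}
    (hG : ContDiff ℝ ∞ G) (hpk : ∀ y ∈ closure Ω, y ≠ p → (G y).re < (G p).re) {m : ℕ → ℕ}
    (hm : Tendsto m atTop atTop) (hm0 : ∀ M, 0 < m M)
    {E : ℕ → Fin N' → V n → ℂ} (hE : ∀ l, UBk 2 (closure Ω) fun M => E M l) {e : Fin N' → ℂ}
    (hA : ∀ l, Am (closure Ω) p (fun M => E M l) (e l))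
    {U : ℕ → V n → Fin N' → ℂ}
    (hU : ∀ M, U M = fun x l => Complex.exp (((m M : ℝ) : ℂ) * G x) * E M l x)
    {w : V n → ℝ} (hw : Continuous w) (hw0 : ∀ x ∈ Ω, 0 < w x) :
    ∃ Z : ℕ → ℝ, (∀ M, 0 < Z M) ∧ ∀ F : V n → ℂ, ContinuousOn F (closure Ω) →
      ∀ l l' : Fin N',
      (∀ a b, Tendsto (fun M => ((Z M : ℝ) : ℂ)⁻¹ * ∫ x in Ω, ((w x : ℝ) : ℂ) * F x *
        (pd a (U M) x l * star (pd b (U M) x l'))) atTop
        (𝓝 (F p * (pd a G p * star (pd b G p)) * (e l * star (e l'))))) ∧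
      (∀ a b, Tendsto (fun M => ((Z M : ℝ) : ℂ)⁻¹ * ∫ x in Ω, ((w x : ℝ) : ℂ) * F x *
        (pd a (fun y => pd b (U M) y) x l * star (U M x l'))) atTop
        (𝓝 (F p * (pd a G p * pd b G p) * (e l * star (e l'))))) ∧
      (∀ a, Tendsto (fun M => ((Z M : ℝ) : ℂ)⁻¹ * ∫ x in Ω, ((w x : ℝ) : ℂ) * F x *
        (pd a (U M) x l * star (U M x l'))) atTop (𝓝 0)) ∧
      Tendsto (fun M => ((Z M : ℝ) : ℂ)⁻¹ * ∫ x in Ω, ((w x : ℝ) : ℂ) * F x *
        (U M x l * star (U M x l'))) atTop (𝓝 0) := by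
  have hK : IsCompact (closure Ω) := hb.isCompact_closure
  have hEs : ∀ M l, ContDiff ℝ ∞ (E M l) := fun M l => (hE l).sm M
  have hUl : ∀ M l, (fun y => U M y l) = fun x => Complex.exp (((m M : ℝ) : ℂ) * G x) * E M l x :=
    fun M l => by rw [hU M]
  have hUs : ∀ M, ContDiff ℝ ∞ (U M) := fun M => by
    rw [contDiff_pi]
    intro l
    rw [hUl M l]
    exact (Complex.contDiff_exp.comp (contDiff_const.mul hG)).mul (hEs M l)
  have hmr : ∀ M, ((m M : ℝ) : ℂ) ≠ 0 := fun M => by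
    have : m M ≠ 0 := (hm0 M).ne'
    exact_mod_cast this
  have hGs : ∀ a, ContDiff ℝ ∞ (pd a G) := fun a => pd_smooth hG a
  -- the amplitudes of the derivatives
  have d1 : ∀ M a x l, pd a (U M) x l = Complex.exp (((m M : ℝ) : ℂ) * G x) *
      (((m M : ℝ) : ℂ) * (pd a G x * E M l x + ((m M : ℝ) : ℂ)⁻¹ * pd a (E M l) x)) := by
    intro M a x l
    rw [pd_vec (hUs M) a x l, hUl M l, pd_expC hG _ (hEs M l) a]
    have := hmr M
    field_simp
  have d2 : ∀ M a b x l, pd a (fun y => pd b (U M) y) x l =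
      Complex.exp (((m M : ℝ) : ℂ) * G x) * (((m M : ℝ) : ℂ) ^ 2 *
        (pd a G x * pd b G x * E M l x + (((m M : ℝ) : ℂ)⁻¹ * (pd a (pd b G) x * E M l x +
          pd b G x * pd a (E M l) x + pd a G x * pd b (E M l) x) +
          ((m M : ℝ) : ℂ)⁻¹ * (((m M : ℝ) : ℂ)⁻¹ * pd a (pd b (E M l)) x)))) := by
    intro M a b x l
    have h1 : (fun y => pd b (U M) y) = pd b (U M) := rfl
    rw [h1, pd_vec (pd_vec_smooth (hUs M) b) a x l]
    have h2 : (fun y => pd b (U M) y l) = fun y => Complex.exp (((m M : ℝ) : ℂ) * G y) *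
        (((m M : ℝ) : ℂ) * pd b G y * E M l y + pd b (E M l) y) := by
      funext y
      rw [pd_vec (hUs M) b y l, hUl M l, pd_expC hG _ (hEs M l) b]
    have h3 : ContDiff ℝ ∞ fun y => ((m M : ℝ) : ℂ) * pd b G y * E M l y :=
      (contDiff_const.mul (hGs b)).mul (hEs M l)
    have h4 : pd a (fun y => ((m M : ℝ) : ℂ) * pd b G y * E M l y + pd b (E M l) y) =
        fun y => ((m M : ℝ) : ℂ) * pd a (pd b G) y * E M l y +
          ((m M : ℝ) : ℂ) * pd b G y * pd a (E M l) y + pd a (pd b (E M l)) y := by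
      rw [pd_addC h3 (pd_smooth (hEs M l) b) a, pd_mulC (contDiff_const.mul (hGs b)) (hEs M l) a,
        pd_mulC contDiff_const (hGs b) a]
      funext y
      have h5 : pd a (fun _ : V n => ((m M : ℝ) : ℂ)) y = 0 := by
        unfold pd
        rw [fderiv_fun_const]
        rfl
      show (pd a (fun _ : V n => ((m M : ℝ) : ℂ)) y * pd b G y +
        ((m M : ℝ) : ℂ) * pd a (pd b G) y) * E M l y +
        ((m M : ℝ) : ℂ) * pd b G y * pd a (E M l) y + pd a (pd b (E M l)) y = _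
      rw [h5]
      ring
    rw [h2, pd_expC hG _ (h3.add (pd_smooth (hEs M l) b)) a, h4]
    have := hmr M
    field_simp
    ring
  -- limits of the amplitudes
  have s3 : Sml (closure Ω) fun M _ => ((m M : ℝ) : ℂ)⁻¹ := by
    refine Sml.of_tendsto ?_
    have h4 : Tendsto (fun M : ℕ => (((((m M : ℕ) : ℝ))⁻¹ : ℝ) : ℂ)) atTop (𝓝 ((0 : ℝ) : ℂ)) :=
      (Complex.continuous_ofReal.tendsto 0).comp
        (tendsto_inv_atTop_nhds_zero_nat (𝕜 := ℝ) |>.comp hm)
    simpa using h4
  have small : ∀ {f : ℕ → V n → ℂ}, (∀ M, ContinuousOn (f M) (closure Ω)) →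
      UBd (closure Ω) f → Am (closure Ω) p (fun M x => ((m M : ℝ) : ℂ)⁻¹ * f M x) 0 := by
    intro f hf hu
    refine Am.of_sml (fun M => continuousOn_const.mul (hf M)) ?_
    refine (UBd.mul_sml hu s3).congr (Eventually.of_forall fun M x _ => ?_)
    ring
  have cE : ∀ M l, ContinuousOn (E M l) (closure Ω) := fun M l =>
    (hEs M l).continuous.continuousOn
  have cE1 : ∀ M l a, ContinuousOn (pd a (E M l)) (closure Ω) := fun M l a =>
    (pd_smooth (hEs M l) a).continuous.continuousOn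
  have cE2 : ∀ M l a b, ContinuousOn (pd a (pd b (E M l))) (closure Ω) := fun M l a b =>
    (pd_smooth (pd_smooth (hEs M l) b) a).continuous.continuousOn
  have cG1 : ∀ a, ContinuousOn (pd a G) (closure Ω) := fun a => (hGs a).continuous.continuousOn
  have cG2 : ∀ a b, ContinuousOn (pd a (pd b G)) (closure Ω) := fun a b =>
    (pd_smooth (hGs b) a).continuous.continuousOn
  have u0 : ∀ l, UBd (closure Ω) fun M => E M l := fun l => (hE l).ubd
  have u1 : ∀ l a, UBd (closure Ω) fun M => pd a (E M l) := fun l a => ((hE l).2 a).ubd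
  have u2 : ∀ l a b, UBd (closure Ω) fun M => pd a (pd b (E M l)) := fun l a b =>
    (((hE l).2 b).2 a).ubd
  have v1 : ∀ a, UBd (closure Ω) fun _ => pd a G := fun a => UBd.of_cont hK (cG1 a)
  have v2 : ∀ a b, UBd (closure Ω) fun _ => pd a (pd b G) := fun a b =>
    UBd.of_cont hK (cG2 a b)
  have H1 : ∀ a l, Am (closure Ω) p (fun M x => pd a G x * E M l x +
      ((m M : ℝ) : ℂ)⁻¹ * pd a (E M l) x) (pd a G p * e l) := by
    intro a l
    have h := ((Am.of_cont (p := p) (cG1 a)).mul hK (hA l)).add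
      (small (fun M => cE1 M l a) (u1 l a))
    rw [add_zero] at h
    exact h
  have H2 : ∀ a b l, Am (closure Ω) p (fun M x => pd a G x * pd b G x * E M l x +
      (((m M : ℝ) : ℂ)⁻¹ * (pd a (pd b G) x * E M l x +
          pd b G x * pd a (E M l) x + pd a G x * pd b (E M l) x) +
          ((m M : ℝ) : ℂ)⁻¹ * (((m M : ℝ) : ℂ)⁻¹ * pd a (pd b (E M l)) x)))
      (pd a G p * pd b G p * e l) := by
    intro a b l
    have k1 : Am (closure Ω) p (fun M x => ((m M : ℝ) : ℂ)⁻¹ * (pd a (pd b G) x * E M l x +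
          pd b G x * pd a (E M l) x + pd a G x * pd b (E M l) x)) 0 :=
      small (fun M => (((cG2 a b).mul (cE M l)).add ((cG1 b).mul (cE1 M l a))).add
        ((cG1 a).mul (cE1 M l b)))
        ((((v2 a b).mul (u0 l)).add ((v1 b).mul (u1 l a))).add ((v1 a).mul (u1 l b)))
    have k2 : Am (closure Ω) p (fun M x => ((m M : ℝ) : ℂ)⁻¹ *
        (((m M : ℝ) : ℂ)⁻¹ * pd a (pd b (E M l)) x)) 0 := by
      refine small (fun M => continuousOn_const.mul (cE2 M l a b)) ?_
      exact (s3.ubd).mul (u2 l a b)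
    have h := (((Am.of_cont (p := p) (cG1 a)).mul hK (Am.of_cont (p := p) (cG1 b))).mul hK
      (hA l)).add (k1.add k2)
    rw [add_zero, add_zero] at h
    exact h
  have hEx : ∀ M x, Complex.exp (((m M : ℝ) : ℂ) * G x) *
      (starRingEnd ℂ) (Complex.exp (((m M : ℝ) : ℂ) * G x)) =
      ((Real.exp (2 * (G x).re) ^ m M : ℝ) : ℂ) := by
    intro M x
    rw [Complex.mul_conj, Complex.normSq_eq_norm_sq, Complex.norm_exp, ← Real.exp_nat_mul,
      ← Real.exp_nat_mul]
    congr 2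
    rw [Complex.re_ofReal_mul]
    push_cast
    ring
  set D : ℕ → ℝ := fun M => ∫ x in Ω, Real.exp (2 * (G x).re) ^ m M * w x with hD
  have hcc : Continuous fun x => Real.exp (2 * (G x).re) :=
    Real.continuous_exp.comp (continuous_const.mul (Complex.continuous_re.comp hG.continuous))
  have hD0 : ∀ M, 0 < D M := fun M =>
    peak_pos hO hb hp hw hw0 (c := fun x => Real.exp (2 * (G x).re)) hcc.continuousOn
      (fun x _ => Real.exp_pos _) (m M)
  refine ⟨fun M => (m M : ℝ) ^ 2 * D M, fun M => ?_, fun F hF l l' => ?_⟩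
  · have h1 := hD0 M
    have h2 : 0 < (m M : ℝ) := by exact_mod_cast hm0 M
    positivity
  have aF : Am (closure Ω) p (fun _ => F) (F p) := Am.of_cont hF
  have main : ∀ {Y : ℕ → V n → ℂ} {y₀ : ℂ} {I : ℕ → V n → ℂ}, Am (closure Ω) p Y y₀ →
      (∀ M x, I M x = ((Real.exp (2 * (G x).re) ^ m M * w x : ℝ) : ℂ) *
        (((m M : ℝ) : ℂ) ^ 2 * Y M x)) →
      Tendsto (fun M => ((((m M : ℝ) ^ 2 * D M : ℝ) : ℂ))⁻¹ * ∫ x in Ω, I M x) atTop (𝓝 y₀) := by
    intro Y y₀ I hY hI
    refine (peakM hO hb hp hG hpk hm hm0 hw hw0 hY).congr fun M => ?_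
    congr 1
    exact integral_congr_ae (Eventually.of_forall fun x => (hI M x).symm)
  refine ⟨fun a b => ?_, fun a b => ?_, fun a => ?_, ?_⟩
  · have h := ((aF.mul hK (H1 a l)).mul hK (H1 b l').conj)
    have e0 : F p * (pd a G p * e l) * (starRingEnd ℂ) (pd b G p * e l') =
        F p * (pd a G p * star (pd b G p)) * (e l * star (e l')) := by
      rw [map_mul]
      simp only [RCLike.star_def]
      ring
    rw [← e0]
    refine main h fun M x => ?_
    rw [d1 M a x l, d1 M b x l', RCLike.star_def, map_mul, map_mul, Complex.conj_ofReal]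
    rw [Complex.ofReal_mul, ← hEx M x]
    ring
  · have h := ((aF.mul hK (H2 a b l)).mul hK (hA l').conj)
    have e0 : F p * (pd a G p * pd b G p * e l) * (starRingEnd ℂ) (e l') =
        F p * (pd a G p * pd b G p) * (e l * star (e l')) := by
      simp only [RCLike.star_def]
      ring
    rw [← e0]
    refine main h fun M x => ?_
    rw [d2 M a b x l, hU M, RCLike.star_def, map_mul]
    rw [Complex.ofReal_mul, ← hEx M x]
    ring
  · have h := ((aF.mul hK (H1 a l)).mul hK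
      (small (f := fun M x => (starRingEnd ℂ) (E M l' x))
        (fun M => Complex.continuous_conj.comp_continuousOn (cE M l'))
        ((hA l').conj.ubd hK)))
    rw [mul_zero] at h
    refine main h fun M x => ?_
    rw [d1 M a x l, hU M, RCLike.star_def, map_mul]
    rw [Complex.ofReal_mul, ← hEx M x]
    have := hmr M
    field_simp
  · have h := ((aF.mul hK (small (f := fun M x => E M l x) (fun M => cE M l) (u0 l))).mul hK
      (small (f := fun M x => (starRingEnd ℂ) (E M l' x))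
        (fun M => Complex.continuous_conj.comp_continuousOn (cE M l'))
        ((hA l').conj.ubd hK)))
    rw [mul_zero] at h
    refine main h fun M x => ?_
    rw [hU M, RCLike.star_def, map_mul]
    rw [Complex.ofReal_mul, ← hEx M x]
    have := hmr M
    field_simp

end Vale.Agent.P088.H639.Kv
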