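import Vale.Agent.P088.H198.K.Defs
import Vale.Agent.P088.H639.ConX

/-!
# P088, theorem JB, row K_CON: definitions and sub-rows
-/

open MeasureTheory Set Filter Topology
open scoped ContDiff Matrix

noncomputable section

namespace Vale.Agent.P088.H639.KC

open Vale.Agent.P088.LR Vale.Agent.P088.LR.B Vale.Agent.P088.LR.CF Vale.Agent.P088.LR.U
  Vale.Agent.P088.LR.H158 Vale.Agent.P088.H639.Kv

variable {n N : ℕ}

/-- The first order coefficients of `σ⁻¹ L_(σ, A)`. -/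
def Gm (σ : V n → ℝ) (A : Cn n N) (i : Fin n) : MC n N :=
  fun x => (2 : ℂ) • A i x + ((pd i σ x / σ x : ℝ) : ℂ) • (1 : Matrix (Fin N) (Fin N) ℂ)

/-- The zero order coefficient of `σ⁻¹ L_(σ, A)`. -/
def Vm (σ : V n → ℝ) (A : Cn n N) : MC n N :=
  fun x => ∑ i, (pdm i (A i) x + A i x * A i x + ((pd i σ x / σ x : ℝ) : ℂ) • A i x)

/-- The first order coefficients after the Kelvin transform, as functions of `x`. -/
def Lx (σ : V n → ℝ) (A : Cn n N) (q : V n) (b : Fin n) : MC n N :=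
  fun x => ∑ i, (((if i = b then S q x else 0) - 2 * (x i - q i) * (x b - q b) : ℝ) : ℂ) •
    Gm σ A i x

/-- The zero order coefficient after the Kelvin transform, as a function of `x`. -/
def Qx (σ : V n → ℝ) (A : Cn n N) (q : V n) : MC n N :=
  fun x => ∑ i, ((2 * al n * S q x * (x i - q i) : ℝ) : ℂ) • Gm σ A i x +
    ((S q x ^ 2 : ℝ) : ℂ) • Vm σ A x

/-- (KC_BALL) uniform exterior ball (compare `Kv.ext_ball` in `H639/Conc`). -/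
def RowBall : Prop := ∀ {n : ℕ} (ρ : V n → ℝ), Dom ρ → ∃ r : ℝ, 0 < r ∧ ∀ p, ρ p = 0 →
  ∀ ν : V n, ∑ i, ν i ^ 2 = 1 → (∃ c > 0, ∀ i, pd i ρ p = c * ν i) →
  ∀ x ∈ closure (Om ρ), r ^ 2 + (∑ j, (x j - p j) ^ 2) / 2 ≤ S (fun j => p j - r * ν j) x

/-- (KC_SM) smallness of the coefficients after the Kelvin transform, uniformly in the centre. -/
def RowSm : Prop := ∀ (n N : ℕ) (r B : ℝ), 0 < r → 0 < B → ∀ (k : ℕ) (ε : ℝ), 0 < ε →
  ∃ (k' : ℕ) (δ : ℝ), 0 < δ ∧ ∀ (σ : V n → ℝ) (A : Cn n N), SmP σ →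
  Cl k' δ (fun x => σ x - 1) → SmU A → (∀ i, ClC k' δ (A i)) → ∀ q : V n,
  ∃ (Λ : Fin n → MC n N) (Q : MC n N), (∀ i, SmC (Λ i)) ∧ SmC Q ∧ (∀ i, ClC k ε (Λ i)) ∧
    ClC k ε Q ∧ ∀ x, r ^ 2 ≤ S q x → S q x ≤ B →
      (∀ b, Λ b (Yv q x) = Lx σ A q b x) ∧ Q (Yv q x) = Qx σ A q x

/-- (KC_EQ) the operator on Kelvin transforms. -/
def RowEq : Prop := ∀ {n N : ℕ} (σ : V n → ℝ) (A : Cn n N), SmP σ → SmU A →
  ∀ (q : V n) (W : Fin N → V n → ℂ), (∀ l, ContDiff ℝ ∞ (W l)) → ∀ u : V n → Fin N → ℂ,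
  ContDiff ℝ ∞ u → ∀ x, 0 < S q x → (∀ l, (fun y => u y l) =ᶠ[𝓝 x] KT q (W l)) → ∀ l,
  lav (sc σ) A u x l = (σ x : ℂ) * (((S q x ^ al n : ℝ) : ℂ) / (S q x : ℂ) ^ 2) *
    (dv (fun _ => 1) (W l) (Yv q x) + ∑ b, ∑ m, Lx σ A q b x l m * pd b (W m) (Yv q x) +
      ∑ m, Qx σ A q x l m * W m (Yv q x))

end Vale.Agent.P088.H639.KC
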