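import Vale.Agent.P088.H639.KC3
import Vale.Agent.P088.H639.KCD

/-!
# P088, theorem JB, row K_CON (4): lemmas for the assembly
-/

open MeasureTheory Set Filter Topology
open scoped ContDiff Matrix

noncomputable section

namespace Vale.Agent.P088.H639.KC

open Vale.Agent.P088.LR Vale.Agent.P088.LR.B Vale.Agent.P088.LR.CF Vale.Agent.P088.LR.U
  Vale.Agent.P088.LR.H158 Vale.Agent.P088.H639.Kv Vale.Agent.P088.LR.K

variable {n N : ℕ}

/-- A matrix near `1` is invertible, with a bound. -/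
theorem inv_bd {r0 : Matrix (Fin N) (Fin N) ℂ}
    (h : ∀ α β, ‖r0 α β‖ ≤ 1 / (4 * (N + 1))) (η : Fin N → ℂ) :
    ∃ v : Fin N → ℂ, (1 + r0) *ᵥ v = η ∧ ∀ i, ‖v i‖ ≤ 2 * ‖η‖ := by
  have key : ∀ v : Fin N → ℂ, ‖v‖ ≤ 2 * ‖(1 + r0) *ᵥ v‖ := by
    intro v
    have h1 : ‖r0 *ᵥ v‖ ≤ ‖v‖ / 4 := by
      rw [pi_norm_le_iff_of_nonneg (by positivity)]
      intro α
      show ‖∑ β, r0 α β * v β‖ ≤ _
      calc ‖∑ β, r0 α β * v β‖ ≤ ∑ β, ‖r0 α β * v β‖ := norm_sum_le _ _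
        _ ≤ ∑ _β : Fin N, 1 / (4 * ((N : ℝ) + 1)) * ‖v‖ := Finset.sum_le_sum fun β _ => by
            rw [norm_mul]
            exact mul_le_mul (h α β) (norm_le_pi_norm v β) (norm_nonneg _) (by positivity)
        _ = (N : ℝ) * (1 / (4 * ((N : ℝ) + 1))) * ‖v‖ := by
            rw [Finset.sum_const, Finset.card_univ, Fintype.card_fin, nsmul_eq_mul]
            ring
        _ ≤ ‖v‖ / 4 := by
            have h2 : (N : ℝ) * (1 / (4 * ((N : ℝ) + 1))) ≤ 1 / 4 := by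
              rw [mul_one_div, div_le_div_iff₀ (by positivity) (by norm_num)]
              linarith
            nlinarith [norm_nonneg v]
    have h2 : v = (1 + r0) *ᵥ v - r0 *ᵥ v := by
      rw [Matrix.add_mulVec, Matrix.one_mulVec, add_sub_cancel_right]
    have h3 : ‖v‖ ≤ ‖(1 + r0) *ᵥ v‖ + ‖r0 *ᵥ v‖ := by
      conv_lhs => rw [h2]
      exact norm_sub_le _ _
    have h4 := norm_nonneg v
    linarith
  have inj : Function.Injective (1 + r0).mulVec := by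
    intro v w hvw
    have h4 := key (v - w)
    have h5 : (1 + r0) *ᵥ (v - w) = 0 := by
      rw [Matrix.mulVec_sub]
      exact sub_eq_zero.mpr hvw
    rw [h5, norm_zero, mul_zero] at h4
    exact sub_eq_zero.mp (norm_le_zero_iff.mp h4)
  have hu : IsUnit (1 + r0) := Matrix.mulVec_injective_iff_isUnit.mp inj
  have hdet := (Matrix.isUnit_iff_isUnit_det _).mp hu
  have e : (1 + r0) *ᵥ ((1 + r0)⁻¹ *ᵥ η) = η := by
    rw [Matrix.mulVec_mulVec, Matrix.mul_nonsing_inv _ hdet, Matrix.one_mulVec]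
  refine ⟨(1 + r0)⁻¹ *ᵥ η, e, fun i => ?_⟩
  have h5 := key ((1 + r0)⁻¹ *ᵥ η)
  rw [e] at h5
  exact (norm_le_pi_norm _ i).trans h5

theorem smc_pdm {R : MC n N} (hR : SmC R) (b : Fin n) : SmC (pdm b R) := fun a c =>
  pd_smooth (hR a c) b

theorem mv_smooth {R : MC n N} (hR : SmC R) (v : Fin N → ℂ) (l : Fin N) :
    ContDiff ℝ ∞ fun y => (R y *ᵥ v) l := by
  show ContDiff ℝ ∞ fun y => ∑ β, R y l β * v β
  exact ContDiff.sum fun β _ => (hR l β).mul contDiff_const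

theorem pd_mv {R : MC n N} (hR : SmC R) (v : Fin N → ℂ) (b : Fin n) (l : Fin N) :
    pd b (fun y => (R y *ᵥ v) l) = fun y => (pdm b R y *ᵥ v) l := by
  funext y
  have h : HasFDerivAt (fun y => ∑ β, R y l β * v β)
      (∑ β, v β • fderiv ℝ (fun y => R y l β) y) y :=
    HasFDerivAt.fun_sum fun β _ => (((hR l β).differentiable (by simp)) y).hasFDerivAt.mul_const _
  show fderiv ℝ (fun y => ∑ β, R y l β * v β) y (Pi.single b 1) =
    ∑ β, pd b (fun y => R y l β) y * v β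
  rw [h.fderiv]
  unfold pd
  simp only [FunLike.coe_sum, Finset.sum_apply, FunLike.coe_smul,
    Pi.smul_apply, smul_eq_mul]
  exact Finset.sum_congr rfl fun β _ => mul_comm _ _

theorem smc_one_add {R : MC n N} (hR : SmC R) : SmC fun y => 1 + R y := fun a b =>
  contDiff_const.add (hR a b)

theorem pdm_one_add (R : MC n N) (b : Fin n) : pdm b (fun y => 1 + R y) = pdm b R := by
  funext y
  ext α β
  show pd b (fun y => (1 : Matrix (Fin N) (Fin N) ℂ) α β + R y α β) y = pd b (fun y => R y α β) y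
  unfold pd
  rw [fderiv_const_add]

/-- The equation for `e^{Mζ·y} (1 + r) v` from the matrix identity. -/
theorem alg {rr : MC n N} (hr : SmC rr) (v : Fin N → ℂ) {ζ : Fin n → ℂ}
    (hζ : ∑ j, ζ j ^ 2 = 0) (M : ℕ) (y : V n) (Λ : Fin n → Matrix (Fin N) (Fin N) ℂ)
    (Q : Matrix (Fin N) (Fin N) ℂ)
    (hid : ∑ j, pdm j (pdm j rr) y + (2 * (M : ℂ)) • ∑ j, ζ j • pdm j rr y +
      ∑ j, Λ j * (pdm j rr y + ((M : ℂ) * ζ j) • (1 + rr y)) + Q * (1 + rr y) = 0) (l : Fin N) :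
    dv (fun _ => 1) (fun y => ex ζ (M : ℝ) y * ((1 + rr y) *ᵥ v) l) y +
      ∑ b, ∑ m, Λ b l m * pd b (fun y => ex ζ (M : ℝ) y * ((1 + rr y) *ᵥ v) m) y +
      ∑ m, Q l m * (ex ζ (M : ℝ) y * ((1 + rr y) *ᵥ v) m) = 0 := by
  have hs : ∀ l, ContDiff ℝ ∞ fun y => ((1 + rr y) *ᵥ v) l := mv_smooth (smc_one_add hr) v
  have e1 : ∀ b l, pd b (fun y => ((1 + rr y) *ᵥ v) l) = fun y => (pdm b rr y *ᵥ v) l :=
    fun b l => by rw [pd_mv (smc_one_add hr) v b l, pdm_one_add]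
  have e2 : dv (fun _ => 1) (fun y => ((1 + rr y) *ᵥ v) l) y =
      ∑ a, (pdm a (pdm a rr) y *ᵥ v) l := by
    rw [dv_one]
    refine Finset.sum_congr rfl fun a _ => ?_
    rw [e1 a l, pd_mv (smc_pdm hr a) v a l]
  rw [dv_ex ζ hζ _ (hs l) y, e2]
  have e3 : ∀ b m, pd b (fun y => ex ζ (M : ℝ) y * ((1 + rr y) *ᵥ v) m) y =
      ex ζ (M : ℝ) y * (((M : ℂ) * ζ b) * ((1 + rr y) *ᵥ v) m + (pdm b rr y *ᵥ v) m) := by
    intro b m
    rw [pd_ex ζ _ (hs m) b y, e1 b m]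
    push_cast
    ring
  simp only [e3, e1]
  have h := congrFun (congrArg (fun X => X *ᵥ v) hid) l
  simp only [Matrix.add_mulVec, Matrix.sum_mulVec, Matrix.smul_mulVec, ← Matrix.mulVec_mulVec,
    Pi.add_apply, Finset.sum_apply, Pi.smul_apply, smul_eq_mul, Matrix.zero_mulVec,
    Pi.zero_apply] at h
  have e4 : ∀ b, (Λ b *ᵥ (pdm b rr y *ᵥ v + ((M : ℂ) * ζ b) • (1 *ᵥ v + rr y *ᵥ v))) l =
      ∑ m, Λ b l m * (((M : ℂ) * ζ b) * ((1 + rr y) *ᵥ v) m + (pdm b rr y *ᵥ v) m) := by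
    intro b
    show ∑ m, Λ b l m * _ = _
    refine Finset.sum_congr rfl fun m _ => ?_
    rw [Matrix.add_mulVec]
    simp only [Pi.add_apply, Pi.smul_apply, smul_eq_mul]
    ring
  have e5 : (Q *ᵥ (1 *ᵥ v + rr y *ᵥ v)) l = ∑ m, Q l m * ((1 + rr y) *ᵥ v) m := by
    rw [Matrix.add_mulVec]
    rfl
  have e6 : ∑ b, ∑ m, Λ b l m * (ex ζ (M : ℝ) y * (((M : ℂ) * ζ b) * ((1 + rr y) *ᵥ v) m +
      (pdm b rr y *ᵥ v) m)) = ex ζ (M : ℝ) y * ∑ b, ∑ m, Λ b l m *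
      (((M : ℂ) * ζ b) * ((1 + rr y) *ᵥ v) m + (pdm b rr y *ᵥ v) m) := by
    rw [Finset.mul_sum]
    refine Finset.sum_congr rfl fun b _ => ?_
    rw [Finset.mul_sum]
    refine Finset.sum_congr rfl fun m _ => ?_
    ring
  have e7 : ∑ m, Q l m * (ex ζ (M : ℝ) y * ((1 + rr y) *ᵥ v) m) =
      ex ζ (M : ℝ) y * ∑ m, Q l m * ((1 + rr y) *ᵥ v) m := by
    rw [Finset.mul_sum]
    refine Finset.sum_congr rfl fun m _ => ?_
    ring
  simp only [e4, e5] at h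
  rw [e6, e7, ← mul_add, ← mul_add]
  have h' : 2 * ((M : ℝ) : ℂ) * ∑ a, ζ a * (pdm a rr y *ᵥ v) l +
      ∑ a, (pdm a (pdm a rr) y *ᵥ v) l + ∑ b, ∑ m, Λ b l m *
      (((M : ℂ) * ζ b) * ((1 + rr y) *ᵥ v) m + (pdm b rr y *ᵥ v) m) +
      ∑ m, Q l m * ((1 + rr y) *ᵥ v) m = 0 := by
    rw [← h]
    push_cast
    ring
  rw [h', mul_zero]

end Vale.Agent.P088.H639.KC

namespace Vale.Agent.P088.H639.Kv

open Vale.Agent.P088.LR

variable {n : ℕ} {K : Set (V n)}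

theorem UBk.const_fam (hK : IsCompact K) {c : ℕ → ℂ} {C : ℝ} (hc : ∀ N, ‖c N‖ ≤ C) :
    ∀ {k : ℕ}, UBk k K fun N _ => c N
  | 0 => ⟨fun _ => contDiff_const, max C 1, lt_of_lt_of_le one_pos (le_max_right _ _),
      Eventually.of_forall fun N _ _ => (hc N).trans (le_max_left _ _)⟩
  | k + 1 => by
    refine ⟨UBk.const_fam hK hc, fun a => ?_⟩
    have e : (fun N => pd a fun _ : V n => c N) = fun _ _ => 0 := by
      funext N x
      unfold pd
      rw [fderiv_fun_const]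
      rfl
    rw [e]
    exact UBk.of_smooth hK contDiff_const

end Vale.Agent.P088.H639.Kv
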