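import Vale.Agent.P088.H639.KC4

/-!
# P088, theorem JB, row K_CON (5): geometry of the phase and the amplitudes
-/

open MeasureTheory Set Filter Topology
open scoped ContDiff Matrix

noncomputable section

namespace Vale.Agent.P088.H639.KC

open Vale.Agent.P088.LR Vale.Agent.P088.LR.B Vale.Agent.P088.LR.CF Vale.Agent.P088.LR.U
  Vale.Agent.P088.LR.H158 Vale.Agent.P088.H639.Kv Vale.Agent.P088.LR.K

variable {n N : ℕ}

theorem ze_sq {ν τ : V n} (h : OT ν τ) : ∑ j, ze ν (-τ) j ^ 2 = 0 := by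
  obtain ⟨hν, hτ, hντ⟩ := h
  have e : ∀ j, ze ν (-τ) j ^ 2 = ((ν j ^ 2 - τ j ^ 2 : ℝ) : ℂ) +
      ((-2 * (ν j * τ j) : ℝ) : ℂ) * Complex.I := by
    intro j
    unfold ze
    rw [Pi.neg_apply]
    push_cast
    linear_combination ((τ j : ℝ) : ℂ) ^ 2 * Complex.I_sq
  simp only [e, Finset.sum_add_distrib, ← Finset.sum_mul, ← Complex.ofReal_sum,
    Finset.sum_sub_distrib, ← Finset.mul_sum, hν, hτ, hντ]
  simp

section geo

variable {p ν τ : V n} {r : ℝ}

theorem S_p (h : OT ν τ) : S (fun j => p j - r * ν j) p = r ^ 2 := by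
  unfold S
  have : ∀ j, (p j - (p j - r * ν j)) ^ 2 = r ^ 2 * ν j ^ 2 := fun j => by ring
  simp only [this, ← Finset.mul_sum, h.1, mul_one]

theorem L_p (h : OT ν τ) : Lz (fun j => p j - r * ν j) (ze ν (-τ)) p = r := by
  unfold Lz
  have : ∀ j, ze ν (-τ) j * ((p j - (p j - r * ν j) : ℝ) : ℂ) = ((r * ν j ^ 2 : ℝ) : ℂ) -
      Complex.I * ((r * (ν j * τ j) : ℝ) : ℂ) := fun j => by
    unfold ze
    rw [Pi.neg_apply]
    push_cast
    ring
  simp only [this, Finset.sum_sub_distrib, ← Finset.mul_sum, ← Complex.ofReal_sum, h.1, h.2.2]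
  simp

theorem G_p (hr : 0 < r) (h : OT ν τ) (a : Fin n) :
    ze ν (-τ) a / (S (fun j => p j - r * ν j) p : ℂ) -
      2 * ((p a - (p a - r * ν a) : ℝ) : ℂ) * Lz (fun j => p j - r * ν j) (ze ν (-τ)) p /
        (S (fun j => p j - r * ν j) p : ℂ) ^ 2 = -((((r ^ 2)⁻¹ : ℝ) : ℂ) * ze ν τ a) := by
  rw [S_p h, L_p h]
  have hrc : (r : ℂ) ≠ 0 := by exact_mod_cast hr.ne'
  unfold ze
  rw [Pi.neg_apply]
  push_cast
  field_simp
  ring

theorem re_G (q x : V n) : (Lz q (ze ν (-τ)) x / (S q x : ℂ)).re =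
    (∑ j, ν j * (x j - q j)) / S q x := by
  rw [Complex.div_ofReal_re]
  congr 1
  unfold Lz
  rw [Complex.re_sum]
  refine Finset.sum_congr rfl fun j _ => ?_
  rw [Complex.re_mul_ofReal]
  unfold ze
  simp

theorem peakG {K : Set (V n)} (hr : 0 < r) (h : OT ν τ)
    (hball : ∀ x ∈ K, r ^ 2 + (∑ j, (x j - p j) ^ 2) / 2 ≤ S (fun j => p j - r * ν j) x) {x : V n}
    (hx : x ∈ K) (hne : x ≠ p) :
    (Lz (fun j => p j - r * ν j) (ze ν (-τ)) x / (S (fun j => p j - r * ν j) x : ℂ)).re <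
      (Lz (fun j => p j - r * ν j) (ze ν (-τ)) p / (S (fun j => p j - r * ν j) p : ℂ)).re := by
  rw [re_G, re_G, S_p h]
  have hTp : ∑ j, ν j * (p j - (p j - r * ν j)) = r := by
    have : ∀ j, ν j * (p j - (p j - r * ν j)) = r * ν j ^ 2 := fun j => by ring
    simp only [this, ← Finset.mul_sum, h.1, mul_one]
  rw [hTp]
  set q : V n := fun j => p j - r * ν j with hq
  have hSx : r ^ 2 < S q x := by
    have h1 := hball x hx
    have h2 : 0 < ∑ j, (x j - p j) ^ 2 := by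
      obtain ⟨j, hj⟩ := Function.ne_iff.mp hne
      refine Finset.sum_pos' (fun _ _ => sq_nonneg _) ⟨j, Finset.mem_univ j, ?_⟩
      have : x j - p j ≠ 0 := sub_ne_zero.mpr hj
      positivity
    linarith
  have hS0 : 0 < S q x := lt_trans (by positivity) hSx
  have hT : (∑ j, ν j * (x j - q j)) ^ 2 ≤ S q x := by
    have := Finset.sum_mul_sq_le_sq_mul_sq Finset.univ ν (fun j => x j - q j)
    rw [h.1, one_mul] at this
    exact this
  have hlt : r * (∑ j, ν j * (x j - q j)) < S q x := by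
    refine lt_of_pow_lt_pow_left₀ 2 hS0.le ?_
    have h3 : (r * ∑ j, ν j * (x j - q j)) ^ 2 ≤ r ^ 2 * S q x := by
      rw [mul_pow]
      exact mul_le_mul_of_nonneg_left hT (by positivity)
    have h4 : r ^ 2 * S q x < S q x ^ 2 := by
      rw [pow_two (S q x)]
      exact mul_lt_mul_of_pos_right hSx hS0
    linarith
  rw [div_lt_div_iff₀ hS0 (by positivity)]
  have h6 : (∑ j, ν j * (x j - q j)) * r ^ 2 = r * (r * (∑ j, ν j * (x j - q j))) := by ring
  rw [h6]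
  exact mul_lt_mul_of_pos_left hlt hr

end geo

/-- Cutting off at the centre, real functions. -/
theorem cut_real (q : V n) {r : ℝ} (hr : 0 < r) {f : V n → ℝ}
    (hf : ∀ x, 0 < S q x → ContDiffAt ℝ ∞ f x) :
    ContDiff ℝ ∞ fun x => chi q r x * f x := by
  rw [contDiff_iff_contDiffAt]
  intro x
  rcases lt_or_ge 0 (S q x) with h | h
  · exact (chi_contDiff q r).contDiffAt.mul (hf x h)
  · have h2 : (fun x => chi q r x * f x) =ᶠ[𝓝 x] fun _ => 0 := by
      filter_upwards [chi_zero_ev hr h] with y hy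
      rw [hy]
      simp
    exact contDiffAt_const.congr_of_eventuallyEq h2

/-- The cut off inversion. -/
def Tc (q : V n) (r : ℝ) (x : V n) : V n := fun b => chi q r x * Yv q x b

theorem Tc_contDiff (q : V n) {r : ℝ} (hr : 0 < r) : ContDiff ℝ ∞ (Tc q r) := by
  rw [contDiff_pi]
  intro b
  exact cut_real q hr fun x hx => contDiffAt_pi.mp (Y_contDiffAt q hx) b

theorem Tc_ev (q : V n) {r : ℝ} (hr : 0 < r) {x : V n} (hx : r ^ 2 ≤ S q x) :
    Tc q r =ᶠ[𝓝 x] Yv q := by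
  filter_upwards [chi_one_ev hr hx] with y hy
  funext b
  unfold Tc
  rw [hy, one_mul]

/-- The cut off phase. -/
def Gc (q : V n) (ζ : Fin n → ℂ) (r : ℝ) (x : V n) : ℂ :=
  (chi q r x : ℂ) * (Lz q ζ x / (S q x : ℂ))

/-- The cut off power. -/
def Pc (q : V n) (r : ℝ) (x : V n) : ℂ := (chi q r x : ℂ) * ((S q x ^ al n : ℝ) : ℂ)

theorem Gc_contDiff (q : V n) (ζ : Fin n → ℂ) {r : ℝ} (hr : 0 < r) : ContDiff ℝ ∞ (Gc q ζ r) :=
  cut_contDiff q hr fun _ hx => G_contDiffAt q ζ hx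

theorem Pc_contDiff (q : V n) {r : ℝ} (hr : 0 < r) : ContDiff ℝ ∞ (Pc q r) :=
  cut_contDiff q hr fun _ hx => P_contDiffAt q hx _

theorem pd_Gc {p ν τ : V n} {r : ℝ} (hr : 0 < r) (h : OT ν τ) (a : Fin n) :
    pd a (Gc (fun j => p j - r * ν j) (ze ν (-τ)) r) p = -((((r ^ 2)⁻¹ : ℝ) : ℂ) * ze ν τ a) := by
  have hS : r ^ 2 ≤ S (fun j => p j - r * ν j) p := (S_p h).ge
  have hS0 : 0 < S (fun j => p j - r * ν j) p := lt_of_lt_of_le (by positivity) hS
  have h1 : pd a (Gc (fun j => p j - r * ν j) (ze ν (-τ)) r) p =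
      pd a (fun x => Lz (fun j => p j - r * ν j) (ze ν (-τ)) x /
        (S (fun j => p j - r * ν j) x : ℂ)) p := by
    have h2 : Gc (fun j => p j - r * ν j) (ze ν (-τ)) r =ᶠ[𝓝 p]
        fun x => Lz (fun j => p j - r * ν j) (ze ν (-τ)) x /
        (S (fun j => p j - r * ν j) x : ℂ) := cut_ev _ hr _ hS
    unfold pd
    rw [h2.fderiv_eq]
  rw [h1, pd_line ((G_contDiffAt _ _ hS0).differentiableAt (by simp)) (line_G _ _ hS0 a)]
  exact G_p hr h a

/-- The amplitudes. -/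
theorem ubk_B {R : ℝ} {rr : ℕ → MC n N} (hs : ∀ M, SmC (rr M))
    (h0 : ∀ M x, ‖x‖ ≤ R → ∀ α β, ‖rr M x α β‖ ≤ 1)
    (h1 : ∀ M x, ‖x‖ ≤ R → ∀ α β i, ‖pdm i (rr M) x α β‖ ≤ 1)
    (h2 : ∀ M x, ‖x‖ ≤ R → ∀ α β i j, ‖pdm i (pdm j (rr M)) x α β‖ ≤ 1)
    {v : ℕ → Fin N → ℂ} {C : ℝ} (hv : ∀ M i, ‖v M i‖ ≤ C) (l : Fin N) :
    UBk 2 (Metric.closedBall (0 : V n) R) fun M y => ((1 + rr M y) *ᵥ v M) l := by
  have hK : IsCompact (Metric.closedBall (0 : V n) R) := isCompact_closedBall 0 R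
  have key : ∀ l β, UBk 2 (Metric.closedBall (0 : V n) R) fun M y => rr M y l β := by
    intro l β
    have sm : ∀ M, ContDiff ℝ ∞ fun y => rr M y l β := fun M => hs M l β
    have b0 : UBk 0 (Metric.closedBall (0 : V n) R) fun M y => rr M y l β :=
      ⟨sm, 1, one_pos, Eventually.of_forall fun M x hx => h0 M x (by simpa using hx) l β⟩
    have b1 : ∀ j, UBk 0 (Metric.closedBall (0 : V n) R) fun M => pd j fun y => rr M y l β :=
      fun j => ⟨fun M => pd_smooth (sm M) j, 1, one_pos,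
        Eventually.of_forall fun M x hx => h1 M x (by simpa using hx) l β j⟩
    have b2 : ∀ i j, UBk 0 (Metric.closedBall (0 : V n) R)
        fun M => pd i (pd j fun y => rr M y l β) :=
      fun i j => ⟨fun M => pd_smooth (pd_smooth (sm M) j) i, 1, one_pos,
        Eventually.of_forall fun M x hx => h2 M x (by simpa using hx) l β i j⟩
    exact ⟨⟨b0, b1⟩, fun j => ⟨b1 j, fun i => b2 i j⟩⟩
  have e : (fun (M : ℕ) (y : V n) => ((1 + rr M y) *ᵥ v M) l) =
      fun M y => ∑ β, ((1 : Matrix (Fin N) (Fin N) ℂ) l β + rr M y l β) * v M β := rfl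
  rw [e]
  exact UBk.sum hK Finset.univ fun β _ =>
    ((UBk.of_smooth hK contDiff_const).add (key l β)).mul (UBk.const_fam hK fun M => hv M β)

end Vale.Agent.P088.H639.KC
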