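import Vale.Agent.P088.H639.KC5

/-!
# P088, theorem JB, row K_CON (6): assembly
-/

open MeasureTheory Set Filter Topology
open scoped ContDiff Matrix

noncomputable section

namespace Vale.Agent.P088.H639.KC

open Vale.Agent.P088.LR Vale.Agent.P088.LR.B Vale.Agent.P088.LR.CF Vale.Agent.P088.LR.U
  Vale.Agent.P088.LR.H158 Vale.Agent.P088.H639.Kv Vale.Agent.P088.LR.K

variable {n N : ℕ}

theorem rescale {Z : ℕ → ℝ} {I : ℕ → ℂ} {L : ℂ}
    (h : Tendsto (fun M => ((Z M : ℝ) : ℂ)⁻¹ * I M) atTop (𝓝 L)) (κ : ℝ) :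
    Tendsto (fun M => ((Z M * κ : ℝ) : ℂ)⁻¹ * I M) atTop (𝓝 (((κ : ℝ) : ℂ)⁻¹ * L)) := by
  refine (h.const_mul ((κ : ℝ) : ℂ)⁻¹).congr fun M => ?_
  rw [Complex.ofReal_mul, mul_inv]
  ring

/-- The conclusion of `RowCON` for one boundary point, from the remainders. -/
theorem con_pt {ρ : V n → ℝ} (hD : Dom ρ) {p ν τ : V n} (hp : ρ p = 0) (hOT : OT ν τ)
    (hc : ∃ c > 0, ∀ i, pd i ρ p = c * ν i) {r : ℝ} (hr : 0 < r)
    (hb : Bornology.IsBounded (Om ρ))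
    (hball : ∀ x ∈ closure (Om ρ), r ^ 2 + (∑ j, (x j - p j) ^ 2) / 2 ≤
      S (fun j => p j - r * ν j) x) (σ : V n → ℝ) (A₁ : Cn n N) (hσ : SmP σ) (hA : SmU A₁)
    (hEq : RowEq) {rr : ℕ → MC n N} (hs : ∀ M, SmC (rr M)) {m : ℕ → ℕ}
    (hm : Tendsto m atTop atTop) (hm0 : ∀ M, 0 < m M)
    (hid : ∀ M, ∀ x ∈ Om ρ, ∑ j, pdm j (pdm j (rr M)) (Yv (fun j => p j - r * ν j) x) +
      (2 * (m M : ℂ)) • ∑ j, ze ν (-τ) j • pdm j (rr M) (Yv (fun j => p j - r * ν j) x) +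
      ∑ j, Lx σ A₁ (fun j => p j - r * ν j) j x *
        (pdm j (rr M) (Yv (fun j => p j - r * ν j) x) +
          ((m M : ℂ) * ze ν (-τ) j) • (1 + rr M (Yv (fun j => p j - r * ν j) x))) +
      Qx σ A₁ (fun j => p j - r * ν j) x * (1 + rr M (Yv (fun j => p j - r * ν j) x)) = 0)
    (h0 : ∀ M x, ‖x‖ ≤ 1 / r → ∀ α β, ‖rr M x α β‖ ≤ 1 / (4 * (N + 1)))
    (h1 : ∀ M x, ‖x‖ ≤ 1 / r → ∀ α β i, ‖pdm i (rr M) x α β‖ ≤ 1)
    (h2 : ∀ M x, ‖x‖ ≤ 1 / r → ∀ α β i j, ‖pdm i (pdm j (rr M)) x α β‖ ≤ 1)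
    (η : Fin N → ℂ) :
    ∃ u : ℕ → V n → Fin N → ℂ, (∀ M, ContDiff ℝ ∞ (u M)) ∧
    (∀ M, ∀ x ∈ Om ρ, lav (sc σ) A₁ (u M) x = 0) ∧
    ∀ j : ℕ, ∃ Z : ℕ → ℝ, (∀ M, 0 < Z M) ∧ ∀ F : V n → ℂ, ContinuousOn F (closure (Om ρ)) →
      ∀ l l' : Fin N,
      (∀ a b, Tendsto (fun M => ((Z M : ℝ) : ℂ)⁻¹ * ∫ x in Om ρ, ((ρ x ^ j : ℝ) : ℂ) * F x *
        (pd a (u M) x l * star (pd b (u M) x l'))) atTop
        (𝓝 (F p * (ze ν τ a * star (ze ν τ b)) * (η l * star (η l'))))) ∧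
      (∀ a b, Tendsto (fun M => ((Z M : ℝ) : ℂ)⁻¹ * ∫ x in Om ρ, ((ρ x ^ j : ℝ) : ℂ) * F x *
        (pd a (fun y => pd b (u M) y) x l * star (u M x l'))) atTop
        (𝓝 (F p * (ze ν τ a * ze ν τ b) * (η l * star (η l'))))) ∧
      (∀ a, Tendsto (fun M => ((Z M : ℝ) : ℂ)⁻¹ * ∫ x in Om ρ, ((ρ x ^ j : ℝ) : ℂ) * F x *
        (pd a (u M) x l * star (u M x l'))) atTop (𝓝 0)) ∧
      Tendsto (fun M => ((Z M : ℝ) : ℂ)⁻¹ * ∫ x in Om ρ, ((ρ x ^ j : ℝ) : ℂ) * F x *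
        (u M x l * star (u M x l'))) atTop (𝓝 0) := by
  set q : V n := fun j => p j - r * ν j with hq
  have hcl : p ∈ closure (Om ρ) := mem_cl hD.sm rfl hp hOT.1 hc
  have hK : IsCompact (closure (Om ρ)) := hb.isCompact_closure
  have hO : IsOpen (Om ρ) := isOpen_lt continuous_const hD.sm.continuous
  have hS : ∀ x ∈ closure (Om ρ), r ^ 2 ≤ S q x := fun x hx => by
    have h1 := hball x hx
    have h2 : 0 ≤ ∑ j, (x j - p j) ^ 2 := Finset.sum_nonneg fun _ _ => sq_nonneg _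
    linarith
  have hS0 : ∀ x ∈ closure (Om ρ), 0 < S q x := fun x hx => lt_of_lt_of_le (by positivity) (hS x hx)
  have hY : ∀ x ∈ closure (Om ρ), ‖Yv q x‖ ≤ 1 / r := fun x hx => norm_Y hr (hS x hx)
  have hT : ∀ x ∈ closure (Om ρ), Tc q r x = Yv q x := fun x hx =>
    (Tc_ev q hr (hS x hx)).eq_of_nhds
  have hTn : ∀ x ∈ closure (Om ρ), ‖Tc q r x‖ ≤ 1 / r := fun x hx => by
    rw [hT x hx]
    exact hY x hx
  choose v hv hvb using fun M => inv_bd (h0 M (Yv q p) (hY p hcl)) η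
  have h0' : ∀ M x, ‖x‖ ≤ 1 / r → ∀ α β, ‖rr M x α β‖ ≤ 1 := fun M x hx α β => by
    refine (h0 M x hx α β).trans ?_
    rw [div_le_one (by positivity)]
    have : (0 : ℝ) ≤ N := Nat.cast_nonneg N
    linarith
  have hB : ∀ l, UBk 2 (Metric.closedBall (0 : V n) (1 / r))
      fun M y => ((1 + rr M y) *ᵥ v M) l := fun l => ubk_B hs h0' h1 h2 hvb l
  have hTc : ContDiff ℝ ∞ (Tc q r) := Tc_contDiff q hr
  have hP : ContDiff ℝ ∞ (Pc q r) := Pc_contDiff q hr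
  have hG : ContDiff ℝ ∞ (Gc q (ze ν (-τ)) r) := Gc_contDiff q _ hr
  set E : ℕ → Fin N → V n → ℂ := fun M l x =>
    Pc q r x * ((1 + rr M (Tc q r x)) *ᵥ v M) l with hE
  have hE2 : ∀ l, UBk 2 (closure (Om ρ)) fun M => E M l := fun l =>
    (UBk.of_smooth hK hP).mul (UBk.comp hK hTc (fun x hx => by
      simpa using hTn x hx) (hB l))
  have hA2 : ∀ l, Am (closure (Om ρ)) p (fun M => E M l) (Pc q r p * η l) := fun l => by
    refine (Am.of_cont hP.continuous.continuousOn).mul hK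
      (Am.of_lip (B := fun M y => ((1 + rr M y) *ᵥ v M) l) hTc.continuous hTn hcl (hB l).1
        (Eventually.of_forall fun M => ?_))
    show ((1 + rr M (Tc q r p)) *ᵥ v M) l = η l
    rw [hT p hcl, hv M]
  set u : ℕ → V n → Fin N → ℂ := fun M x l =>
    Complex.exp (((m M : ℝ) : ℂ) * Gc q (ze ν (-τ)) r x) * E M l x with hu
  have hus : ∀ M, ContDiff ℝ ∞ (u M) := fun M => by
    rw [contDiff_pi]
    intro l
    exact (Complex.contDiff_exp.comp (contDiff_const.mul hG)).mul ((hE2 l).sm M)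
  refine ⟨u, hus, fun M x hx => ?_, fun j => ?_⟩
  · -- the equation
    have hx' := subset_closure hx
    have hSx := hS0 x hx'
    have hW : ∀ l, ContDiff ℝ ∞ fun y => ex (ze ν (-τ)) (m M : ℝ) y *
        ((1 + rr M y) *ᵥ v M) l := fun l =>
      (ex_contDiff _ _).mul ((hB l).sm M)
    have hev : ∀ l, (fun y => u M y l) =ᶠ[𝓝 x] KT q fun y => ex (ze ν (-τ)) (m M : ℝ) y *
        ((1 + rr M y) *ᵥ v M) l := by
      intro l
      filter_upwards [Tc_ev q hr (hS x hx'), chi_one_ev hr (hS x hx')] with y hy1 hy2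
      simp only [hu, hE, KT]
      rw [hy1, ex_Y]
      unfold Gc Pc Ex
      rw [hy2]
      push_cast
      ring
    funext l
    rw [hEq σ A₁ hσ hA q _ hW (u M) (hus M) x hSx hev l,
      alg (hs M) (v M) (ze_sq hOT) (m M) (Yv q x) (fun b => Lx σ A₁ q b x) (Qx σ A₁ q x)
        (hid M x hx) l, mul_zero]
    rfl
  · -- the limits
    have hGp : ∀ x ∈ closure (Om ρ), Gc q (ze ν (-τ)) r x =
        Lz q (ze ν (-τ)) x / (S q x : ℂ) := fun x hx => by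
      unfold Gc
      rw [chi_one hr (hS x hx)]
      simp
    have hpk : ∀ y ∈ closure (Om ρ), y ≠ p →
        (Gc q (ze ν (-τ)) r y).re < (Gc q (ze ν (-τ)) r p).re := fun y hy hne => by
      rw [hGp y hy, hGp p hcl]
      exact peakG hr hOT hball hy hne
    obtain ⟨Z, hZ, hlim⟩ := concK hO hb hcl hG hpk hm hm0 hE2 hA2 (U := u)
      (fun M => rfl) (w := fun x => ρ x ^ j) (hD.sm.continuous.pow j)
      (fun x hx => pow_pos hx j)
    have hPp : Pc q r p = (((r ^ 2) ^ al n : ℝ) : ℂ) := by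
      unfold Pc
      rw [chi_one hr (hS p hcl), S_p hOT]
      simp
    have hr2 : 0 < r ^ 2 := by positivity
    set P0 : ℝ := (r ^ 2) ^ al n with hP0
    have hP0p : 0 < P0 := Real.rpow_pos_of_pos hr2 _
    set κ : ℝ := ((r ^ 2)⁻¹ * P0) ^ 2 with hκ
    have hκ0 : 0 < κ := by positivity
    have hκc : ((κ : ℝ) : ℂ) ≠ 0 := by exact_mod_cast hκ0.ne'
    refine ⟨fun M => Z M * κ, fun M => mul_pos (hZ M) hκ0, fun F hF l l' => ?_⟩
    obtain ⟨L1, L2, L3, L4⟩ := hlim F hF l l'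
    refine ⟨fun a b => ?_, fun a b => ?_, fun a => ?_, ?_⟩
    · have h := rescale (L1 a b) κ
      have e : ((κ : ℝ) : ℂ)⁻¹ * (F p * (pd a (Gc q (ze ν (-τ)) r) p *
          star (pd b (Gc q (ze ν (-τ)) r) p)) * (Pc q r p * η l * star (Pc q r p * η l'))) =
          F p * (ze ν τ a * star (ze ν τ b)) * (η l * star (η l')) := by
        rw [pd_Gc hr hOT a, pd_Gc hr hOT b, hPp]
        simp only [RCLike.star_def, map_mul, map_neg, Complex.conj_ofReal]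
        rw [inv_mul_eq_iff_eq_mul₀ hκc, hκ]
        push_cast
        ring
      rw [e] at h
      exact h
    · have h := rescale (L2 a b) κ
      have e : ((κ : ℝ) : ℂ)⁻¹ * (F p * (pd a (Gc q (ze ν (-τ)) r) p *
          pd b (Gc q (ze ν (-τ)) r) p) * (Pc q r p * η l * star (Pc q r p * η l'))) =
          F p * (ze ν τ a * ze ν τ b) * (η l * star (η l')) := by
        rw [pd_Gc hr hOT a, pd_Gc hr hOT b, hPp]
        simp only [RCLike.star_def, map_mul, Complex.conj_ofReal]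
        rw [inv_mul_eq_iff_eq_mul₀ hκc, hκ]
        push_cast
        ring
      rw [e] at h
      exact h
    · have h := rescale (L3 a) κ
      rw [mul_zero] at h
      exact h
    · have h := rescale L4 κ
      rw [mul_zero] at h
      exact h

end Vale.Agent.P088.H639.KC
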