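import Vale.Agent.P088.H639.KC6

/-!
# P088, theorem JB, row K_CON
-/

open MeasureTheory Set Filter Topology
open scoped ContDiff Matrix

noncomputable section

namespace Vale.Agent.P088.H639.KC

open Vale.Agent.P088.LR Vale.Agent.P088.LR.B Vale.Agent.P088.LR.CF Vale.Agent.P088.LR.U
  Vale.Agent.P088.LR.H158 Vale.Agent.P088.H639.Kv Vale.Agent.P088.LR.K

variable {n N : ℕ}

theorem core_bd {ρ : V n → ℝ} (hD : Dom ρ) {x : V n} (hx : ρ x ≠ -1) (i : Fin n) : |x i| ≤ 1 := by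
  have h1 : x ∈ core n := by
    by_contra h2
    exact hx (hD.off x h2)
  have h5 := h1 i
  rw [abs_le]
  constructor <;> linarith [h5.1, h5.2]

theorem cl_ge {ρ : V n → ℝ} (hD : Dom ρ) {x : V n} (hx : x ∈ closure (Om ρ)) : 0 ≤ ρ x := by
  have : closure (Om ρ) ⊆ {x | 0 ≤ ρ x} :=
    closure_minimal (fun y (hy : 0 < ρ y) => (hy.le : 0 ≤ ρ y))
      (isClosed_le continuous_const hD.sm.continuous)
  exact this hx

/-- **Row K_CON** from the row K_CG and the three sub-rows. -/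
theorem con_of (hCG : K.RowCG) (hBall : RowBall) (hSm : RowSm) (hEq : RowEq) : K.RowCON := by
  intro n N ρ hn hD
  obtain ⟨r, hr, hball⟩ := hBall ρ hD
  have hB : (0 : ℝ) < n * (2 + r) ^ 2 + 1 := by positivity
  obtain ⟨k, ε, hε, hcg⟩ := hCG n N (1 / r)
  obtain ⟨k', δ, hδ, hsm⟩ := hSm n N r (n * (2 + r) ^ 2 + 1) hr hB k ε hε
  refine ⟨k', δ, hδ, ?_⟩
  intro σ A₁ hσ hσ1 hA hA1 p hp ν τ hOT hc η
  obtain ⟨Λ, Q, hΛs, hQs, hΛ, hQ, hΛQ⟩ := hsm σ A₁ hσ hσ1 hA hA1 (fun j => p j - r * ν j)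
  have hOT' : OT ν (-τ) := ⟨hOT.1, by simpa using hOT.2.1, by simpa using hOT.2.2⟩
  obtain ⟨rr, hrs, hrr⟩ := hcg ν (-τ) hOT' Λ Q hΛs hQs hΛ hQ
  obtain ⟨N₀, hN₀⟩ := eventually_atTop.mp hrr
  have hb : Bornology.IsBounded (Om ρ) := by
    refine (Metric.isBounded_closedBall (x := (0 : V n)) (r := 1)).subset fun x hx => ?_
    rw [mem_closedBall_zero_iff, pi_norm_le_iff_of_nonneg zero_le_one]
    intro i
    rw [Real.norm_eq_abs]
    have h4 : 0 < ρ x := hx
    exact core_bd hD (by linarith) i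
  have hbp := hball p hp ν hOT.1 hc
  have hm : ∀ M : ℕ, N₀ ≤ M + (N₀ + 1) := fun M => by omega
  have hSr : ∀ x ∈ closure (Om ρ), r ^ 2 ≤ S (fun j => p j - r * ν j) x := fun x hx => by
    have h1 := hbp x hx
    have h2 : 0 ≤ ∑ j, (x j - p j) ^ 2 := Finset.sum_nonneg fun _ _ => sq_nonneg _
    linarith
  have hSB : ∀ x ∈ closure (Om ρ), S (fun j => p j - r * ν j) x ≤ n * (2 + r) ^ 2 + 1 := by
    intro x hx
    have h1 := cl_ge hD hx
    have h2 : ∀ j, (x j - (p j - r * ν j)) ^ 2 ≤ (2 + r) ^ 2 := by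
      intro j
      have a1 := abs_le.mp (core_bd hD (by linarith : ρ x ≠ -1) j)
      have a2 := abs_le.mp (core_bd hD (by rw [hp]; norm_num : ρ p ≠ -1) j)
      have a3 : ν j ^ 2 ≤ 1 := by
        rw [← hOT.1]
        exact Finset.single_le_sum (f := fun j => ν j ^ 2) (fun _ _ => sq_nonneg _)
          (Finset.mem_univ j)
      have a4 := abs_le.mp (abs_le_one_iff_mul_self_le_one.mpr (by nlinarith : ν j * ν j ≤ 1))
      have a5 : r * ν j ≤ r := by nlinarith [a4.2]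
      have a6 : -r ≤ r * ν j := by nlinarith [a4.1]
      apply sq_le_sq'
      · linarith [a1.1, a2.2]
      · linarith [a1.2, a2.1]
    have h3 : S (fun j => p j - r * ν j) x ≤ ∑ _j : Fin n, (2 + r) ^ 2 :=
      Finset.sum_le_sum fun j _ => h2 j
    rw [Finset.sum_const, Finset.card_univ, Fintype.card_fin, nsmul_eq_mul] at h3
    linarith
  refine con_pt hD hp hOT hc hr hb hbp σ A₁ hσ hA hEq (rr := fun M => rr (M + (N₀ + 1)))
    (fun M => hrs _) (m := fun M => M + (N₀ + 1)) (tendsto_add_atTop_nat _)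
    (fun M => Nat.succ_pos _) (fun M x hx => ?_) (fun M x hx α β => ?_)
    (fun M x hx α β i => ?_) (fun M x hx α β i j => ?_) η
  · have hx' := subset_closure hx
    obtain ⟨e1, e2⟩ := hΛQ x (hSr x hx') (hSB x hx')
    have h := (hN₀ _ (hm M)).1 (Yv (fun j => p j - r * ν j) x) (norm_Y hr (hSr x hx'))
    rw [e2] at h
    simp only [e1] at h
    exact h
  · exact ((hN₀ _ (hm M)).2 x hx α β).1
  · exact ((hN₀ _ (hm M)).2 x hx α β).2.1 i
  · exact ((hN₀ _ (hm M)).2 x hx α β).2.2 i j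

end Vale.Agent.P088.H639.KC
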