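import Vale.Agent.P088.H639.KCon
import Vale.Agent.P088.H27.KCG

/-!
# P088, theorem JB, row K_CON without hypothesis
-/

namespace Vale.Agent.P088.H639.KC

/-- **Row K_CON.** -/
theorem rowCONK : Vale.Agent.P088.LR.K.RowCON := conK Vale.Agent.P088.LR.H27.rowCG

end Vale.Agent.P088.H639.KC
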