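import Vale.Agent.P088.H639.KConF
import Vale.Agent.P088.H72.K.All

/-!
# P088, theorem JB
-/

namespace Vale.Agent.P088.H639.KC

/-- **Theorem JB.** -/
theorem finJ : Vale.Agent.P088.LR.K.FinJ := Vale.Agent.P088.LR.K.finJ_of_con rowCONK

end Vale.Agent.P088.H639.KC
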