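import Vale.Agent.P088.H639.Conc

/-!
# P088, stage 2 with a conformally flat base: the Kelvin transform of a general function
-/

open MeasureTheory Set Filter Topology
open scoped ContDiff

noncomputable section

namespace Vale.Agent.P088.H639.Kv

open Vale.Agent.P088.LR

variable {n : ℕ}

/-- The inversion about `q`. -/
def Yv (q x : V n) : V n := fun b => (x b - q b) / S q x

/-- The Kelvin transform of `w`. -/
def KT (q : V n) (w : V n → ℂ) (x : V n) : ℂ := ((S q x ^ al n : ℝ) : ℂ) * w (Yv q x)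

/-- `∑_b (x_b - q_b) ∂_b w (y)`. -/
def Tt (q : V n) (w : V n → ℂ) (x : V n) : ℂ := ∑ b, ((x b - q b : ℝ) : ℂ) * pd b w (Yv q x)

theorem fderiv_sumC (w : V n → ℂ) (y v : V n) : fderiv ℝ w y v = ∑ i, (v i : ℂ) * pd i w y := by
  conv_lhs => rw [H639.vec_sum v]
  rw [map_sum]
  simp only [map_smul, Complex.real_smul]
  rfl

theorem pd_smooth {w : V n → ℂ} (hw : ContDiff ℝ ∞ w) (a : Fin n) : ContDiff ℝ ∞ (pd a w) := by
  unfold pd
  exact (hw.fderiv_right (by simp)).clm_apply contDiff_const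

theorem line_Y (q : V n) {x : V n} (hx : 0 < S q x) (a : Fin n) :
    HasDerivAt (fun t : ℝ => Yv q (x + t • (Pi.single a (1 : ℝ) : V n)))
      (fun b => (if b = a then 1 else 0) / S q x - 2 * (x a - q a) * (x b - q b) / S q x ^ 2) 0 := by
  have h0 : x + (0 : ℝ) • (Pi.single a (1 : ℝ) : V n) = x := by simp
  rw [hasDerivAt_pi]
  intro b
  have h := (line_X q x a b).fun_div (line_S q x a) (by rw [h0]; exact hx.ne')
  rw [h0] at h
  refine h.congr_deriv ?_
  have := hx.ne'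
  field_simp

theorem line_W (q : V n) {w : V n → ℂ} (hw : ContDiff ℝ ∞ w) {x : V n} (hx : 0 < S q x)
    (a : Fin n) :
    HasDerivAt (fun t : ℝ => w (Yv q (x + t • (Pi.single a (1 : ℝ) : V n))))
      (pd a w (Yv q x) / (S q x : ℂ) - 2 * ((x a - q a : ℝ) : ℂ) * Tt q w x / (S q x : ℂ) ^ 2)
      0 := by
  have h0 : x + (0 : ℝ) • (Pi.single a (1 : ℝ) : V n) = x := by simp
  have h1 : HasFDerivAt w (fderiv ℝ w (Yv q x))
      (Yv q (x + (0 : ℝ) • (Pi.single a (1 : ℝ) : V n))) := by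
    rw [h0]
    exact ((hw.differentiable (by simp)) _).hasFDerivAt
  have h := h1.comp_hasDerivAt (0 : ℝ) (line_Y q hx a)
  refine HasDerivAt.congr_deriv h ?_
  rw [fderiv_sumC]
  have e : ∀ i, ((((if i = a then 1 else 0) / S q x - 2 * (x a - q a) * (x i - q i) / S q x ^ 2 :
      ℝ)) : ℂ) * pd i w (Yv q x) = (if i = a then pd i w (Yv q x) / (S q x : ℂ) else 0) -
      2 * ((x a - q a : ℝ) : ℂ) / (S q x : ℂ) ^ 2 *
        (((x i - q i : ℝ) : ℂ) * pd i w (Yv q x)) := by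
    intro i
    split_ifs
    · push_cast
      ring
    · push_cast
      ring
  simp only [e, Finset.sum_sub_distrib, ← Finset.mul_sum, Finset.sum_ite_eq', Finset.mem_univ,
    if_true]
  unfold Tt
  ring

theorem Y_contDiffAt (q : V n) {x : V n} (hx : 0 < S q x) : ContDiffAt ℝ ∞ (Yv q) x := by
  rw [contDiffAt_pi]
  intro b
  unfold Yv
  simp only [div_eq_mul_inv]
  refine ContDiffAt.mul ?_ ((S_contDiff q).contDiffAt.inv hx.ne')
  fun_prop

theorem K_contDiffAt (q : V n) {w : V n → ℂ} (hw : ContDiff ℝ ∞ w) {x : V n} (hx : 0 < S q x) :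
    ContDiffAt ℝ ∞ (KT q w) x := by
  unfold KT
  exact (P_contDiffAt q hx _).mul (hw.contDiffAt.comp x (Y_contDiffAt q hx))

theorem T_contDiffAt (q : V n) {w : V n → ℂ} (hw : ContDiff ℝ ∞ w) {x : V n} (hx : 0 < S q x) :
    ContDiffAt ℝ ∞ (Tt q w) x := by
  unfold Tt
  refine ContDiffAt.sum fun b _ => ?_
  exact (X_contDiff q b).contDiffAt.mul
    ((pd_smooth hw b).contDiffAt.comp x (Y_contDiffAt q hx))

/-- The bracket of the gradient. -/
def Rr (q : V n) (w : V n → ℂ) (a : Fin n) (x : V n) : ℂ :=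
  (2 * (al n : ℂ) * ((x a - q a : ℝ) : ℂ) * w (Yv q x) + pd a w (Yv q x)) / (S q x : ℂ) -
    2 * ((x a - q a : ℝ) : ℂ) * Tt q w x / (S q x : ℂ) ^ 2

theorem R_contDiffAt (q : V n) {w : V n → ℂ} (hw : ContDiff ℝ ∞ w) {x : V n} (hx : 0 < S q x)
    (a : Fin n) : ContDiffAt ℝ ∞ (Rr q w a) x := by
  have hS : (S q x : ℂ) ≠ 0 := by exact_mod_cast hx.ne'
  have hY := Y_contDiffAt q hx
  unfold Rr
  simp only [div_eq_mul_inv]
  refine ContDiffAt.sub (ContDiffAt.mul (ContDiffAt.add ?_ ?_) ?_) (ContDiffAt.mul ?_ ?_)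
  · exact (contDiffAt_const.mul (X_contDiff q a).contDiffAt).mul (hw.contDiffAt.comp x hY)
  · exact (pd_smooth hw a).contDiffAt.comp x hY
  · exact (Sc_contDiff q).contDiffAt.inv hS
  · exact (contDiffAt_const.mul (X_contDiff q a).contDiffAt).mul (T_contDiffAt q hw hx)
  · exact ((Sc_contDiff q).contDiffAt.pow 2).inv (pow_ne_zero 2 hS)

theorem line_K (q : V n) {w : V n → ℂ} (hw : ContDiff ℝ ∞ w) {x : V n} (hx : 0 < S q x)
    (a : Fin n) :
    HasDerivAt (fun t : ℝ => KT q w (x + t • (Pi.single a (1 : ℝ) : V n)))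
      (((S q x ^ al n : ℝ) : ℂ) * Rr q w a x) 0 := by
  have h0 : x + (0 : ℝ) • (Pi.single a (1 : ℝ) : V n) = x := by simp
  have hS : (S q x : ℂ) ≠ 0 := by exact_mod_cast hx.ne'
  have h := (line_P q hx a (al n)).fun_mul (line_W q hw hx a)
  refine HasDerivAt.congr_deriv h ?_
  simp only [h0]
  unfold Rr
  rw [Real.rpow_sub_one hx.ne']
  push_cast
  field_simp
  ring

theorem pd_K (q : V n) {w : V n → ℂ} (hw : ContDiff ℝ ∞ w) {x : V n} (hx : 0 < S q x)
    (a : Fin n) : pd a (KT q w) x = ((S q x ^ al n : ℝ) : ℂ) * Rr q w a x :=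
  pd_line ((K_contDiffAt q hw hx).differentiableAt (by simp)) (line_K q hw hx a)

theorem line_T (q : V n) {w : V n → ℂ} (hw : ContDiff ℝ ∞ w) {x : V n} (hx : 0 < S q x)
    (a : Fin n) :
    HasDerivAt (fun t : ℝ => Tt q w (x + t • (Pi.single a (1 : ℝ) : V n)))
      (pd a w (Yv q x) + ((∑ b, ((x b - q b : ℝ) : ℂ) * pd a (pd b w) (Yv q x)) / (S q x : ℂ) -
        2 * ((x a - q a : ℝ) : ℂ) * (∑ b, ((x b - q b : ℝ) : ℂ) * Tt q (pd b w) x) /
          (S q x : ℂ) ^ 2)) 0 := by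
  have h0 : x + (0 : ℝ) • (Pi.single a (1 : ℝ) : V n) = x := by simp
  unfold Tt
  have h : HasDerivAt (fun t : ℝ => ∑ b, ((((x + t • (Pi.single a (1 : ℝ) : V n)) b - q b : ℝ)) : ℂ)
      * pd b w (Yv q (x + t • (Pi.single a (1 : ℝ) : V n))))
      (∑ b, ((((if b = a then 1 else 0 : ℝ)) : ℂ) * pd b w (Yv q x) + ((x b - q b : ℝ) : ℂ) *
        (pd a (pd b w) (Yv q x) / (S q x : ℂ) -
          2 * ((x a - q a : ℝ) : ℂ) * Tt q (pd b w) x / (S q x : ℂ) ^ 2))) 0 := by
    refine HasDerivAt.fun_sum fun b _ => ?_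
    have h1 := ((line_X q x a b).ofReal_comp).fun_mul (line_W q (pd_smooth hw b) hx a)
    refine HasDerivAt.congr_deriv h1 ?_
    simp only [h0]
  refine HasDerivAt.congr_deriv h ?_
  rw [Finset.sum_add_distrib]
  congr 1
  · simp only [apply_ite Complex.ofReal, Complex.ofReal_one, Complex.ofReal_zero, ite_mul,
      one_mul, zero_mul, Finset.sum_ite_eq', Finset.mem_univ, if_true]
  · rw [Finset.sum_div, Finset.mul_sum, Finset.sum_div, ← Finset.sum_sub_distrib]
    refine Finset.sum_congr rfl fun b _ => ?_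
    unfold Tt
    ring

/-- The Laplacian as a sum of second derivatives. -/
theorem dv_one {w : V n → ℂ} (x : V n) :
    dv (fun _ => 1) w x = ∑ a, pd a (pd a w) x := by
  unfold dv
  refine Finset.sum_congr rfl fun i _ => ?_
  congr 1
  funext y
  have h1 : ∀ j, (((1 : Matrix (Fin n) (Fin n) ℝ) i j : ℝ) : ℂ) =
      if i = j then 1 else 0 := fun j => by
    rw [Matrix.one_apply]; split_ifs <;> simp
  simp only [h1, ite_mul, one_mul, zero_mul, Finset.sum_ite_eq, Finset.mem_univ, if_true]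

theorem pd_pd_K (q : V n) {w : V n → ℂ} (hw : ContDiff ℝ ∞ w) {x : V n} (hx : 0 < S q x)
    (a : Fin n) : pd a (pd a (KT q w)) x =
      pd a (fun y => ((S q y ^ al n : ℝ) : ℂ) * Rr q w a y) x := by
  have hev : ∀ᶠ y in 𝓝 x, 0 < S q y := (S_contDiff q).continuous.continuousAt.eventually
    (lt_mem_nhds hx)
  have h : pd a (KT q w) =ᶠ[𝓝 x] fun y => ((S q y ^ al n : ℝ) : ℂ) * Rr q w a y := by
    filter_upwards [hev] with y hy
    exact pd_K q hw hy a
  show fderiv ℝ (pd a (KT q w)) x _ = fderiv ℝ _ x _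
  rw [h.fderiv_eq]

/-- **The Laplacian of the Kelvin transform.** -/
theorem dv_K (q : V n) {w : V n → ℂ} (hw : ContDiff ℝ ∞ w) {x : V n} (hx : 0 < S q x) :
    dv (fun _ => 1) (KT q w) x =
      ((S q x ^ al n : ℝ) : ℂ) / (S q x : ℂ) ^ 2 * dv (fun _ => 1) w (Yv q x) := by
  have hS : (S q x : ℂ) ≠ 0 := by exact_mod_cast hx.ne'
  have h0 : ∀ i : Fin n, x + (0 : ℝ) • (Pi.single i (1 : ℝ) : V n) = x := by simp
  rw [dv_one, dv_one]
  have e1 : ∀ a, pd a (pd a (KT q w)) x = _ := fun a =>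
    (pd_pd_K q hw hx a).trans
      (pd_line (((P_contDiffAt q hx _).mul (R_contDiffAt q hw hx a)).differentiableAt (by simp))
      ((line_P q hx a (al n)).fun_mul ((((((line_X q x a a).ofReal_comp).const_mul
        (2 * (al n : ℂ))).fun_mul (line_W q hw hx a)).fun_add
        (line_W q (pd_smooth hw a) hx a)).fun_div ((line_S q x a).ofReal_comp)
          (by rw [h0]; exact hS) |>.fun_sub
        (((((line_X q x a a).ofReal_comp).const_mul (2 : ℂ)).fun_mul (line_T q hw hx a)).fun_div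
          (((line_S q x a).ofReal_comp).fun_pow 2) (by rw [h0]; exact pow_ne_zero 2 hS)))))
  simp only [e1, h0, if_true]
  have hp1 : S q x ^ (al n - 1) = S q x ^ al n / S q x := by
    rw [Real.rpow_sub_one hx.ne']
  have hX2 : ∑ i, ((x i - q i : ℝ) : ℂ) ^ 2 = (S q x : ℂ) := by
    unfold S
    push_cast
    rfl
  have hT : ∑ i, ((x i - q i : ℝ) : ℂ) * pd i w (Yv q x) = Tt q w x := rfl
  have hQ : ∑ i, ((x i - q i : ℝ) : ℂ) * (∑ b, ((x b - q b : ℝ) : ℂ) * pd i (pd b w) (Yv q x)) =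
      ∑ b, ((x b - q b : ℝ) : ℂ) * Tt q (pd b w) x := by
    unfold Tt
    simp only [Finset.mul_sum]
    rw [Finset.sum_comm]
    refine Finset.sum_congr rfl fun i _ => Finset.sum_congr rfl fun j _ => ?_
    ring
  rw [hp1]
  set P : ℂ := ((S q x ^ al n : ℝ) : ℂ) with hP
  set s : ℂ := (S q x : ℂ) with hs
  set T : ℂ := Tt q w x with hTd
  set W : ℂ := w (Yv q x) with hW
  set Q : ℂ := ∑ b, ((x b - q b : ℝ) : ℂ) * Tt q (pd b w) x with hQd
  have key : ∀ i, (((2 * (x i - q i) * al n * (S q x ^ al n / S q x) : ℝ) : ℂ) * Rr q w i x +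
        P *
          (((2 * (al n : ℂ) * ((1 : ℝ) : ℂ) * W +
                      2 * (al n : ℂ) * ((x i - q i : ℝ) : ℂ) * (pd i w (Yv q x) / s -
                        2 * ((x i - q i : ℝ) : ℂ) * T / s ^ 2) +
                    (pd i (pd i w) (Yv q x) / s -
                      2 * ((x i - q i : ℝ) : ℂ) * Tt q (pd i w) x / s ^ 2)) * s -
                (2 * (al n : ℂ) * ((x i - q i : ℝ) : ℂ) * W + pd i w (Yv q x)) *
                  ((2 * (x i - q i) : ℝ) : ℂ)) / s ^ 2 -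
            ((2 * ((1 : ℝ) : ℂ) * T +
                    2 * ((x i - q i : ℝ) : ℂ) *
                      (pd i w (Yv q x) +
                        ((∑ b, ((x b - q b : ℝ) : ℂ) * pd i (pd b w) (Yv q x)) / s -
                          2 * ((x i - q i : ℝ) : ℂ) * Q / s ^ 2))) * s ^ 2 -
                2 * ((x i - q i : ℝ) : ℂ) * T * (((2 : ℕ) : ℂ) * s ^ (2 - 1) *
                  ((2 * (x i - q i) : ℝ) : ℂ))) / (s ^ 2) ^ 2)) =
      P * (2 * (al n : ℂ) * W / s - 2 * T / s ^ 2) +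
      P * (4 * (al n : ℂ) ^ 2 * W / s ^ 2 - 8 * (al n : ℂ) * T / s ^ 3 - 4 * (al n : ℂ) * W / s ^ 2 +
        4 * Q / s ^ 4 + 8 * T / s ^ 3) * ((x i - q i : ℝ) : ℂ) ^ 2 +
      P * (4 * (al n : ℂ) - 4) / s ^ 2 * (((x i - q i : ℝ) : ℂ) * pd i w (Yv q x)) -
      P * 2 / s ^ 3 * (((x i - q i : ℝ) : ℂ) * Tt q (pd i w) x) -
      P * 2 / s ^ 3 * (((x i - q i : ℝ) : ℂ) *
        (∑ b, ((x b - q b : ℝ) : ℂ) * pd i (pd b w) (Yv q x))) +
      P / s ^ 2 * pd i (pd i w) (Yv q x) := by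
    intro i
    unfold Rr
    simp only [← hTd, ← hs, ← hW]
    push_cast
    simp only [← hP, ← hs]
    field_simp
    ring
  simp only [key, Finset.sum_add_distrib, Finset.sum_sub_distrib, ← Finset.mul_sum, hT, hX2, hQ,
    ← hQd, Finset.sum_const, Finset.card_univ, Fintype.card_fin, nsmul_eq_mul]
  have hal : (al n : ℂ) = (2 - n) / 2 := by
    unfold al
    push_cast
    ring
  rw [hal]
  field_simp
  ring

end Vale.Agent.P088.H639.Kv
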