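import Vale.Agent.P088.H198.Defs

/-!
# P088, stage 2: concentration at a boundary point

A continuous weight with a unique maximum on the closure of `Ω`.
-/

open MeasureTheory Set Filter Topology
open scoped ContDiff

noncomputable section

namespace Vale.Agent.P088.H639

open Vale.Agent.P088.LR

variable {n : ℕ}

/-- The measure `m dx` on `Ω`. -/
def mu (Ω : Set (V n)) (m : V n → ℝ) : Measure (V n) :=
  (volume.restrict Ω).withDensity fun x => ENNReal.ofReal (m x)

theorem meas_m {m : V n → ℝ} (hm : Continuous m) :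
    Measurable fun x => ENNReal.ofReal (m x) := ENNReal.measurable_ofReal.comp hm.measurable

theorem mu_lt_top {Ω : Set (V n)} (hb : Bornology.IsBounded Ω) {m : V n → ℝ} (hm : Continuous m) :
    mu Ω m univ < ⊤ := by
  have h : IntegrableOn m Ω :=
    (hm.continuousOn.integrableOn_compact hb.isCompact_closure).mono_set subset_closure
  unfold mu
  rw [withDensity_apply _ MeasurableSet.univ, Measure.restrict_univ]
  calc ∫⁻ x in Ω, ENNReal.ofReal (m x) ≤ ∫⁻ x in Ω, ‖m x‖ₑ :=
        lintegral_mono fun x => by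
          rw [← ofReal_norm_eq_enorm]
          exact ENNReal.ofReal_le_ofReal (Real.le_norm_self _)
    _ < ⊤ := h.2

theorem int_mu {Ω : Set (V n)} (hO : IsOpen Ω) {m : V n → ℝ} (hm : Continuous m)
    (hpos : ∀ x ∈ Ω, 0 ≤ m x) {F : Type*} [NormedAddCommGroup F] [NormedSpace ℝ F]
    (g : V n → F) : ∫ x in closure Ω, g x ∂(mu Ω m) = ∫ x in Ω, m x • g x := by
  have e1 : (mu Ω m).restrict (closure Ω) = mu Ω m := by
    unfold mu
    rw [restrict_withDensity isClosed_closure.measurableSet,
      Measure.restrict_restrict isClosed_closure.measurableSet,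
      inter_eq_right.mpr subset_closure]
  rw [e1]
  unfold mu
  rw [integral_withDensity_eq_integral_toReal_smul (meas_m hm)
    (Eventually.of_forall fun _ => ENNReal.ofReal_lt_top)]
  refine setIntegral_congr_fun hO.measurableSet fun x hx => ?_
  simp only [ENNReal.toReal_ofReal (hpos x hx)]

/-- **Concentration.** -/
theorem peak {Ω : Set (V n)} (hO : IsOpen Ω) (hb : Bornology.IsBounded Ω) {p : V n}
    (hp : p ∈ closure Ω) {m : V n → ℝ} (hm : Continuous m) (hpos : ∀ x ∈ Ω, 0 < m x)
    {c : V n → ℝ} (hc : ContinuousOn c (closure Ω)) (hmax : ∀ y ∈ closure Ω, y ≠ p → c y < c p)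
    (hc0 : ∀ x ∈ closure Ω, 0 < c x) {G : V n → ℂ} (hG : ContinuousOn G (closure Ω)) :
    Tendsto (fun N : ℕ => (((∫ x in Ω, c x ^ N * m x : ℝ) : ℂ))⁻¹ *
      ∫ x in Ω, ((c x ^ N * m x : ℝ) : ℂ) * G x) atTop (𝓝 (G p)) := by
  have : IsFiniteMeasure (mu Ω m) := ⟨mu_lt_top hb hm⟩
  have hpos' : ∀ x ∈ Ω, 0 ≤ m x := fun x hx => (hpos x hx).le
  have hK : IsCompact (closure Ω) := hb.isCompact_closure
  have hmu : ∀ u, IsOpen u → p ∈ u → 0 < mu Ω m (u ∩ closure Ω) := by
    intro u hu hpu
    obtain ⟨y, hyu, hyO⟩ := mem_closure_iff.1 hp u hu hpu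
    have h1 : mu Ω m (u ∩ Ω) ≤ mu Ω m (u ∩ closure Ω) := by
      gcongr
      exact subset_closure
    refine lt_of_lt_of_le ?_ h1
    unfold mu
    rw [withDensity_apply _ (hu.inter hO).measurableSet,
      Measure.restrict_restrict (hu.inter hO).measurableSet, inter_assoc, inter_self]
    rw [lintegral_pos_iff_support (meas_m hm),
      Measure.restrict_apply' (hu.inter hO).measurableSet]
    have h2 : Function.support (fun x => ENNReal.ofReal (m x)) ∩ (u ∩ Ω) = u ∩ Ω := by
      refine inter_eq_right.mpr fun x hx => ?_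
      simp only [Function.mem_support, ne_eq, ENNReal.ofReal_eq_zero, not_le]
      exact hpos x hx.2
    rw [h2]
    exact (hu.inter hO).measure_pos volume ⟨y, hyu, hyO⟩
  have h := tendsto_setIntegral_pow_smul_of_unique_maximum_of_isCompact_of_measure_nhdsWithin_pos
    (μ := mu Ω m) hK hmu hc hmax (fun x hx => (hc0 x hx).le) (hc0 p hp) hp
    (hG.integrableOn_compact hK) (hG p hp)
  refine h.congr fun N => ?_
  rw [int_mu hO hm hpos', int_mu hO hm hpos', Complex.real_smul]
  have e1 : ∫ x in Ω, m x • c x ^ N = ∫ x in Ω, c x ^ N * m x := by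
    refine integral_congr_ae (Eventually.of_forall fun x => ?_)
    simp only [smul_eq_mul]
    ring
  have e2 : ∫ x in Ω, m x • c x ^ N • G x = ∫ x in Ω, ((c x ^ N * m x : ℝ) : ℂ) * G x := by
    refine integral_congr_ae (Eventually.of_forall fun x => ?_)
    simp only [Complex.real_smul]
    push_cast
    ring
  rw [e1, e2, Complex.ofReal_inv]

/-- The normalising constants are positive. -/
theorem peak_pos {Ω : Set (V n)} (hO : IsOpen Ω) (hb : Bornology.IsBounded Ω) {p : V n}
    (hp : p ∈ closure Ω) {m : V n → ℝ} (hm : Continuous m) (hpos : ∀ x ∈ Ω, 0 < m x)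
    {c : V n → ℝ} (hc : ContinuousOn c (closure Ω)) (hc0 : ∀ x ∈ closure Ω, 0 < c x) (N : ℕ) :
    0 < ∫ x in Ω, c x ^ N * m x := by
  have hK : IsCompact (closure Ω) := hb.isCompact_closure
  have hint : IntegrableOn (fun x => c x ^ N * m x) Ω :=
    (((hc.pow N).mul hm.continuousOn).integrableOn_compact hK).mono_set subset_closure
  have hne : Ω.Nonempty := closure_nonempty_iff.mp ⟨p, hp⟩
  have hp' : ∀ x ∈ Ω, 0 < c x ^ N * m x := fun x hx =>
    mul_pos (pow_pos (hc0 x (subset_closure hx)) N) (hpos x hx)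
  rw [setIntegral_pos_iff_support_of_nonneg_ae ?_ hint]
  · have h2 : Function.support (fun x => c x ^ N * m x) ∩ Ω = Ω :=
      inter_eq_right.mpr fun x hx => (hp' x hx).ne'
    rw [h2]
    exact hO.measure_pos volume hne
  · exact (ae_restrict_iff' hO.measurableSet).mpr (Eventually.of_forall fun x hx => (hp' x hx).le)

end Vale.Agent.P088.H639
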