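import Vale.Agent.P088.H639.En
import Vale.Agent.P088.H158.PushA
import Vale.Agent.P088.H833.Top

/-!
# P088, local rigidity: the Dirichlet energies and push-forwards; the chain with equal energies
-/

open MeasureTheory Set
open scoped ContDiff Matrix

noncomputable section

namespace Vale.Agent.P088.H639

open Vale.Agent.P088.LR Vale.Agent.P088.H884

variable {n : ℕ}

/-- The push-forward of the real form. -/
theorem rb_push {Ω : Set (V n)} {w K : V n → V n} (D : Dif Ω w K) (hO : IsOpen Ω) (s : MF n)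
    {u v : V n → ℝ} (hu : ContDiff ℝ ∞ u) (hv : ContDiff ℝ ∞ v) :
    rb Ω (psh s w K) u v = rb Ω s (fun x => u (x + w x)) (fun x => v (x + w x)) := by
  have hH : ContDiff ℝ ∞ fun x => x + w x := contDiff_id.add D.sw
  have h := H158.bl_push D hO s (u := oc u) (v := oc v) ((oc_contDiff hu).differentiable (by simp))
    ((oc_contDiff hv).differentiable (by simp))
  have e1 : (fun x => oc u (x + w x)) = oc (fun x => u (x + w x)) := rfl
  have e2 : (fun x => oc v (x + w x)) = oc (fun x => v (x + w x)) := rfl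
  rw [e1, e2, bl_oc hu hv] at h
  have h2 : bl Ω s (oc (fun x => u (x + w x))) (oc (fun x => v (x + w x))) =
      ((rb Ω s (fun x => u (x + w x)) (fun x => v (x + w x)) : ℝ) : ℂ) :=
    bl_oc (hu.comp hH) (hv.comp hH)
  rw [h2] at h
  exact_mod_cast h

/-- The Dirichlet energies of a push-forward. -/
theorem En_push {Ω : Set (V n)} {w K : V n → V n} (D : Dif Ω w K) (hO : IsOpen Ω) (s : MF n)
    (f : V n → ℝ) : En Ω (psh s w K) f = En Ω s f := by
  have hH : ContDiff ℝ ∞ fun x => x + w x := contDiff_id.add D.sw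
  unfold En
  congr 1
  ext e
  constructor
  · rintro ⟨u, hu, huf, rfl⟩
    refine ⟨fun x => u (x + w x), hu.comp hH, fun x hx => ?_, rb_push D hO s hu hu⟩
    show u (x + w x) = f x
    rw [D.z x (H158.frontier_off D hO hx), add_zero, huf x hx]
  · rintro ⟨u, hu, huf, rfl⟩
    refine ⟨fun y => u (K y), hu.comp D.sK, fun x hx => ?_, ?_⟩
    · show u (K x) = f x
      rw [H158.K_off D (H158.frontier_off D hO hx), huf x hx]
    · have h := rb_push D hO s (u := fun y => u (K y)) (v := fun y => u (K y))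
        (hu.comp D.sK) (hu.comp D.sK)
      rw [h]
      simp only [D.l]

/-- Equality of the energies is invariant under push-forward. -/
theorem SE_push {Ω : Set (V n)} {w K : V n → V n} (D : Dif Ω w K) (hO : IsOpen Ω) {t s : MF n}
    (h : SE Ω t s) : SE Ω t (psh s w K) := fun f hf => by
  rw [En_push D hO, h f hf]

/-- The push-forward is positive semidefinite. -/
theorem psd_psh {Ω : Set (V n)} {w K : V n → V n} (D : Dif Ω w K) {s : MF n}
    (hp : ∀ x, (s x).PosSemidef) (x : V n) : (psh s w K x).PosSemidef := by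
  have h := (hp (K x)).mul_mul_conjTranspose_same (jm w (K x))
  rw [Matrix.conjTranspose_eq_transpose_of_trivial] at h
  exact h.smul (inv_nonneg.mpr (D.dp (K x)).le)

/-- `√(det g) g⁻¹` is positive semidefinite. -/
theorem psd_sg {g : MF n} (hp : ∀ x, (g x).PosDef) (x : V n) : (sg g x).PosSemidef :=
  (hp x).inv.posSemidef.smul (Real.sqrt_nonneg _)

/-- **The chain of the rows with equal Dirichlet energies.** -/
theorem chainSE (weak : RowWEAK) (hN0 : RowNORM0) (hN1 : RowNORM1) (hA3 : RowA3)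
    (hG : H833.Gauge0) (hD : RowDIF) (hP : RowPUSH) (hC : RowCORE) (hI : RowISO) (n : ℕ)
    (hn : 3 ≤ n) : ∃ (k : ℕ) (ε : ℝ), 0 < ε ∧ ∀ (Ω : Set (V n)), IsOpen Ω →
      interior (closure Ω) = Ω → Ω ⊆ core n → ∀ g : MF n, SmM g → (∀ x, (g x).PosDef) →
      (∀ x ∉ Ω, g x = 1) →
      (∀ i j, Cl k ε (fun x => g x i j - (1 : Matrix (Fin n) (Fin n) ℝ) i j)) →
      SE Ω (fun _ => 1) (sg g) → ∃ w K, Dif Ω w K ∧ ∀ x, g x = (jm w x)ᵀ * jm w x := by
  obtain ⟨k, ε, hε, h⟩ := H833.chain hN0 hN1 hA3 hG hD hP hC hI n hn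
  refine ⟨k, ε, hε, fun Ω hO hi hc g hg hp h1 hcl hSE => ?_⟩
  have hb : Bornology.IsBounded Ω := H833.bounded_core.subset hc
  have hs := H833.smM_sg hg hp
  refine h Ω hO hi hc g hg hp h1 hcl ?_ fun w K D => ?_
  · exact star_of_SE weak hO hb hs (H833.symm_sg hp) (psd_sg hp) hSE
  · exact star_of_SE weak hO hb (H158.smM_psh D hs) (H158.isSymm_psh D (H833.symm_sg hp))
      (psd_psh D (psd_sg hp)) (SE_push D hO hSE)

end Vale.Agent.P088.H639
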