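import Vale.Agent.P088.H639.Push
import Vale.Agent.P088.H925.Scale

/-!
# P088, local rigidity: scaling, for any scaling invariant hypothesis on the data
-/

open MeasureTheory Set
open scoped ContDiff Matrix Pointwise

noncomputable section

namespace Vale.Agent.P088.H639

open Vale.Agent.P088.LR Vale.Agent.P088.H884

variable {n : ℕ}

/-- Local rigidity of the flat metric with the hypothesis `P Ω (√(det g) g⁻¹)` on the data. -/
def LocP (n : ℕ) (P : Set (V n) → MF n → Prop) (k : ℕ) (ε : ℝ) (D : Set (V n)) : Prop :=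
  ∀ (Ω : Set (V n)), IsOpen Ω →
  interior (closure Ω) = Ω → Ω ⊆ D → ∀ g : MF n, SmM g → (∀ x, (g x).PosDef) →
  (∀ x ∉ Ω, g x = 1) → (∀ i j, Cl k ε (fun x => g x i j - (1 : Matrix (Fin n) (Fin n) ℝ) i j)) →
  P Ω (sg g) → ∃ w K, Dif Ω w K ∧ ∀ x, g x = (jm w x)ᵀ * jm w x

open H925 in
/-- Scaling (after H925, for a general hypothesis). -/
theorem scaleP (P : Set (V n) → MF n → Prop)
    (hPs : ∀ t : ℝ, 0 < t → ∀ Ω : Set (V n), IsOpen Ω → ∀ s, P Ω s → P (ps t ⁻¹' Ω) (rs t s))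
    (k : ℕ) (ε : ℝ) (hε : 0 < ε) (hL : LocP n P k ε (core n)) (R : ℝ) (hR : 0 < R) :
    ∃ ε' > 0, LocP n P k ε' {x | ∀ j, |x j| ≤ R} := by
  set t : ℝ := 4 * R with ht
  have ht0 : 0 < t := by positivity
  have hM : 0 < max 1 t ^ k := by positivity
  refine ⟨ε / max 1 t ^ k, by positivity, ?_⟩
  intro Ω hO hreg hD g hg hp h1 hC hS
  set Ω' : Set (V n) := ps t ⁻¹' Ω with hΩ'
  have hO' : IsOpen Ω' := hO.preimage (contDiff_ps t).continuous
  have hreg' : interior (closure Ω') = Ω' := by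
    have e1 := (hm (n := n) t ht0.ne').preimage_closure Ω
    have e2 := (hm (n := n) t ht0.ne').preimage_interior (closure Ω)
    have e3 : (hm (n := n) t ht0.ne') ⁻¹' Ω = Ω' := rfl
    rw [e1, e3, hreg, e3] at e2
    exact e2.symm
  have hD' : Ω' ⊆ core n := by
    intro y hy j
    have := hD hy j
    simp only [ps, Pi.smul_apply, Pi.sub_apply, smul_eq_mul] at this
    rw [abs_le] at this
    constructor <;> nlinarith [this.1, this.2]
  have hg' : SmM (rs t g) := fun i j => (hg i j).comp (contDiff_ps t)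
  have hC' : ∀ i j, Cl k ε (fun x => rs t g x i j - (1 : Matrix (Fin n) (Fin n) ℝ) i j) := by
    intro i j
    have := cl_ps ((hg i j).sub contDiff_const) ht0 (hC i j)
    rwa [mul_div_cancel₀ _ hM.ne'] at this
  have hS' : P Ω' (sg (rs t g)) := hPs t ht0 Ω hO (sg g) hS
  obtain ⟨w, K, hdf, hgw⟩ := hL Ω' hO' hreg' hD' (rs t g) hg' (fun x => hp _) (fun x hx => h1 _ hx)
    hC' hS'
  have ew : ∀ x, x + t • w (ph t x) = ps t (ph t x + w (ph t x)) := by
    intro x
    conv_lhs => rw [← ps_ph ht0.ne' x]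
    rw [ph_ps ht0.ne']
    simp only [ps, smul_sub, smul_add]
    abel
  have ejm : ∀ x, jm (fun x => t • w (ph t x)) x = jm w (ph t x) := by
    intro x
    funext i j
    simp only [jm]
    have hd : Differentiable ℝ (fun y => t • w y) :=
      (hdf.sw.differentiable (by simp)).const_smul t
    have e := pd_ph j hd t x
    have e' : pd j (fun y => t • w y) (ph t x) = t • pd j w (ph t x) := by
      unfold pd
      rw [fderiv_fun_const_smul (hdf.sw.differentiable (by simp) _)]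
      rfl
    rw [e, e', smul_smul, inv_mul_cancel₀ ht0.ne', one_smul]
  refine ⟨fun x => t • w (ph t x), fun x => ps t (K (ph t x)), ⟨?_, ?_, ?_, ?_, ?_, ?_⟩, ?_⟩
  · exact (hdf.sw.comp (contDiff_ph t)).const_smul t
  · exact (contDiff_ps t).comp (hdf.sK.comp (contDiff_ph t))
  · intro x
    show ps t (K (ph t (x + t • w (ph t x)))) = x
    rw [ew, ph_ps ht0.ne', hdf.l, ps_ph ht0.ne']
  · intro y
    show ps t (K (ph t y)) + t • w (ph t (ps t (K (ph t y)))) = y
    rw [ew, ph_ps ht0.ne', hdf.r, ps_ph ht0.ne']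
  · intro x hx
    show t • w (ph t x) = 0
    rw [hdf.z, smul_zero]
    intro h
    apply hx
    have : ps t (ph t x) ∈ Ω := h
    rwa [ps_ph ht0.ne'] at this
  · intro x
    rw [ejm]
    exact hdf.dp _
  · intro x
    rw [ejm]
    have := hgw (ph t x)
    simp only [rs] at this
    rwa [ps_ph ht0.ne'] at this

/-- The scaling factor of the energies. -/
theorem rb_ps {t : ℝ} (Ω : Set (V n)) (hΩ : MeasurableSet Ω) (s : MF n) {u v : V n → ℝ}
    (hu : ContDiff ℝ ∞ u) (hv : ContDiff ℝ ∞ v) :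
    rb (H925.ps t ⁻¹' Ω) (H925.rs t s) (fun y => u (H925.ps t y)) (fun y => v (H925.ps t y)) =
      (t ^ 2 * H925.fac n t) * rb Ω s u v := by
  have h := H925.bl_ps t Ω hΩ s (oc u) (oc v) ((oc_contDiff hu).differentiable (by simp))
    ((oc_contDiff hv).differentiable (by simp))
  have h2 : bl (H925.ps t ⁻¹' Ω) (H925.rs t s) (oc (fun y => u (H925.ps t y)))
      (oc (fun y => v (H925.ps t y))) = ((rb (H925.ps t ⁻¹' Ω) (H925.rs t s)
      (fun y => u (H925.ps t y)) (fun y => v (H925.ps t y)) : ℝ) : ℂ) :=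
    bl_oc (hu.comp (H925.contDiff_ps t)) (hv.comp (H925.contDiff_ps t))
  have h3 := h2.symm.trans h
  rw [bl_oc hu hv] at h3
  exact_mod_cast h3

/-- The energies after scaling. -/
theorem En_ps {t : ℝ} (ht : 0 < t) (Ω : Set (V n)) (hΩ : MeasurableSet Ω) (s : MF n)
    (f : V n → ℝ) : En (H925.ps t ⁻¹' Ω) (H925.rs t s) f =
      (t ^ 2 * H925.fac n t) * En Ω s (fun x => f (H925.ph t x)) := by
  have hc : 0 ≤ t ^ 2 * H925.fac n t := by
    unfold H925.fac
    positivity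
  unfold En
  rw [← smul_eq_mul, ← Real.sInf_smul_of_nonneg hc]
  congr 1
  have hfr : ∀ y, y ∈ frontier (H925.ps t ⁻¹' Ω) ↔ H925.ps t y ∈ frontier Ω := by
    intro y
    have := (H925.hm (n := n) t ht.ne').preimage_frontier Ω
    exact (Set.ext_iff.mp this y).symm
  ext e
  rw [Set.mem_smul_set]
  constructor
  · rintro ⟨u, hu, huf, rfl⟩
    refine ⟨_, ⟨fun x => u (H925.ph t x), hu.comp (H925.contDiff_ph t), fun x hx => ?_, rfl⟩, ?_⟩
    · exact huf _ ((hfr _).mpr (by rwa [H925.ps_ph ht.ne']))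
    · have h := rb_ps (t := t) Ω hΩ s (u := fun x => u (H925.ph t x))
        (v := fun x => u (H925.ph t x)) (hu.comp (H925.contDiff_ph t))
        (hu.comp (H925.contDiff_ph t))
      simp only [H925.ph_ps ht.ne'] at h
      rw [smul_eq_mul, ← h]
  · rintro ⟨_, ⟨u, hu, huf, rfl⟩, rfl⟩
    refine ⟨fun y => u (H925.ps t y), hu.comp (H925.contDiff_ps t), fun y hy => ?_, ?_⟩
    · show u (H925.ps t y) = f y
      rw [huf _ ((hfr y).mp hy)]
      show f (H925.ph t (H925.ps t y)) = f y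
      rw [H925.ph_ps ht.ne']
    · rw [smul_eq_mul, rb_ps Ω hΩ s hu hu]

/-- Equality of the energies is invariant under scaling. -/
theorem SE_ps (t : ℝ) (ht : 0 < t) (Ω : Set (V n)) (hO : IsOpen Ω) (s : MF n)
    (h : SE Ω (fun _ => 1) s) : SE (H925.ps t ⁻¹' Ω) (fun _ => 1) (H925.rs t s) := by
  intro f hf
  have h1 := En_ps ht Ω hO.measurableSet (fun _ => (1 : Matrix (Fin n) (Fin n) ℝ)) f
  have h2 := En_ps ht Ω hO.measurableSet s f
  have h3 : En Ω (fun _ => 1) (fun x => f (H925.ph t x)) = En Ω s (fun x => f (H925.ph t x)) :=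
    h _ (hf.comp (H925.contDiff_ph t))
  rw [h2, ← h3, ← h1]
  rfl

/-- **Scaling with equal Dirichlet energies.** -/
theorem scaleSE (n k : ℕ) (ε : ℝ) (hε : 0 < ε)
    (hL : LocP n (fun Ω s => SE Ω (fun _ => 1) s) k ε (core n)) (R : ℝ) (hR : 0 < R) :
    ∃ ε' > 0, LocP n (fun Ω s => SE Ω (fun _ => 1) s) k ε' {x | ∀ j, |x j| ≤ R} :=
  scaleP _ (fun t ht Ω hO s h => SE_ps t ht Ω hO s h) k ε hε hL R hR

/-- **Local rigidity of the flat metric, equal Dirichlet energies** (rows as hypotheses). -/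
theorem locSE (weak : RowWEAK) (hN0 : RowNORM0) (hN1 : RowNORM1) (hA3 : RowA3)
    (hG : H833.Gauge0) (hD : RowDIF) (hP : RowPUSH) (hC : RowCORE) (hI : RowISO) (n : ℕ)
    (hn : 3 ≤ n) : ∃ k : ℕ, ∀ R : ℝ, 0 < R → ∃ ε > 0,
      LocP n (fun Ω s => SE Ω (fun _ => 1) s) k ε {x | ∀ j, |x j| ≤ R} := by
  obtain ⟨k, ε, hε, h⟩ := chainSE weak hN0 hN1 hA3 hG hD hP hC hI n hn
  exact ⟨k, fun R hR => scaleSE n k ε hε h R hR⟩

end Vale.Agent.P088.H639
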