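import Vale.Agent.P088.H639.ConjX

/-!
# P088, stage 2 with a conformally flat base: uniform smallness and concentration
-/

open MeasureTheory Set Filter Topology
open scoped ContDiff

noncomputable section

namespace Vale.Agent.P088.H639.Kv

open Vale.Agent.P088.LR

variable {n : ℕ}

/-- Uniformly small on `K`. -/
def Sml (K : Set (V n)) (f : ℕ → V n → ℂ) : Prop :=
  ∀ ε > 0, ∀ᶠ N : ℕ in atTop, ∀ x ∈ K, ‖f N x‖ ≤ ε

/-- Uniformly bounded on `K`. -/
def UBd (K : Set (V n)) (f : ℕ → V n → ℂ) : Prop :=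
  ∃ C : ℝ, 0 < C ∧ ∀ᶠ N : ℕ in atTop, ∀ x ∈ K, ‖f N x‖ ≤ C

variable {K : Set (V n)} {f g : ℕ → V n → ℂ}

theorem Sml.add (hf : Sml K f) (hg : Sml K g) : Sml K fun N x => f N x + g N x := by
  intro ε hε
  filter_upwards [hf (ε / 2) (by positivity), hg (ε / 2) (by positivity)] with N h1 h2 x hx
  calc ‖f N x + g N x‖ ≤ ‖f N x‖ + ‖g N x‖ := norm_add_le _ _
    _ ≤ ε / 2 + ε / 2 := add_le_add (h1 x hx) (h2 x hx)
    _ = ε := by ring

theorem Sml.ubd (hf : Sml K f) : UBd K f := ⟨1, one_pos, hf 1 one_pos⟩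

theorem UBd.add (hf : UBd K f) (hg : UBd K g) : UBd K fun N x => f N x + g N x := by
  obtain ⟨C, hC, hf⟩ := hf
  obtain ⟨D, hD, hg⟩ := hg
  refine ⟨C + D, by positivity, ?_⟩
  filter_upwards [hf, hg] with N h1 h2 x hx
  exact (norm_add_le _ _).trans (add_le_add (h1 x hx) (h2 x hx))

theorem UBd.mul_sml (hf : UBd K f) (hg : Sml K g) : Sml K fun N x => f N x * g N x := by
  obtain ⟨C, hC, hf⟩ := hf
  intro ε hε
  filter_upwards [hf, hg (ε / C) (by positivity)] with N h1 h2 x hx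
  calc ‖f N x * g N x‖ = ‖f N x‖ * ‖g N x‖ := norm_mul _ _
    _ ≤ C * (ε / C) := mul_le_mul (h1 x hx) (h2 x hx) (norm_nonneg _) hC.le
    _ = ε := by field_simp

theorem UBd.mul (hf : UBd K f) (hg : UBd K g) : UBd K fun N x => f N x * g N x := by
  obtain ⟨C, hC, hf⟩ := hf
  obtain ⟨D, hD, hg⟩ := hg
  refine ⟨C * D, by positivity, ?_⟩
  filter_upwards [hf, hg] with N h1 h2 x hx
  rw [norm_mul]
  exact mul_le_mul (h1 x hx) (h2 x hx) (norm_nonneg _) hC.le

theorem UBd.of_cont (hK : IsCompact K) {c : V n → ℂ} (hc : ContinuousOn c K) :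
    UBd K fun _ => c := by
  obtain ⟨C, hC⟩ := hK.exists_bound_of_continuousOn hc
  exact ⟨max C 1, by positivity, Eventually.of_forall fun N x hx =>
    (hC x hx).trans (le_max_left _ _)⟩

theorem Sml.of_tendsto {c : ℕ → ℂ} (hc : Tendsto c atTop (𝓝 0)) : Sml K fun N _ => c N := by
  intro ε hε
  have h := (tendsto_zero_iff_norm_tendsto_zero.mp hc).eventually (Iic_mem_nhds hε)
  filter_upwards [h] with N hN x _
  exact hN

theorem Sml.sum {ι : Type*} (s : Finset ι) {F : ι → ℕ → V n → ℂ} (h : ∀ i ∈ s, Sml K (F i)) :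
    Sml K fun N x => ∑ i ∈ s, F i N x := by
  classical
  induction s using Finset.induction_on with
  | empty =>
    intro ε hε
    exact Eventually.of_forall fun N x _ => by simp [hε.le]
  | insert a s ha ih =>
    have h1 := (h a (Finset.mem_insert_self _ _)).add
      (ih fun i hi => h i (Finset.mem_insert_of_mem hi))
    simpa only [Finset.sum_insert ha] using h1

theorem Sml.congr (hf : Sml K f) (h : ∀ᶠ N : ℕ in atTop, ∀ x ∈ K, g N x = f N x) : Sml K g := by
  intro ε hε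
  filter_upwards [hf ε hε, h] with N h1 h2 x hx
  rw [h2 x hx]
  exact h1 x hx

theorem Sml.comp (hf : Sml K f) {k : ℕ → ℕ} (hk : Tendsto k atTop atTop) :
    Sml K fun N => f (k N) := fun ε hε => hk.eventually (hf ε hε)

theorem Sml.conj (hf : Sml K f) : Sml K fun N x => (starRingEnd ℂ) (f N x) := by
  intro ε hε
  filter_upwards [hf ε hε] with N h x hx
  rw [RCLike.norm_conj]
  exact h x hx

/-- **Concentration with uniformly convergent integrands.** -/
theorem peakU {Ω : Set (V n)} (hO : IsOpen Ω) (hb : Bornology.IsBounded Ω) {p : V n}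
    (hp : p ∈ closure Ω) {m : V n → ℝ} (hm : Continuous m) (hpos : ∀ x ∈ Ω, 0 < m x)
    {c : V n → ℝ} (hc : ContinuousOn c (closure Ω)) (hmax : ∀ y ∈ closure Ω, y ≠ p → c y < c p)
    (hc0 : ∀ x ∈ closure Ω, 0 < c x) {G : V n → ℂ} (hG : ContinuousOn G (closure Ω))
    {Gn : ℕ → V n → ℂ} (hGn : ∀ N, ContinuousOn (Gn N) (closure Ω)) {k : ℕ → ℕ}
    (hk : Tendsto k atTop atTop) (hs : Sml (closure Ω) fun N x => Gn N x - G x) :
    Tendsto (fun N : ℕ => (((∫ x in Ω, c x ^ k N * m x : ℝ) : ℂ))⁻¹ *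
      ∫ x in Ω, ((c x ^ k N * m x : ℝ) : ℂ) * Gn N x) atTop (𝓝 (G p)) := by
  have hK : IsCompact (closure Ω) := hb.isCompact_closure
  have h1 := (peak hO hb hp hm hpos hc hmax hc0 hG).comp hk
  have hD : ∀ N, 0 < ∫ x in Ω, c x ^ k N * m x := fun N => peak_pos hO hb hp hm hpos hc hc0 _
  have hi0 : ∀ N, IntegrableOn (fun x => c x ^ k N * m x) Ω := fun N =>
    (((hc.pow _).mul hm.continuousOn).integrableOn_compact hK).mono_set subset_closure
  have hi : ∀ {F : V n → ℂ}, ContinuousOn F (closure Ω) → ∀ N,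
      IntegrableOn (fun x => ((c x ^ k N * m x : ℝ) : ℂ) * F x) Ω := fun {F} hF N => by
    have h3 : ContinuousOn (fun x => ((c x ^ k N * m x : ℝ) : ℂ) * F x) (closure Ω) :=
      (Complex.continuous_ofReal.comp_continuousOn ((hc.pow _).mul hm.continuousOn)).mul hF
    exact (h3.integrableOn_compact hK).mono_set subset_closure
  have h2 : Tendsto (fun N : ℕ => (((∫ x in Ω, c x ^ k N * m x : ℝ) : ℂ))⁻¹ *
      ∫ x in Ω, ((c x ^ k N * m x : ℝ) : ℂ) * (Gn N x - G x)) atTop (𝓝 0) := by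
    rw [tendsto_zero_iff_norm_tendsto_zero, Metric.tendsto_atTop]
    intro ε hε
    obtain ⟨N₀, hN₀⟩ := eventually_atTop.mp (hs (ε / 2) (by positivity))
    refine ⟨N₀, fun N hN => ?_⟩
    rw [Real.dist_eq, sub_zero, abs_of_nonneg (norm_nonneg _), norm_mul, norm_inv,
      Complex.norm_real, Real.norm_eq_abs, abs_of_pos (hD N)]
    have h4 : ‖∫ x in Ω, ((c x ^ k N * m x : ℝ) : ℂ) * (Gn N x - G x)‖ ≤
        ∫ x in Ω, c x ^ k N * m x * (ε / 2) := by
      refine norm_integral_le_of_norm_le ((hi0 N).mul_const _) ?_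
      refine (ae_restrict_iff' hO.measurableSet).mpr (Eventually.of_forall fun x hx => ?_)
      have h5 : 0 < c x ^ k N * m x := mul_pos (pow_pos (hc0 x (subset_closure hx)) _) (hpos x hx)
      rw [norm_mul, Complex.norm_real, Real.norm_eq_abs, abs_of_pos h5]
      exact mul_le_mul_of_nonneg_left (hN₀ N hN x (subset_closure hx)) h5.le
    rw [integral_mul_const] at h4
    have h6 := hD N
    calc (∫ x in Ω, c x ^ k N * m x)⁻¹ * _ ≤ (∫ x in Ω, c x ^ k N * m x)⁻¹ *
          ((∫ x in Ω, c x ^ k N * m x) * (ε / 2)) := mul_le_mul_of_nonneg_left h4 (by positivity)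
      _ = ε / 2 := by field_simp
      _ < ε := by linarith
  have h3 := h1.add h2
  rw [add_zero] at h3
  refine h3.congr fun N => ?_
  show (((∫ x in Ω, c x ^ k N * m x : ℝ) : ℂ))⁻¹ *
      (∫ x in Ω, ((c x ^ k N * m x : ℝ) : ℂ) * G x) + _ = _
  rw [← mul_add, ← integral_add (hi hG N)
    (hi (F := fun x => Gn N x - G x) ((hGn N).sub hG) N)]
  congr 1
  refine integral_congr_ae (Eventually.of_forall fun x => ?_)
  show _ + _ = _
  ring

end Vale.Agent.P088.H639.Kv
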