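import Vale.Agent.P088.H639.En
import Vale.Agent.P088.H442.Defs3

/-!
# P088: the orthogonality identity of two tensors from equal energies
-/

open MeasureTheory Set
open scoped ContDiff Matrix

noncomputable section

namespace Vale.Agent.P088.H639

open Vale.Agent.P088.LR Vale.Agent.P088.H884

variable {n : ℕ}

/-- (ST2) Equal energies of two tensors give the orthogonality identity. -/
theorem st2_of_SE (weak : RowWEAK) {Ω : Set (V n)} (hO : IsOpen Ω)
    (hb : Bornology.IsBounded Ω) {t s : MF n} (ht : SmM t) (tsym : ∀ x, (t x).IsSymm)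
    (tp : ∀ x, (t x).PosSemidef) (hs : SmM s) (hsym : ∀ x, (s x).IsSymm)
    (hp : ∀ x, (s x).PosSemidef) (hSE : SE Ω t s) : CF.St2 Ω t s := by
  intro U W hU hW hU0 hW0
  have hsc : ∀ i j, Continuous fun x => s x i j := fun i j => (hs i j).continuous
  have htc : ∀ i j, Continuous fun x => t x i j := fun i j => (ht i j).continuous
  have u1 : Sl Ω t (rp U) := Sl_of_dv weak hO hb ht tsym (rp_contDiff hU)
    fun x hx => by rw [(dv_parts ht hU x).1, hU0 x hx]; simp
  have u2 : Sl Ω t (mp U) := Sl_of_dv weak hO hb ht tsym (mp_contDiff hU)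
    fun x hx => by rw [(dv_parts ht hU x).2, hU0 x hx]; simp
  have w1 : Sl Ω s (rp W) := Sl_of_dv weak hO hb hs hsym (rp_contDiff hW)
    fun x hx => by rw [(dv_parts hs hW x).1, hW0 x hx]; simp
  have w2 : Sl Ω s (mp W) := Sl_of_dv weak hO hb hs hsym (mp_contDiff hW)
    fun x hx => by rw [(dv_parts hs hW x).2, hW0 x hx]; simp
  rw [bl_sub_mat hb hsc htc hU hW, bl_re hb hsc hU hW, bl_re hb htc hU hW,
    rb_eq_of_SE hb hsc hsym hp htc tsym tp hSE u1 w1,
    rb_eq_of_SE hb hsc hsym hp htc tsym tp hSE u1 w2,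
    rb_eq_of_SE hb hsc hsym hp htc tsym tp hSE u2 w1,
    rb_eq_of_SE hb hsc hsym hp htc tsym tp hSE u2 w2, sub_self]

end Vale.Agent.P088.H639
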